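import Mathlib

/-! P267 / H331 (helper331), package CHEAP-C2, part B1: boundary behaviour at a point of a countable
set; extension of holomorphic maps over countable sets. -/

namespace Vale.Agent.P267.H331

open Set Filter Topology Metric

noncomputable section

theorem isPreconnected_ball_sdiff (w : ℂ) {r : ℝ} (hr : 0 < r) {A : Set ℂ} (hA : A.Countable) :
    IsPreconnected (ball w r \ A) := by
  set e := OpenPartialHomeomorph.univBall w r with he
  have hsrc : e.source = univ := OpenPartialHomeomorph.univBall_source w r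
  have htgt : e.target = ball w r := OpenPartialHomeomorph.univBall_target w hr
  have hinj : Function.Injective e := by
    intro a b hab
    exact e.injOn (by rw [hsrc]; trivial) (by rw [hsrc]; trivial) hab
  have hA' : (e ⁻¹' A).Countable := hA.preimage_of_injOn hinj.injOn
  have hr2 : 1 < Module.rank ℝ ℂ := by
    rw [Complex.rank_real_complex]; exact Cardinal.one_lt_two
  have h1 : IsPreconnected (e ⁻¹' A)ᶜ :=
    (hA'.isPathConnected_compl_of_one_lt_rank hr2).isConnected.isPreconnected
  have h2 : ball w r \ A = e '' (e ⁻¹' A)ᶜ := by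
    ext x
    constructor
    · rintro ⟨hx, hxA⟩
      rw [← htgt] at hx
      exact ⟨e.symm x, by simp only [mem_compl_iff, mem_preimage, e.right_inv hx]; exact hxA,
        e.right_inv hx⟩
    · rintro ⟨y, hy, rfl⟩
      refine ⟨?_, hy⟩
      rw [← htgt]
      exact e.map_source (by rw [hsrc]; trivial)
  rw [h2]
  refine h1.image _ ?_
  exact e.continuousOn.mono (by rw [hsrc]; exact subset_univ _)

/-- small neighbourhoods whose frontier avoids a given countable set -/
theorem exists_nhd_frontier {M : Type*} [TopologicalSpace M] [T2Space M] [LocallyCompactSpace M]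
    [SecondCountableTopology M] (q : M) {U : Set M} (hU : U ∈ 𝓝 q) {A : Set M}
    (hA : A.Countable) : ∃ V : Set M, IsOpen V ∧ q ∈ V ∧ closure V ⊆ U ∧ IsCompact (closure V) ∧
      Disjoint (frontier V) A := by
  letI : MetricSpace M := TopologicalSpace.metrizableSpaceMetric M
  obtain ⟨K, hK, hKU, hKc⟩ := local_compact_nhds hU
  obtain ⟨ρ, hρ, hρK⟩ := Metric.mem_nhds_iff.1 hK
  have hB : ((fun a => dist a q) '' A).Countable := hA.image _
  have hne : (Ioo (0 : ℝ) ρ \ ((fun a => dist a q) '' A)).Nonempty := by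
    rw [nonempty_iff_ne_empty]
    intro h0
    have h1 : Ioo (0 : ℝ) ρ ⊆ (fun a => dist a q) '' A := by
      intro x hx
      by_contra hxn
      have : x ∈ Ioo (0 : ℝ) ρ \ ((fun a => dist a q) '' A) := ⟨hx, hxn⟩
      rw [h0] at this
      exact this
    have h2 : (Ioo (0 : ℝ) ρ).Countable := hB.mono h1
    have h3 := Cardinal.mk_Ioo_real hρ
    have h4 := Cardinal.le_aleph0_iff_set_countable.2 h2
    rw [h3] at h4
    exact absurd h4 (not_le.2 Cardinal.aleph0_lt_continuum)
  obtain ⟨r, ⟨hr0, hrρ⟩, hrA⟩ := hne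
  have hcb : closedBall q r ⊆ K := (closedBall_subset_ball hrρ).trans hρK
  refine ⟨ball q r, isOpen_ball, mem_ball_self hr0, ?_, ?_, ?_⟩
  · exact closure_ball_subset_closedBall.trans (hcb.trans hKU)
  · exact hKc.of_isClosed_subset isClosed_closure (closure_ball_subset_closedBall.trans hcb)
  · rw [disjoint_left]
    intro a ha haA
    exact hrA ⟨a, haA, frontier_ball_subset_sphere ha⟩

/-- at a point of the boundary either limit or escape to infinity -/
theorem cluster_dichotomy {M : Type*} [TopologicalSpace M] [T2Space M] [LocallyCompactSpace M]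
    [SecondCountableTopology M] {g : ℂ → M} {Ω : Set ℂ} (hΩc : Ωᶜ.Countable)
    (hg : ContinuousOn g Ω) (w : ℂ) {A : Set M} (hA : A.Countable)
    (hcl : ∀ q, ClusterPt q (map g (𝓝[Ω] w)) → q ∈ A) :
    (∃ q ∈ A, Tendsto g (𝓝[Ω] w) (𝓝 q)) ∨ Tendsto g (𝓝[Ω] w) (cocompact M) := by
  set F := map g (𝓝[Ω] w) with hF
  by_cases hesc : Tendsto g (𝓝[Ω] w) (cocompact M)
  · exact Or.inr hesc
  left
  -- a cluster point exists
  have h1 : ∃ q, ClusterPt q F := by
    by_contra hno
    push Not at hno
    apply hesc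
    rw [tendsto_iff_comap, ← map_le_iff_le_comap]
    rw [← hF]
    intro T hT
    obtain ⟨K, hK, hKT⟩ := mem_cocompact.1 hT
    by_contra hTF
    have h2 : (F ⊓ 𝓟 K).NeBot := by
      rw [inf_principal_neBot_iff]
      intro V hV
      by_contra hemp
      apply hTF
      refine mem_of_superset hV ?_
      intro x hx
      apply hKT
      intro hxK
      exact hemp ⟨x, hx, hxK⟩
    obtain ⟨q, -, hq⟩ := hK.exists_clusterPt (f := F ⊓ 𝓟 K) inf_le_right
    exact hno q (hq.mono inf_le_left)
  obtain ⟨q, hq⟩ := h1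
  refine ⟨q, hcl q hq, ?_⟩
  rw [tendsto_iff_comap, ← map_le_iff_le_comap]
  change F ≤ 𝓝 q
  intro U hU
  obtain ⟨V, hVo, hqV, hVU, hVc, hVA⟩ := exists_nhd_frontier q hU hA
  have hVU' : V ⊆ U := subset_closure.trans hVU
  by_contra hUF
  -- the filter on the frontier
  have h3 : (F ⊓ 𝓟 (frontier V)).NeBot := by
    rw [inf_principal_neBot_iff]
    intro T hT
    rw [hF, mem_map, mem_nhdsWithin] at hT
    obtain ⟨O, hO, hwO, hOT⟩ := hT
    obtain ⟨r, hr, hrO⟩ := Metric.isOpen_iff.1 hO w hwO
    have hconn : IsPreconnected (g '' (ball w r \ Ωᶜ)) := by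
      refine (isPreconnected_ball_sdiff w hr hΩc).image g (hg.mono ?_)
      rintro x ⟨-, hx⟩
      exact not_not.1 hx
    have hsub : g '' (ball w r \ Ωᶜ) ⊆ T := by
      rintro _ ⟨x, ⟨hx1, hx2⟩, rfl⟩
      exact hOT ⟨hrO hx1, not_not.1 hx2⟩
    have hmem : g '' (ball w r \ Ωᶜ) ∈ F := by
      rw [hF, mem_map, mem_nhdsWithin]
      refine ⟨ball w r, isOpen_ball, mem_ball_self hr, ?_⟩
      rintro x ⟨hx1, hx2⟩
      exact ⟨x, ⟨hx1, fun hh => hh hx2⟩, rfl⟩
    have hmeet : (g '' (ball w r \ Ωᶜ) ∩ V).Nonempty := by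
      rw [inter_comm]
      exact clusterPt_iff_nonempty.1 hq (hVo.mem_nhds hqV) hmem
    by_contra hemp
    have hsubV : g '' (ball w r \ Ωᶜ) ⊆ V := by
      refine hconn.subset_of_closure_inter_subset hVo hmeet ?_
      rintro x ⟨hx1, hx2⟩
      by_contra hxV
      apply hemp
      refine ⟨x, hsub hx2, ?_⟩
      rw [frontier, hVo.interior_eq]
      exact ⟨hx1, hxV⟩
    exact hUF (mem_of_superset hmem (hsubV.trans hVU'))
  have hfc : IsCompact (frontier V) := hVc.of_isClosed_subset isClosed_frontier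
    frontier_subset_closure
  obtain ⟨q', hq'1, hq'2⟩ := hfc.exists_clusterPt (f := F ⊓ 𝓟 (frontier V)) inf_le_right
  exact disjoint_left.1 hVA hq'1 (hcl q' (hq'2.mono inf_le_left))

/-- continuous and holomorphic off a countable set implies holomorphic -/
theorem differentiableAt_off_countable {F : Type*} [NormedAddCommGroup F] [NormedSpace ℂ F]
    [CompleteSpace F] {f : ℂ → F} {w : ℂ} {A : Set ℂ} (hA : A.Countable)
    (hc : ∀ᶠ z in 𝓝 w, ContinuousAt f z) (hd : ∀ᶠ z in 𝓝 w, z ∉ A → DifferentiableAt ℂ f z) :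
    AnalyticAt ℂ f w := by
  obtain ⟨r, hr, hrb⟩ := Metric.eventually_nhds_iff_ball.1 (hc.and hd)
  have hr2 : (0 : ℝ) < r / 2 := by positivity
  set R : NNReal := ⟨r / 2, hr2.le⟩ with hR
  have h := Complex.hasFPowerSeriesOnBall_of_differentiable_off_countable (R := R) (c := w) (f := f)
    (s := A) hA ?_ ?_ ?_
  · exact h.analyticAt
  · intro z hz
    have hz' : z ∈ ball w r := by
      rw [mem_closedBall] at hz
      rw [mem_ball]
      exact lt_of_le_of_lt hz (by change r / 2 < r; linarith)
    exact (hrb z hz').1.continuousWithinAt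
  · rintro z ⟨hz, hzA⟩
    have hz' : z ∈ ball w r := by
      rw [mem_ball] at hz ⊢
      exact lt_trans hz (by change r / 2 < r; linarith)
    exact (hrb z hz').2 hzA
  · exact hr2

end

end Vale.Agent.P267.H331
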