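import Vale.Agent.P267.H331.Inj
import Vale.Agent.P267.H331.Ext

/-! P267 / H331 (helper331), package CHEAP-C2, part B2: connected components of the regular part of an
analytic curve in a complex surface carrying an ambient pole function. -/

namespace Vale.Agent.P267.H331

open Set Filter Topology Metric
open scoped Manifold ContDiff Classical

noncomputable section

variable {M : Type*} [TopologicalSpace M] [ChartedSpace (Fin 2 → ℂ) M]

/-- `κ` is a holomorphic chart centred at `q` in which `Z` is `{y 0 = 0}` -/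
structure RegChart (Z : Set M) (q : M) (κ : OpenPartialHomeomorph M (Fin 2 → ℂ)) : Prop where
  mem : q ∈ κ.source
  zero : κ q = 0
  iff : ∀ x ∈ κ.source, (x ∈ Z ↔ κ x 0 = 0)
  hol : MDifferentiableOn 𝓘(ℂ, Fin 2 → ℂ) 𝓘(ℂ, Fin 2 → ℂ) κ κ.source
  holSymm : MDifferentiableOn 𝓘(ℂ, Fin 2 → ℂ) 𝓘(ℂ, Fin 2 → ℂ) κ.symm κ.target

/-- regular points of `Z` -/
def Reg (Z : Set M) : Set M := {q | ∃ κ, RegChart Z q κ}

/-- the disc `{y 0 = 0}` -/
def dsc (κ : OpenPartialHomeomorph M (Fin 2 → ℂ)) (t : ℂ) : M := κ.symm ![0, t]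

theorem vec_mem_ball {t : ℂ} {r : ℝ} (ht : t ∈ ball (0 : ℂ) r) :
    ![0, t] ∈ ball (0 : Fin 2 → ℂ) r := by
  rw [mem_ball_zero_iff] at ht ⊢
  have hr : 0 < r := lt_of_le_of_lt (norm_nonneg _) ht
  rw [pi_norm_lt_iff hr]
  intro i
  fin_cases i
  · simpa using hr
  · simpa using ht

theorem vec_eq {y : Fin 2 → ℂ} (h : y 0 = 0) : ![0, y 1] = y := by
  funext i
  fin_cases i
  · exact h.symm
  · rfl

theorem continuous_vec : Continuous fun t : ℂ => (![0, t] : Fin 2 → ℂ) := by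
  refine continuous_pi fun i => ?_
  fin_cases i
  · exact continuous_const
  · exact continuous_id

namespace RegChart

variable {Z : Set M} {q : M} {κ : OpenPartialHomeomorph M (Fin 2 → ℂ)}

theorem mem_Z (h : RegChart Z q κ) : q ∈ Z := by
  rw [h.iff q h.mem, h.zero]
  rfl

theorem zero_mem (h : RegChart Z q κ) : (0 : Fin 2 → ℂ) ∈ κ.target := by
  rw [← h.zero]
  exact κ.map_source h.mem

theorem symm_zero (h : RegChart Z q κ) : κ.symm 0 = q := by
  rw [← h.zero, κ.left_inv h.mem]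

theorem vec_zero : (![0, 0] : Fin 2 → ℂ) = 0 := by
  funext i
  fin_cases i <;> rfl

theorem dsc_zero (h : RegChart Z q κ) : dsc κ 0 = q := by
  rw [dsc, vec_zero, h.symm_zero]

theorem exists_ball (h : RegChart Z q κ) : ∃ r > 0, ball (0 : Fin 2 → ℂ) r ⊆ κ.target :=
  Metric.isOpen_iff.1 κ.open_target 0 h.zero_mem

/-- every point of `Z` in the source of a regular chart is regular -/
theorem reg_of_mem (h : RegChart Z q κ) {x : M} (hx : x ∈ κ.source) (hxZ : x ∈ Z) : x ∈ Reg Z := by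
  set e : (Fin 2 → ℂ) ≃ₜ (Fin 2 → ℂ) := Homeomorph.addRight (-κ x) with he
  refine ⟨κ.trans e.toOpenPartialHomeomorph, ?_, ?_, ?_, ?_, ?_⟩
  · simpa using hx
  · simp [he]
  · intro y hy
    have hy' : y ∈ κ.source := by simpa using hy
    have h0 : κ x 0 = 0 := (h.iff x hx).1 hxZ
    rw [h.iff y hy']
    simp [he, h0]
  · have h1 : MDifferentiable 𝓘(ℂ, Fin 2 → ℂ) 𝓘(ℂ, Fin 2 → ℂ)
        (fun y : Fin 2 → ℂ => y + -κ x) := by
      rw [mdifferentiable_iff_differentiable]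
      exact differentiable_id.add_const _
    have h2 : MDifferentiableOn 𝓘(ℂ, Fin 2 → ℂ) 𝓘(ℂ, Fin 2 → ℂ)
        ((fun y : Fin 2 → ℂ => y + -κ x) ∘ κ) κ.source :=
      h1.comp_mdifferentiableOn h.hol
    refine MDifferentiableOn.mono (t := κ.source) h2 ?_
    intro y hy
    simpa using hy
  · have h1 : MDifferentiable 𝓘(ℂ, Fin 2 → ℂ) 𝓘(ℂ, Fin 2 → ℂ)
        (fun y : Fin 2 → ℂ => y - -κ x) := by
      rw [mdifferentiable_iff_differentiable]
      exact differentiable_id.sub_const _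
    have h2 : MDifferentiableOn 𝓘(ℂ, Fin 2 → ℂ) 𝓘(ℂ, Fin 2 → ℂ)
        (κ.symm ∘ (fun y : Fin 2 → ℂ => y - -κ x)) ((fun y : Fin 2 → ℂ => y - -κ x) ⁻¹' κ.target) :=
      MDifferentiableOn.comp (I' := 𝓘(ℂ, Fin 2 → ℂ)) (u := κ.target) h.holSymm
        (h1.mdifferentiableOn) (fun y hy => hy)
    have hes : ∀ y : Fin 2 → ℂ, e.symm y = y - -κ x := by
      intro y
      rw [he, sub_neg_eq_add]
      apply (Homeomorph.addRight (-κ x)).injective
      rw [Homeomorph.apply_symm_apply]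
      simp
    refine MDifferentiableOn.congr (h2.mono ?_) ?_
    · intro y hy
      simp only [OpenPartialHomeomorph.trans_target, mem_inter_iff, mem_preimage] at hy
      have := hy.2
      change e.symm y ∈ κ.target at this
      rw [hes] at this
      exact this
    · intro y hy
      change κ.symm (e.symm y) = κ.symm (y - -κ x)
      rw [hes]

theorem dsc_mem_source (_h : RegChart Z q κ) {r : ℝ} (hr : ball (0 : Fin 2 → ℂ) r ⊆ κ.target) {t : ℂ}
    (ht : t ∈ ball (0 : ℂ) r) : dsc κ t ∈ κ.source :=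
  κ.map_target (hr (vec_mem_ball ht))

theorem map_dsc (_h : RegChart Z q κ) {r : ℝ} (hr : ball (0 : Fin 2 → ℂ) r ⊆ κ.target) {t : ℂ}
    (ht : t ∈ ball (0 : ℂ) r) : κ (dsc κ t) = ![0, t] :=
  κ.right_inv (hr (vec_mem_ball ht))

theorem dsc_mem (h : RegChart Z q κ) {r : ℝ} (hr : ball (0 : Fin 2 → ℂ) r ⊆ κ.target) {t : ℂ}
    (ht : t ∈ ball (0 : ℂ) r) : dsc κ t ∈ Z := by
  rw [h.iff _ (h.dsc_mem_source hr ht), h.map_dsc hr ht]
  rfl

theorem dsc_reg (h : RegChart Z q κ) {r : ℝ} (hr : ball (0 : Fin 2 → ℂ) r ⊆ κ.target) {t : ℂ}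
    (ht : t ∈ ball (0 : ℂ) r) : dsc κ t ∈ Reg Z :=
  h.reg_of_mem (h.dsc_mem_source hr ht) (h.dsc_mem hr ht)

theorem continuousOn_dsc (_h : RegChart Z q κ) {r : ℝ} (hr : ball (0 : Fin 2 → ℂ) r ⊆ κ.target) :
    ContinuousOn (dsc κ) (ball (0 : ℂ) r) :=
  κ.symm.continuousOn.comp continuous_vec.continuousOn
    fun _ ht => hr (vec_mem_ball ht)

/-- near `q` the set `Z` is the disc -/
theorem nhds_sub (h : RegChart Z q κ) {r : ℝ} (hr0 : 0 < r) :
    ∀ᶠ x in 𝓝 q, x ∈ κ.source ∧ κ x ∈ ball (0 : Fin 2 → ℂ) r ∧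
      (x ∈ Z → x = dsc κ (κ x 1) ∧ κ x 1 ∈ ball (0 : ℂ) r) := by
  have h1 : κ ⁻¹' ball (0 : Fin 2 → ℂ) r ∈ 𝓝 q :=
    κ.continuousAt h.mem (by rw [h.zero]; exact ball_mem_nhds _ hr0)
  filter_upwards [κ.open_source.mem_nhds h.mem, h1] with x hx1 hx2
  refine ⟨hx1, hx2, fun hxZ => ?_⟩
  have h0 : κ x 0 = 0 := (h.iff x hx1).1 hxZ
  refine ⟨?_, ?_⟩
  · rw [dsc, vec_eq h0, κ.left_inv hx1]
  · rw [mem_preimage, mem_ball_zero_iff] at hx2
    rw [mem_ball_zero_iff]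
    exact lt_of_le_of_lt (norm_le_pi_norm (κ x) 1) hx2

end RegChart

/-- the component of the regular part through `p` -/
def Cmp (Z : Set M) (p : M) : Set M := connectedComponentIn (Reg Z) p

section cmp

variable {Z : Set M} {p : M}

theorem Reg_sub : Reg Z ⊆ Z := fun _ ⟨_, h⟩ => h.mem_Z

theorem Cmp_sub : Cmp Z p ⊆ Reg Z := connectedComponentIn_subset _ _

theorem mem_Cmp (hp : p ∈ Reg Z) : p ∈ Cmp Z p := mem_connectedComponentIn hp

theorem isPreconnected_Cmp : IsPreconnected (Cmp Z p) := isPreconnected_connectedComponentIn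

/-- a connected subset of the regular part meeting the component lies in it -/
theorem sub_Cmp {T : Set M} (hT : IsPreconnected T) (hTR : T ⊆ Reg Z)
    (hne : (T ∩ Cmp Z p).Nonempty) : T ⊆ Cmp Z p := by
  obtain ⟨x, hxT, hx⟩ := hne
  have h1 : Cmp Z p = connectedComponentIn (Reg Z) x := connectedComponentIn_eq hx
  rw [h1]
  exact hT.subset_connectedComponentIn hxT hTR

theorem dsc_sub_Cmp {q : M} {κ : OpenPartialHomeomorph M (Fin 2 → ℂ)} (h : RegChart Z q κ)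
    (hq : q ∈ Cmp Z p) {r : ℝ} (hr0 : 0 < r) (hr : ball (0 : Fin 2 → ℂ) r ⊆ κ.target) :
    ∀ t ∈ ball (0 : ℂ) r, dsc κ t ∈ Cmp Z p := by
  have h1 : IsPreconnected (dsc κ '' ball (0 : ℂ) r) :=
    (convex_ball (0 : ℂ) r).isPreconnected.image _ (h.continuousOn_dsc hr)
  have h2 : dsc κ '' ball (0 : ℂ) r ⊆ Cmp Z p := by
    refine sub_Cmp h1 ?_ ⟨q, ⟨0, mem_ball_self hr0, h.dsc_zero⟩, hq⟩
    rintro _ ⟨t, ht, rfl⟩
    exact h.dsc_reg hr ht
  intro t ht
  exact h2 (mem_image_of_mem _ ht)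

/-- the component is closed in the regular part -/
theorem mem_Cmp_of_closure {q : M} (hq : q ∈ Reg Z) (hqc : q ∈ closure (Cmp Z p)) :
    q ∈ Cmp Z p := by
  obtain ⟨κ, h⟩ := hq
  obtain ⟨r, hr0, hr⟩ := h.exists_ball
  obtain ⟨x, hx1, hx2⟩ := mem_closure_iff_nhds.1 hqc _ (h.nhds_sub hr0)
  have hxZ : x ∈ Z := Reg_sub (Cmp_sub hx2)
  obtain ⟨hxd, hxb⟩ := hx1.2.2 hxZ
  have h1 : IsPreconnected (dsc κ '' ball (0 : ℂ) r) :=
    (convex_ball (0 : ℂ) r).isPreconnected.image _ (h.continuousOn_dsc hr)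
  have h2 : dsc κ '' ball (0 : ℂ) r ⊆ Cmp Z p := by
    refine sub_Cmp h1 ?_ ⟨x, ⟨κ x 1, hxb, hxd.symm⟩, hx2⟩
    rintro _ ⟨t, ht, rfl⟩
    exact h.dsc_reg hr ht
  rw [← h.dsc_zero]
  exact h2 (mem_image_of_mem _ (mem_ball_self hr0))

/-- the disc as a chart of the component -/
def cchart {q : M} {κ : OpenPartialHomeomorph M (Fin 2 → ℂ)} (h : RegChart Z q κ)
    (hq : q ∈ Cmp Z p) {r : ℝ} (hr0 : 0 < r) (hr : ball (0 : Fin 2 → ℂ) r ⊆ κ.target) :
    OpenPartialHomeomorph (Cmp Z p) ℂ where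
  toFun x := κ x 1
  invFun t := if ht : t ∈ ball (0 : ℂ) r then ⟨dsc κ t, dsc_sub_Cmp h hq hr0 hr t ht⟩ else ⟨q, hq⟩
  source := {x | (x : M) ∈ κ.source ∩ κ ⁻¹' ball (0 : Fin 2 → ℂ) r}
  target := ball (0 : ℂ) r
  map_source' := by
    rintro x ⟨hx1, hx2⟩
    rw [mem_preimage, mem_ball_zero_iff] at hx2
    rw [mem_ball_zero_iff]
    exact lt_of_le_of_lt (norm_le_pi_norm (κ x) 1) hx2
  map_target' := by
    intro t ht
    simp only [ht, dite_true]
    refine ⟨h.dsc_mem_source hr ht, ?_⟩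
    rw [mem_preimage, h.map_dsc hr ht]
    exact vec_mem_ball ht
  left_inv' := by
    rintro x ⟨hx1, hx2⟩
    have h0 : κ x 0 = 0 := (h.iff x hx1).1 (Reg_sub (Cmp_sub x.2))
    have ht : κ x 1 ∈ ball (0 : ℂ) r := by
      rw [mem_preimage, mem_ball_zero_iff] at hx2
      rw [mem_ball_zero_iff]
      exact lt_of_le_of_lt (norm_le_pi_norm (κ x) 1) hx2
    simp only [ht, dite_true]
    apply Subtype.ext
    simp only [dsc, vec_eq h0, κ.left_inv hx1]
  right_inv' := by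
    intro t ht
    simp only [ht, dite_true, h.map_dsc hr ht]
    rfl
  open_source := by
    have h1 : IsOpen (κ.source ∩ κ ⁻¹' ball (0 : Fin 2 → ℂ) r) :=
      κ.isOpen_inter_preimage isOpen_ball
    exact h1.preimage continuous_subtype_val
  open_target := isOpen_ball
  continuousOn_toFun := by
    have h1 : ContinuousOn (fun x : Cmp Z p => κ (x : M))
        {x | (x : M) ∈ κ.source ∩ κ ⁻¹' ball (0 : Fin 2 → ℂ) r} :=
      κ.continuousOn.comp continuous_subtype_val.continuousOn fun x hx => hx.1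
    exact (continuous_apply 1).comp_continuousOn h1
  continuousOn_invFun := by
    rw [continuousOn_iff_continuous_domRestrict, continuous_induced_rng]
    have h1 := (h.continuousOn_dsc hr)
    rw [continuousOn_iff_continuous_domRestrict] at h1
    refine h1.congr ?_
    rintro ⟨t, ht⟩
    simp only [Set.domRestrict_apply, Function.comp_apply, ht, dite_true]

theorem cchart_symm {q : M} {κ : OpenPartialHomeomorph M (Fin 2 → ℂ)} (h : RegChart Z q κ)
    (hq : q ∈ Cmp Z p) {r : ℝ} (hr0 : 0 < r) (hr : ball (0 : Fin 2 → ℂ) r ⊆ κ.target) {t : ℂ}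
    (ht : t ∈ ball (0 : ℂ) r) : ((cchart h hq hr0 hr).symm t : M) = dsc κ t := by
  change ((if ht : t ∈ ball (0 : ℂ) r then (⟨dsc κ t, dsc_sub_Cmp h hq hr0 hr t ht⟩ : Cmp Z p)
    else ⟨q, hq⟩ : Cmp Z p) : M) = dsc κ t
  rw [dif_pos ht]

theorem cchart_self {q : M} {κ : OpenPartialHomeomorph M (Fin 2 → ℂ)} (h : RegChart Z q κ)
    (hq : q ∈ Cmp Z p) {r : ℝ} (hr0 : 0 < r) (hr : ball (0 : Fin 2 → ℂ) r ⊆ κ.target) :
    cchart h hq hr0 hr ⟨q, hq⟩ = 0 ∧ (⟨q, hq⟩ : Cmp Z p) ∈ (cchart h hq hr0 hr).source := by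
  refine ⟨?_, h.mem, ?_⟩
  · change κ q 1 = 0
    rw [h.zero]
    rfl
  · change κ q ∈ ball (0 : Fin 2 → ℂ) r
    rw [h.zero]
    exact mem_ball_self hr0

end cmp

end

end Vale.Agent.P267.H331
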