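import Vale.Agent.P267.H331.Pole

/-! P267 / H331 (helper331), package CHEAP-C2, part B4: extension of the inverse of the pole function
to the sphere, or to the sphere minus one point. -/

namespace Vale.Agent.P267.H331

open Set Filter Topology Metric
open scoped Manifold ContDiff Classical

noncomputable section

set_option linter.unusedSectionVars false

variable {M : Type*} [TopologicalSpace M] [ChartedSpace (Fin 2 → ℂ) M]

namespace Amb

variable {Z : Set M} {p : M} {Φ : M → ℂ} {c₀ : ℂ}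

variable [T2Space M] [SecondCountableTopology M]

/-- the section with values in `M` -/
def sec (h : Amb Z p Φ c₀) (w : ℂ) : M := h.secS w

theorem sec_mem (h : Amb Z p Φ c₀) (w : ℂ) : h.sec w ∈ Cmp Z p := (h.secS w).2

theorem sec_ne (h : Amb Z p Φ c₀) {w : ℂ} (hw : w ∈ h.Om) : h.sec w ≠ p :=
  h.ne_pt.1 (h.secS_ne hw)

theorem Phi_sec (h : Amb Z p Φ c₀) {w : ℂ} (hw : w ∈ h.Om) : Φ (h.sec w) = w := h.phi_secS hw

theorem sec_Phi (h : Amb Z p Φ c₀) {x : M} (hx : x ∈ Cmp Z p) (hxp : x ≠ p) :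
    h.sec (Φ x) = x := by
  have h1 := h.secS_phi (s := ⟨x, hx⟩) (h.ne_pt.2 hxp)
  exact Subtype.ext_iff.1 h1

theorem continuousAt_sec (h : Amb Z p Φ c₀) {w : ℂ} (hw : w ∈ h.Om) :
    ContinuousAt h.sec w :=
  continuous_subtype_val.continuousAt.comp (h.continuousAt_secS hw)

theorem continuousOn_sec (h : Amb Z p Φ c₀) : ContinuousOn h.sec h.Om :=
  fun _ hw => (h.continuousAt_sec hw).continuousWithinAt

theorem sec_eq_dsc (h : Amb Z p Φ c₀) {w : ℂ} (hw : w ∈ h.Om) :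
    ∀ᶠ z in 𝓝 w, h.sec z = dsc (h.K (h.secS w)) (h.C (h.secS w) (h.secS z)) := by
  have h1 : ∀ᶠ z in 𝓝 w, h.secS z ∈ (h.C (h.secS w)).source :=
    (h.continuousAt_secS hw) ((h.C _).open_source.mem_nhds (h.C_mem _))
  have h2 : ∀ᶠ z in 𝓝 w,
      ((h.C (h.secS w)).symm (h.C (h.secS w) (h.secS z)) : M) =
        dsc (h.K (h.secS w)) (h.C (h.secS w) (h.secS z)) := by
    have h3 : ContinuousAt (fun z => h.C (h.secS w) (h.secS z)) w :=
      (h.analyticAt_secS hw).continuousAt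
    have h4 : Tendsto (fun z => h.C (h.secS w) (h.secS z)) (𝓝 w) (𝓝 0) := by
      have := h3.tendsto
      rwa [h.C_self] at this
    exact h4.eventually (h.C_symm_ev _)
  filter_upwards [h1, h2] with z hz1 hz2
  rw [← hz2, (h.C _).left_inv hz1]
  rfl

omit [T2Space M] [SecondCountableTopology M] in
/-- the disc is holomorphic -/
theorem mdiff_dsc {q : M} {κ : OpenPartialHomeomorph M (Fin 2 → ℂ)} (hκ : RegChart Z q κ) {t : ℂ}
    (ht : ![0, t] ∈ κ.target) : MDifferentiableAt 𝓘(ℂ, ℂ) 𝓘(ℂ, Fin 2 → ℂ) (dsc κ) t := by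
  have h1 : MDifferentiableAt 𝓘(ℂ, Fin 2 → ℂ) 𝓘(ℂ, Fin 2 → ℂ) κ.symm (![0, t] : Fin 2 → ℂ) :=
    (hκ.holSymm _ ht).mdifferentiableAt (κ.open_target.mem_nhds ht)
  have h2 : MDifferentiableAt 𝓘(ℂ, ℂ) 𝓘(ℂ, Fin 2 → ℂ) (fun t : ℂ => (![0, t] : Fin 2 → ℂ)) t := by
    rw [mdifferentiableAt_iff_differentiableAt, differentiableAt_pi]
    intro i
    fin_cases i
    · exact differentiableAt_const _
    · exact differentiableAt_id
  exact MDifferentiableAt.comp t h1 h2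

omit [T2Space M] [SecondCountableTopology M] in
theorem mdiff_dsc_comp {q : M} {κ : OpenPartialHomeomorph M (Fin 2 → ℂ)} (hκ : RegChart Z q κ)
    {τ : ℂ → ℂ} {w : ℂ} (hτ : AnalyticAt ℂ τ w) (hτ0 : τ w = 0) :
    MDifferentiableAt 𝓘(ℂ, ℂ) 𝓘(ℂ, Fin 2 → ℂ) (fun z => dsc κ (τ z)) w := by
  have h1 : MDifferentiableAt 𝓘(ℂ, ℂ) 𝓘(ℂ, Fin 2 → ℂ) (dsc κ) (τ w) := by
    refine mdiff_dsc hκ ?_
    rw [hτ0, RegChart.vec_zero]
    exact hκ.zero_mem
  have h2 : MDifferentiableAt 𝓘(ℂ, ℂ) 𝓘(ℂ, ℂ) τ w :=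
    hτ.differentiableAt.mdifferentiableAt
  exact MDifferentiableAt.comp (g := dsc κ) w h1 h2

theorem mdiff_sec (h : Amb Z p Φ c₀) {w : ℂ} (hw : w ∈ h.Om) :
    MDifferentiableAt 𝓘(ℂ, ℂ) 𝓘(ℂ, Fin 2 → ℂ) h.sec w := by
  refine MDifferentiableAt.congr_of_eventuallyEq ?_ (h.sec_eq_dsc hw)
  exact mdiff_dsc_comp (h.K_reg _) (h.analyticAt_secS hw) (h.C_self _)

/-! ### boundary points -/

theorem cluster (h : Amb Z p Φ c₀) {w : ℂ} (hw : w ∉ h.Om) {q : M}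
    (hq : ClusterPt q (map h.sec (𝓝[h.Om] w))) : q ∈ Z \ Reg Z := by
  have h1 : MapClusterPt q (𝓝[h.Om] w) h.sec := hq
  obtain ⟨U, hU, hUq⟩ := mapClusterPt_iff_ultrafilter.1 h1
  have hOm : ∀ᶠ z in (U : Filter ℂ), z ∈ h.Om := hU self_mem_nhdsWithin
  have hUw : (U : Filter ℂ) ≤ 𝓝 w := hU.trans nhdsWithin_le_nhds
  have hqc : q ∈ closure (Cmp Z p) :=
    mem_closure_of_tendsto hUq (Eventually.of_forall fun x => h.sec_mem x)
  have hqZ : q ∈ Z := h.closure_sub hqc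
  refine ⟨hqZ, fun hqR => ?_⟩
  have hqC : q ∈ Cmp Z p := mem_Cmp_of_closure hqR hqc
  have hΦ : Tendsto (fun z => Φ (h.sec z)) U (𝓝 w) := by
    refine Tendsto.congr' ?_ (tendsto_id.mono_left hUw)
    filter_upwards [hOm] with z hz
    exact (h.Phi_sec hz).symm
  by_cases hqp : q = p
  · -- the pole
    have h3 : Tendsto h.secS U (𝓝[≠] h.pt) := by
      refine tendsto_nhdsWithin_iff.2 ⟨?_, hOm.mono fun z hz => h.secS_ne hz⟩
      rw [nhds_subtype, tendsto_comap_iff]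
      rw [hqp] at hUq
      exact hUq
    have h4 := h.poleData.tendsto_pole.comp h3
    exact not_tendsto_nhds_of_tendsto_atTop (tendsto_norm_cobounded_atTop.comp h4) _ hΦ.norm
  · have h5 : Tendsto Φ (𝓝[Z \ {p}] q) (𝓝 (Φ q)) := h.cont q ⟨hqZ, hqp⟩
    have h6 : Tendsto (fun z => Φ (h.sec z)) U (𝓝 (Φ q)) := by
      refine h5.comp (tendsto_nhdsWithin_iff.2 ⟨hUq, ?_⟩)
      filter_upwards [hUq.eventually (isOpen_ne.mem_nhds hqp)] with z hz
      exact ⟨Reg_sub (Cmp_sub (h.sec_mem z)), hz⟩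
    have h7 : w = Φ q := tendsto_nhds_unique hΦ h6
    exact hw (h7 ▸ h.mem_Om hqC hqp)

variable [LocallyCompactSpace M]

theorem dich (h : Amb Z p Φ c₀) {w : ℂ} (hw : w ∉ h.Om) :
    (∃ q ∈ Z \ Reg Z, Tendsto h.sec (𝓝[h.Om] w) (𝓝 q)) ∨
      (w = c₀ ∧ Tendsto h.sec (𝓝[h.Om] w) (cocompact M)) := by
  rcases cluster_dichotomy h.Om_compl h.continuousOn_sec w h.count
    (fun q hq => h.cluster hw hq) with h1 | h1
  · exact Or.inl h1
  · refine Or.inr ⟨?_, h1⟩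
    have hne : (𝓝[h.Om] w).NeBot := mem_closure_iff_nhdsWithin_neBot.1 (h.Om_dense w)
    have h2 : Tendsto (fun z => Φ (h.sec z)) (𝓝[h.Om] w) (𝓝 c₀) := by
      refine h.lim.comp (tendsto_inf.2 ⟨h1, tendsto_principal.2 ?_⟩)
      exact Eventually.of_forall fun z => Reg_sub (Cmp_sub (h.sec_mem z))
    have h3 : Tendsto (fun z => Φ (h.sec z)) (𝓝[h.Om] w) (𝓝 w) := by
      refine Tendsto.congr' ?_ (tendsto_id.mono_left nhdsWithin_le_nhds)
      filter_upwards [self_mem_nhdsWithin] with z hz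
      exact (h.Phi_sec hz).symm
    exact tendsto_nhds_unique h3 h2

/-- where the section has a limit -/
def W (h : Amb Z p Φ c₀) : Set ℂ := {w | ∃ q, Tendsto h.sec (𝓝[h.Om] w) (𝓝 q)}

theorem Om_sub_W (h : Amb Z p Φ c₀) : h.Om ⊆ h.W := fun w hw =>
  ⟨h.sec w, (h.continuousAt_sec hw).tendsto.mono_left nhdsWithin_le_nhds⟩

theorem mem_W (h : Amb Z p Φ c₀) {w : ℂ} (hw : w ≠ c₀) : w ∈ h.W := by
  by_cases hwO : w ∈ h.Om
  · exact h.Om_sub_W hwO
  · rcases h.dich hwO with ⟨q, -, hq⟩ | ⟨hh, -⟩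
    · exact ⟨q, hq⟩
    · exact absurd hh hw

theorem W_cases (h : Amb Z p Φ c₀) : h.W = univ ∨ (h.W = {c₀}ᶜ ∧ c₀ ∉ h.Om ∧
    Tendsto h.sec (𝓝[h.Om] c₀) (cocompact M)) := by
  by_cases h0 : c₀ ∈ h.W
  · left
    rw [eq_univ_iff_forall]
    intro w
    by_cases hw : w = c₀
    · rw [hw]; exact h0
    · exact h.mem_W hw
  · right
    refine ⟨?_, fun hh => h0 (h.Om_sub_W hh), ?_⟩
    · ext w
      constructor
      · rintro hw rfl
        exact h0 hw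
      · intro hw
        exact h.mem_W hw
    · rcases h.dich (fun hh => h0 (h.Om_sub_W hh)) with ⟨q, -, hq⟩ | ⟨-, hh⟩
      · exact absurd ⟨q, hq⟩ h0
      · exact hh

theorem isOpen_W (h : Amb Z p Φ c₀) : IsOpen h.W := by
  rcases h.W_cases with h1 | ⟨h1, -⟩
  · rw [h1]; exact isOpen_univ
  · rw [h1]; exact isOpen_compl_singleton

/-- the extension -/
def gt (h : Amb Z p Φ c₀) (w : ℂ) : M :=
  if w ∈ h.Om then h.sec w else
    if hw' : ∃ q, Tendsto h.sec (𝓝[h.Om] w) (𝓝 q) then hw'.choose else p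

theorem gt_eq (h : Amb Z p Φ c₀) {w : ℂ} (hw : w ∈ h.Om) : h.gt w = h.sec w := by
  rw [gt, if_pos hw]

theorem tendsto_gt (h : Amb Z p Φ c₀) {w : ℂ} (hw : w ∈ h.W) :
    Tendsto h.sec (𝓝[h.Om] w) (𝓝 (h.gt w)) := by
  by_cases hwO : w ∈ h.Om
  · rw [h.gt_eq hwO]
    exact (h.continuousAt_sec hwO).tendsto.mono_left nhdsWithin_le_nhds
  · have hw' : ∃ q, Tendsto h.sec (𝓝[h.Om] w) (𝓝 q) := hw
    rw [gt, if_neg hwO, dif_pos hw']
    exact hw'.choose_spec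

theorem gt_bad (h : Amb Z p Φ c₀) {w : ℂ} (hw : w ∈ h.W) (hwO : w ∉ h.Om) :
    h.gt w ∈ Z \ Reg Z := by
  have hne : (𝓝[h.Om] w).NeBot := mem_closure_iff_nhdsWithin_neBot.1 (h.Om_dense w)
  refine h.cluster hwO ?_
  exact (h.tendsto_gt hw).mapClusterPt

theorem continuousAt_gt (h : Amb Z p Φ c₀) {w : ℂ} (hw : w ∈ h.W) : ContinuousAt h.gt w := by
  have hreg : RegularSpace M := inferInstance
  have h1 : ContinuousOn (extendFrom h.Om h.sec) h.W := by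
    refine continuousOn_extendFrom (fun x _ => h.Om_dense x) ?_
    intro x hx
    exact hx
  have h2 : ∀ x ∈ h.W, extendFrom h.Om h.sec x = h.gt x := fun x hx =>
    extendFrom_eq (h.Om_dense x) (h.tendsto_gt hx)
  have h3 : ContinuousOn h.gt h.W := h1.congr fun x hx => (h2 x hx).symm
  exact h3.continuousAt (h.isOpen_W.mem_nhds hw)

theorem gt_mem (h : Amb Z p Φ c₀) {w : ℂ} (hw : w ∈ h.W) : h.gt w ∈ closure (Cmp Z p) := by
  have hne : (𝓝[h.Om] w).NeBot := mem_closure_iff_nhdsWithin_neBot.1 (h.Om_dense w)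
  exact mem_closure_of_tendsto (h.tendsto_gt hw) (Eventually.of_forall fun z => h.sec_mem z)

theorem gt_ne (h : Amb Z p Φ c₀) {w : ℂ} (hw : w ∈ h.W) : h.gt w ≠ p := by
  by_cases hwO : w ∈ h.Om
  · rw [h.gt_eq hwO]
    exact h.sec_ne hwO
  · intro hh
    have := h.gt_bad hw hwO
    rw [hh] at this
    exact this.2 h.reg

theorem Phi_gt (h : Amb Z p Φ c₀) {w : ℂ} (hw : w ∈ h.W) : Φ (h.gt w) = w := by
  by_cases hwO : w ∈ h.Om
  · rw [h.gt_eq hwO]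
    exact h.Phi_sec hwO
  · have hne : (𝓝[h.Om] w).NeBot := mem_closure_iff_nhdsWithin_neBot.1 (h.Om_dense w)
    have h1 := h.tendsto_gt hw
    have h5 : Tendsto Φ (𝓝[Z \ {p}] (h.gt w)) (𝓝 (Φ (h.gt w))) :=
      h.cont _ ⟨(h.gt_bad hw hwO).1, h.gt_ne hw⟩
    have h6 : Tendsto (fun z => Φ (h.sec z)) (𝓝[h.Om] w) (𝓝 (Φ (h.gt w))) := by
      refine h5.comp (tendsto_nhdsWithin_iff.2 ⟨h1, ?_⟩)
      filter_upwards [h1.eventually (isOpen_ne.mem_nhds (h.gt_ne hw))] with z hz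
      exact ⟨Reg_sub (Cmp_sub (h.sec_mem z)), hz⟩
    have h3 : Tendsto (fun z => Φ (h.sec z)) (𝓝[h.Om] w) (𝓝 w) := by
      refine Tendsto.congr' ?_ (tendsto_id.mono_left nhdsWithin_le_nhds)
      filter_upwards [self_mem_nhdsWithin] with z hz
      exact (h.Phi_sec hz).symm
    exact tendsto_nhds_unique h6 h3

theorem gt_inj (h : Amb Z p Φ c₀) : InjOn h.gt h.W := by
  intro a ha b hb hab
  rw [← h.Phi_gt ha, hab, h.Phi_gt hb]

section hol

variable [IsManifold 𝓘(ℂ, Fin 2 → ℂ) 1 M]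

theorem mdiff_gt_Om (h : Amb Z p Φ c₀) {w : ℂ} (hw : w ∈ h.Om) :
    MDifferentiableAt 𝓘(ℂ, ℂ) 𝓘(ℂ, Fin 2 → ℂ) h.gt w := by
  refine (h.mdiff_sec hw).congr_of_eventuallyEq ?_
  filter_upwards [h.isOpen_Om.mem_nhds hw] with z hz
  exact h.gt_eq hz

theorem analyticAt_chart_gt (h : Amb Z p Φ c₀) {w : ℂ} (hw : w ∈ h.W) :
    AnalyticAt ℂ (fun z => chartAt (Fin 2 → ℂ) (h.gt w) (h.gt z)) w := by
  set e := chartAt (Fin 2 → ℂ) (h.gt w) with he
  have hsrc : ∀ᶠ z in 𝓝 w, h.gt z ∈ e.source :=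
    (h.continuousAt_gt hw) (e.open_source.mem_nhds (mem_chart_source _ _))
  have hW : ∀ᶠ z in 𝓝 w, z ∈ h.W := h.isOpen_W.mem_nhds hw
  refine differentiableAt_off_countable h.Om_compl ?_ ?_
  · filter_upwards [hsrc, hW] with z hz1 hz2
    exact (e.continuousAt hz1).comp (h.continuousAt_gt hz2)
  · filter_upwards [hsrc, hW] with z hz1 hz2 hz3
    have hz3' : z ∈ h.Om := not_not.1 hz3
    have h1 := h.mdiff_gt_Om hz3'
    have h2 : MDifferentiableAt 𝓘(ℂ, Fin 2 → ℂ) 𝓘(ℂ, Fin 2 → ℂ) e (h.gt z) :=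
      mdifferentiableAt_atlas (chart_mem_atlas _ _) hz1
    have h3 : MDifferentiableAt 𝓘(ℂ, ℂ) 𝓘(ℂ, Fin 2 → ℂ) (fun z => e (h.gt z)) z :=
      MDifferentiableAt.comp z h2 h1
    exact mdifferentiableAt_iff_differentiableAt.1 h3

theorem mdiff_gt (h : Amb Z p Φ c₀) {w : ℂ} (hw : w ∈ h.W) :
    MDifferentiableAt 𝓘(ℂ, ℂ) 𝓘(ℂ, Fin 2 → ℂ) h.gt w := by
  rw [mdifferentiableAt_iff]
  refine ⟨h.continuousAt_gt hw, ?_⟩
  have h1 := (h.analyticAt_chart_gt hw).differentiableAt.differentiableWithinAt (s := univ)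
  simpa only [writtenInExtChartAt, extChartAt, mfld_simps, Function.comp_def, chartAt_self_eq] using h1

end hol

end Amb

end

end Vale.Agent.P267.H331
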