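import Vale.Agent.P267.H331.Out

/-! P267 / H331 (helper331), package CHEAP-C2, part B6: the closure of the component is an embedded
smooth curve. -/

namespace Vale.Agent.P267.H331

open Set Filter Topology Metric
open scoped Manifold ContDiff Classical

noncomputable section

set_option linter.unusedSectionVars false

variable {M : Type*} [TopologicalSpace M] [ChartedSpace (Fin 2 → ℂ) M]
  [IsManifold 𝓘(ℂ, Fin 2 → ℂ) 1 M]

/-- in the chart a holomorphic map germ is analytic -/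
theorem analyticAt_chart {g : ℂ → M} {w : ℂ}
    (hg : ∀ᶠ z in 𝓝 w, MDifferentiableAt 𝓘(ℂ, ℂ) 𝓘(ℂ, Fin 2 → ℂ) g z) :
    AnalyticAt ℂ (fun z => chartAt (Fin 2 → ℂ) (g w) (g z)) w := by
  set e := chartAt (Fin 2 → ℂ) (g w) with he
  have hc : ContinuousAt g w := hg.self_of_nhds.continuousAt
  have hsrc : ∀ᶠ z in 𝓝 w, g z ∈ e.source := hc (e.open_source.mem_nhds (mem_chart_source _ _))
  refine differentiableAt_off_countable (A := ∅) countable_empty ?_ ?_
  · filter_upwards [hsrc, hg] with z hz1 hz2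
    exact (e.continuousAt hz1).comp hz2.continuousAt
  · filter_upwards [hsrc, hg] with z hz1 hz2 _
    have h2 : MDifferentiableAt 𝓘(ℂ, Fin 2 → ℂ) 𝓘(ℂ, Fin 2 → ℂ) e (g z) :=
      mdifferentiableAt_atlas (chart_mem_atlas _ _) hz1
    have h3 : MDifferentiableAt 𝓘(ℂ, ℂ) 𝓘(ℂ, Fin 2 → ℂ) (fun z => e (g z)) z :=
      MDifferentiableAt.comp z h2 hz2
    exact mdifferentiableAt_iff_differentiableAt.1 h3

/-- completing a vector to a basis -/
theorem exists_basis_equiv {v : Fin 2 → ℂ} (hv : v ≠ 0) : ∃ u : Fin 2 → ℂ,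
    ∃ L : (Fin 2 → ℂ) ≃L[ℂ] (Fin 2 → ℂ), ∀ y, L y = y 1 • v + y 0 • u := by
  have key : ∀ u : Fin 2 → ℂ, v 0 * u 1 - v 1 * u 0 ≠ 0 →
      ∃ L : (Fin 2 → ℂ) ≃L[ℂ] (Fin 2 → ℂ), ∀ y, L y = y 1 • v + y 0 • u := by
    intro u hu
    let A : (Fin 2 → ℂ) →ₗ[ℂ] (Fin 2 → ℂ) :=
      { toFun := fun y => y 1 • v + y 0 • u
        map_add' := by
          intro a b
          funext i
          simp only [Pi.add_apply, Pi.smul_apply, smul_eq_mul]
          ring
        map_smul' := by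
          intro a b
          funext i
          simp only [Pi.add_apply, Pi.smul_apply, smul_eq_mul, RingHom.id_apply]
          ring }
    have hA : Function.Injective A := by
      rw [← LinearMap.ker_eq_bot, LinearMap.ker_eq_bot']
      intro y hy
      have h0 := congrFun hy 0
      have h1 := congrFun hy 1
      simp only [A, LinearMap.coe_mk, AddHom.coe_mk, Pi.add_apply, Pi.smul_apply, smul_eq_mul,
        Pi.zero_apply] at h0 h1
      have e1 : y 1 * (v 0 * u 1 - v 1 * u 0) = 0 := by linear_combination u 1 * h0 - u 0 * h1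
      have e0 : y 0 * (v 0 * u 1 - v 1 * u 0) = 0 := by linear_combination v 0 * h1 - v 1 * h0
      have f1 := (mul_eq_zero.1 e1).resolve_right hu
      have f0 := (mul_eq_zero.1 e0).resolve_right hu
      funext i
      fin_cases i
      · exact f0
      · exact f1
    exact ⟨(LinearEquiv.ofInjectiveEndo A hA).toContinuousLinearEquiv, fun y => rfl⟩
  by_cases h1 : v 1 = 0
  · have h0 : v 0 ≠ 0 := by
      intro h0
      apply hv
      funext i
      fin_cases i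
      · exact h0
      · exact h1
    exact ⟨![0, 1], key _ (by simpa [h1] using h0)⟩
  · exact ⟨![1, 0], key _ (by simpa using h1)⟩

/-- an immersed holomorphic curve germ is straightened by a holomorphic chart -/
theorem exists_straight {g : ℂ → M} {w : ℂ}
    (hg : ∀ᶠ z in 𝓝 w, MDifferentiableAt 𝓘(ℂ, ℂ) 𝓘(ℂ, Fin 2 → ℂ) g z)
    (hd : deriv (fun z => chartAt (Fin 2 → ℂ) (g w) (g z)) w ≠ 0) :
    ∃ κ : OpenPartialHomeomorph M (Fin 2 → ℂ), g w ∈ κ.source ∧ κ (g w) = 0 ∧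
      MDifferentiableOn 𝓘(ℂ, Fin 2 → ℂ) 𝓘(ℂ, Fin 2 → ℂ) κ κ.source ∧
      MDifferentiableOn 𝓘(ℂ, Fin 2 → ℂ) 𝓘(ℂ, Fin 2 → ℂ) κ.symm κ.target ∧
      ∃ ρ > 0, (∀ t ∈ ball (0 : ℂ) ρ, g (w + t) ∈ κ.source ∧ κ (g (w + t)) = ![0, t]) ∧
        ∀ y ∈ κ.target, ‖y 1‖ < ρ := by
  set e := chartAt (Fin 2 → ℂ) (g w) with he
  set γ : ℂ → (Fin 2 → ℂ) := fun z => e (g z) with hγ
  have hγa : AnalyticAt ℂ γ w := analyticAt_chart hg
  obtain ⟨u, L, hL⟩ := exists_basis_equiv hd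
  set F : (Fin 2 → ℂ) → (Fin 2 → ℂ) := fun y => γ (w + y 1) + y 0 • u with hF
  have hlin : AnalyticAt ℂ (fun y : Fin 2 → ℂ => w + y 1) 0 := by
    have : AnalyticAt ℂ (ContinuousLinearMap.proj (R := ℂ) (φ := fun _ : Fin 2 => ℂ) 1) 0 :=
      ContinuousLinearMap.analyticAt _ _
    exact analyticAt_const.add this
  have hFa : AnalyticAt ℂ F 0 := by
    have h1 : AnalyticAt ℂ (fun y : Fin 2 → ℂ => γ (w + y 1)) 0 := by
      refine AnalyticAt.fun_comp (g := γ) ?_ hlin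
      simpa using hγa
    have h2 : AnalyticAt ℂ (ContinuousLinearMap.proj (R := ℂ) (φ := fun _ : Fin 2 => ℂ) 0) 0 :=
      ContinuousLinearMap.analyticAt _ _
    exact h1.add (h2.smul analyticAt_const)
  have hF0 : F 0 = γ w := by simp [hF]
  have hFd : HasFDerivAt F (L : (Fin 2 → ℂ) →L[ℂ] (Fin 2 → ℂ)) 0 := by
    have h1 : HasFDerivAt (fun y : Fin 2 → ℂ => w + y 1)
        (ContinuousLinearMap.proj (R := ℂ) (φ := fun _ : Fin 2 => ℂ) 1) 0 :=
      (ContinuousLinearMap.hasFDerivAt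
        (ContinuousLinearMap.proj (R := ℂ) (φ := fun _ : Fin 2 => ℂ) 1)).const_add w
    have h0 : HasFDerivAt (fun y : Fin 2 → ℂ => y 0)
        (ContinuousLinearMap.proj (R := ℂ) (φ := fun _ : Fin 2 => ℂ) 0) 0 :=
      ContinuousLinearMap.hasFDerivAt
        (ContinuousLinearMap.proj (R := ℂ) (φ := fun _ : Fin 2 => ℂ) 0)
    have h2 : HasDerivAt γ (deriv γ w) (w + (0 : Fin 2 → ℂ) 1) := by
      rw [Pi.zero_apply, add_zero]
      exact hγa.differentiableAt.hasDerivAt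
    have h4 : HasFDerivAt (fun y : Fin 2 → ℂ => γ (w + y 1)) _ 0 :=
      HasFDerivAt.comp (g := γ) (0 : Fin 2 → ℂ) h2.hasFDerivAt h1
    have h3 := h4.add (h0.smul_const u)
    refine h3.congr_fderiv ?_
    refine ContinuousLinearMap.ext fun y => ?_
    rw [ContinuousLinearEquiv.coe_coe, hL]
    rfl
  have hFs : HasStrictFDerivAt F (L : (Fin 2 → ℂ) →L[ℂ] (Fin 2 → ℂ)) 0 := by
    have h1 := hFa.hasStrictFDerivAt
    rwa [hFd.fderiv] at h1
  set R := hFs.toOpenPartialHomeomorph F with hR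
  have hRs : (0 : Fin 2 → ℂ) ∈ R.source := hFs.mem_toOpenPartialHomeomorph_source
  have hRF : ∀ y, R y = F y := fun y => rfl
  have hRt : γ w ∈ R.target := by
    rw [← hF0]
    exact R.map_source hRs
  have hR0 : R.symm (γ w) = 0 := by
    rw [← hF0]
    exact R.left_inv hRs
  have hRan : AnalyticAt ℂ R.symm (γ w) := by
    have := R.analyticAt_symm' (i := L) hRs hFa hFd.fderiv
    rwa [hRF, hF0] at this
  -- a good open set
  have hV0 : ∀ᶠ x in 𝓝 (γ w), x ∈ R.target ∧ AnalyticAt ℂ R.symm x ∧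
      AnalyticAt ℂ F (R.symm x) ∧ x ∈ e.target := by
    have h1 : ∀ᶠ x in 𝓝 (γ w), AnalyticAt ℂ F (R.symm x) := by
      have h2 : ContinuousAt R.symm (γ w) := hRan.continuousAt
      have h3 : ∀ᶠ y in 𝓝 (R.symm (γ w)), AnalyticAt ℂ F y := by
        rw [hR0]
        exact hFa.eventually_analyticAt
      exact h2.eventually h3
    filter_upwards [R.open_target.mem_nhds hRt, hRan.eventually_analyticAt, h1,
      e.open_target.mem_nhds (mem_chart_target _ _)] with x h1 h2 h3 h4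
    exact ⟨h1, h2, h3, h4⟩
  obtain ⟨V0, hV0s, hV0o, hwV0⟩ := _root_.eventually_nhds_iff.1 hV0
  -- the radius
  have hρ : ∀ᶠ t in 𝓝 (0 : ℂ), g (w + t) ∈ e.source ∧ (![0, t] : Fin 2 → ℂ) ∈ R.source ∧
      γ (w + t) ∈ V0 := by
    have h1 : Tendsto (fun t : ℂ => w + t) (𝓝 0) (𝓝 w) := by
      have : ContinuousAt (fun t : ℂ => w + t) 0 := by fun_prop
      simpa using this.tendsto
    have h2 : ∀ᶠ z in 𝓝 w, g z ∈ e.source :=
      hg.self_of_nhds.continuousAt (e.open_source.mem_nhds (mem_chart_source _ _))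
    have h3 : ∀ᶠ z in 𝓝 w, γ z ∈ V0 := hγa.continuousAt (hV0o.mem_nhds hwV0)
    have h4 : ∀ᶠ t in 𝓝 (0 : ℂ), (![0, t] : Fin 2 → ℂ) ∈ R.source := by
      have h7 : (![0, 0] : Fin 2 → ℂ) ∈ R.source := by
        rw [RegChart.vec_zero]
        exact hRs
      exact continuous_vec.continuousAt.eventually (R.open_source.mem_nhds h7)
    filter_upwards [h1.eventually h2, h4, h1.eventually h3] with t a b c
    exact ⟨a, b, c⟩
  obtain ⟨ρ, hρ0, hρs⟩ := Metric.eventually_nhds_iff_ball.1 hρ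
  have hFγ : ∀ t : ℂ, F ![0, t] = γ (w + t) := by
    intro t
    simp [hF]
  set V : Set (Fin 2 → ℂ) := V0 ∩ {x | x ∈ R.target ∧ ‖R.symm x 1‖ < ρ} with hV
  have hVo : IsOpen V := by
    refine hV0o.inter ?_
    have h1 : IsOpen (R.target ∩ R.symm ⁻¹' {y : Fin 2 → ℂ | ‖y 1‖ < ρ}) :=
      R.isOpen_inter_preimage_symm (isOpen_lt (by fun_prop) continuous_const)
    exact h1
  have hwV : γ w ∈ V := ⟨hwV0, hRt, by rw [hR0]; simpa using hρ0⟩
  set κ := e.trans (R.symm.restrOpen V hVo) with hκ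
  have hκs : ∀ x, x ∈ κ.source ↔ x ∈ e.source ∧ e x ∈ V := by
    intro x
    rw [hκ, OpenPartialHomeomorph.trans_source, OpenPartialHomeomorph.restrOpen_source]
    constructor
    · rintro ⟨h1, h2⟩
      exact ⟨h1, h2.2⟩
    · rintro ⟨h1, h2⟩
      exact ⟨h1, h2.2.1, h2⟩
  have hκt : ∀ y, y ∈ κ.target → y ∈ R.source ∧ F y ∈ V ∧ F y ∈ e.target := by
    intro y hy
    have h1 := κ.map_target hy
    rw [hκs] at h1
    have h2 : κ.symm y = e.symm (F y) := rfl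
    rw [hκ, OpenPartialHomeomorph.trans_target] at hy
    have h3 : y ∈ R.source := hy.1.1
    have h4 : F y ∈ e.target := hy.2
    rw [h2, e.right_inv h4] at h1
    exact ⟨h3, h1.2, h4⟩
  have hκx : ∀ x, κ x = R.symm (e x) := fun x => rfl
  refine ⟨κ, ?_, ?_, ?_, ?_, ρ, hρ0, ?_, ?_⟩
  · rw [hκs]
    exact ⟨mem_chart_source _ _, hwV⟩
  · rw [hκx]
    exact hR0
  · intro x hx
    obtain ⟨h1, h2⟩ := (hκs x).1 hx
    have h3 : MDifferentiableAt 𝓘(ℂ, Fin 2 → ℂ) 𝓘(ℂ, Fin 2 → ℂ) e x :=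
      mdifferentiableAt_atlas (chart_mem_atlas _ _) h1
    have h4 : MDifferentiableAt 𝓘(ℂ, Fin 2 → ℂ) 𝓘(ℂ, Fin 2 → ℂ) R.symm (e x) :=
      (hV0s _ h2.1).2.1.differentiableAt.mdifferentiableAt
    exact (MDifferentiableAt.comp (g := R.symm) x h4 h3).mdifferentiableWithinAt
  · intro y hy
    obtain ⟨h1, h2, h3⟩ := hκt y hy
    have h4 : MDifferentiableAt 𝓘(ℂ, Fin 2 → ℂ) 𝓘(ℂ, Fin 2 → ℂ) F y := by
      have := (hV0s _ h2.1).2.2.1.differentiableAt.mdifferentiableAt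
      rwa [← hRF y, R.left_inv h1] at this
    have h5 : MDifferentiableAt 𝓘(ℂ, Fin 2 → ℂ) 𝓘(ℂ, Fin 2 → ℂ) e.symm (F y) :=
      mdifferentiableAt_atlas_symm (chart_mem_atlas _ _) h3
    exact (MDifferentiableAt.comp (g := e.symm) y h5 h4).mdifferentiableWithinAt
  · intro t ht
    obtain ⟨h1, h2, h3⟩ := hρs t ht
    have h4 : R.symm (γ (w + t)) = ![0, t] := by
      rw [← hFγ, ← hRF, R.left_inv h2]
    refine ⟨?_, ?_⟩
    · rw [hκs]
      refine ⟨h1, h3, (hV0s _ h3).1, ?_⟩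
      rw [h4]
      simpa using ht
    · rw [hκx]
      exact h4
  · intro y hy
    obtain ⟨h1, h2, h3⟩ := hκt y hy
    have h4 := h2.2.2
    rw [← hRF y, R.left_inv h1] at h4
    exact h4

theorem regChart_of_curve {T : Set M} {g : ℂ → M} {w : ℂ}
    (hg : ∀ᶠ z in 𝓝 w, MDifferentiableAt 𝓘(ℂ, ℂ) 𝓘(ℂ, Fin 2 → ℂ) g z)
    (hd : deriv (fun z => chartAt (Fin 2 → ℂ) (g w) (g z)) w ≠ 0) (hgT : ∀ z, g z ∈ T)
    (hT : ∀ ρ > 0, ∃ U ∈ 𝓝 (g w), T ∩ U ⊆ g '' ball w ρ) : ∃ κ, RegChart T (g w) κ := by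
  obtain ⟨κ, h1, h2, h3, h4, ρ, hρ, h5, h6⟩ := exists_straight hg hd
  obtain ⟨U, hU, hUs⟩ := hT ρ hρ
  obtain ⟨O, hOU, hO, hwO⟩ := mem_nhds_iff.1 hU
  refine ⟨κ.restrOpen O hO, ⟨h1, hwO⟩, h2, ?_, ?_, ?_⟩
  · rintro x ⟨hx1, hx2⟩
    change x ∈ T ↔ κ x 0 = 0
    constructor
    · intro hxT
      obtain ⟨z, hz, rfl⟩ := hUs ⟨hxT, hOU hx2⟩
      have h7 := (h5 (z - w) (by simpa [dist_eq_norm] using hz)).2
      rw [add_sub_cancel] at h7
      rw [h7]
      rfl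
    · intro hx0
      have h7 : ‖κ x 1‖ < ρ := h6 _ (κ.map_source hx1)
      obtain ⟨h8, h9⟩ := h5 (κ x 1) (by simpa using h7)
      rw [vec_eq hx0] at h9
      rw [← κ.injOn h8 hx1 h9]
      exact hgT _
  · exact h3.mono fun x hx => hx.1
  · refine h4.mono fun x hx => ?_
    rw [OpenPartialHomeomorph.restrOpen] at hx
    exact hx.1


/-! ### application to the closure of the component -/

/-- `Φ` is, along `Z` near `q`, a (real) differentiable function in the chart at `q` -/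
def DiffAlong (Z : Set M) (Φ : M → ℂ) (q : M) : Prop :=
  ∃ Ψ : (Fin 2 → ℂ) → ℂ, DifferentiableAt ℝ Ψ (chartAt (Fin 2 → ℂ) q q) ∧
    ∀ᶠ x in 𝓝 q, x ∈ Z → Φ x = Ψ (chartAt (Fin 2 → ℂ) q x)

theorem deriv_ne_of_diffAlong {Z : Set M} {Φ : M → ℂ} {g : ℂ → M} {w : ℂ}
    (hg : ∀ᶠ z in 𝓝 w, MDifferentiableAt 𝓘(ℂ, ℂ) 𝓘(ℂ, Fin 2 → ℂ) g z)
    (hgZ : ∀ᶠ z in 𝓝 w, g z ∈ Z) (hΦ : DiffAlong Z Φ (g w)) {f : ℂ → ℂ}
    (hf : AnalyticAt ℂ f w) (hf' : deriv f w ≠ 0) (hfg : ∀ᶠ z in 𝓝 w, Φ (g z) = f z) :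
    deriv (fun z => chartAt (Fin 2 → ℂ) (g w) (g z)) w ≠ 0 := by
  intro h0
  obtain ⟨Ψ, hΨ, hΨ2⟩ := hΦ
  set e := chartAt (Fin 2 → ℂ) (g w) with he
  set γ : ℂ → (Fin 2 → ℂ) := fun z => e (g z) with hγ
  have hγa : AnalyticAt ℂ γ w := analyticAt_chart hg
  have h1 : HasDerivAt γ 0 w := by
    rw [← h0]
    exact hγa.differentiableAt.hasDerivAt
  have h2 : HasFDerivAt γ (0 : ℂ →L[ℝ] (Fin 2 → ℂ)) w := by
    have h3 := h1.hasFDerivAt.restrictScalars ℝ
    refine h3.congr_fderiv ?_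
    ext
    simp
  have h3 : HasFDerivAt (fun z => Ψ (γ z)) ((fderiv ℝ Ψ (γ w)).comp (0 : ℂ →L[ℝ] (Fin 2 → ℂ))) w :=
    HasFDerivAt.comp (g := Ψ) w hΨ.hasFDerivAt h2
  have h4 : (fun z => Ψ (γ z)) =ᶠ[𝓝 w] f := by
    filter_upwards [hfg, hgZ, hg.self_of_nhds.continuousAt.eventually hΨ2] with z h5 h6 h7
    rw [← h5, h7 h6]
  have h5 : HasFDerivAt f ((fderiv ℝ Ψ (γ w)).comp (0 : ℂ →L[ℝ] (Fin 2 → ℂ))) w :=
    h3.congr_of_eventuallyEq h4.symm
  have h6 : HasFDerivAt f (((deriv f w) • (1 : ℂ →L[ℂ] ℂ)).restrictScalars ℝ) w := by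
    have h7 := hf.differentiableAt.hasDerivAt.hasFDerivAt.restrictScalars ℝ
    refine h7.congr_fderiv ?_
    ext
    simp [mul_comm]
  have h7 := h5.unique h6
  apply hf'
  have h8 := congrArg (fun L : ℂ →L[ℝ] ℂ => L 1) h7
  simpa using h8.symm

variable {Z : Set M} {p : M} {Φ : M → ℂ} {c₀ : ℂ}

theorem g_deriv_ne_of_dsc {κ : OpenPartialHomeomorph M (Fin 2 → ℂ)} {q : M} (hκ : RegChart Z q κ)
    {g : ℂ → M} (hg : ∀ᶠ z in 𝓝 (0 : ℂ), MDifferentiableAt 𝓘(ℂ, ℂ) 𝓘(ℂ, Fin 2 → ℂ) g z)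
    {l : ℂ → ℂ} (hl : AnalyticAt ℂ l 0) (hl0 : l 0 = 0) (hl1 : deriv l 0 ≠ 0)
    (hgl : ∀ᶠ z in 𝓝 (0 : ℂ), g z = dsc κ (l z)) :
    deriv (fun z => chartAt (Fin 2 → ℂ) (g 0) (g z)) 0 ≠ 0 := by
  have hg0 : g 0 = q := by
    rw [hgl.self_of_nhds, hl0, hκ.dsc_zero]
  intro h0
  set e := chartAt (Fin 2 → ℂ) (g 0) with he
  set γ : ℂ → (Fin 2 → ℂ) := fun z => e (g z) with hγ
  have hγa : AnalyticAt ℂ γ 0 := analyticAt_chart hg
  have h1 : HasDerivAt γ 0 0 := by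
    rw [← h0]
    exact hγa.differentiableAt.hasDerivAt
  -- the transition map
  have hT : DifferentiableAt ℂ (fun y => κ (e.symm y)) (γ 0) := by
    have h2 : γ 0 ∈ e.target := mem_chart_target _ _
    have h3 : MDifferentiableAt 𝓘(ℂ, Fin 2 → ℂ) 𝓘(ℂ, Fin 2 → ℂ) e.symm (γ 0) :=
      mdifferentiableAt_atlas_symm (chart_mem_atlas _ _) h2
    have h4 : e.symm (γ 0) = q := by
      rw [hγ]
      simp only
      rw [e.left_inv (mem_chart_source _ _), hg0]
    have h5 : MDifferentiableAt 𝓘(ℂ, Fin 2 → ℂ) 𝓘(ℂ, Fin 2 → ℂ) κ (e.symm (γ 0)) := by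
      rw [h4]
      exact (hκ.hol q hκ.mem).mdifferentiableAt (κ.open_source.mem_nhds hκ.mem)
    exact mdifferentiableAt_iff_differentiableAt.1 (MDifferentiableAt.comp (g := κ) (γ 0) h5 h3)
  have h2 : HasDerivAt (fun z => κ (e.symm (γ z))) 0 0 := by
    have := hT.hasFDerivAt.comp_hasDerivAt (0 : ℂ) h1
    rw [map_zero] at this
    exact this
  -- but this is `(0, l z)`
  have h3 : (fun z => κ (e.symm (γ z))) =ᶠ[𝓝 0] fun z => ![0, l z] := by
    obtain ⟨r, hr0, hr⟩ := hκ.exists_ball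
    have h4 : ∀ᶠ z in 𝓝 (0 : ℂ), l z ∈ ball (0 : ℂ) r := by
      have := hl.continuousAt.tendsto
      rw [hl0] at this
      exact this (ball_mem_nhds _ hr0)
    have h5 : ∀ᶠ z in 𝓝 (0 : ℂ), g z ∈ e.source :=
      hg.self_of_nhds.continuousAt (e.open_source.mem_nhds (mem_chart_source _ _))
    filter_upwards [h4, h5, hgl] with z hz1 hz2 hz3
    simp only [hγ]
    rw [e.left_inv hz2, hz3, hκ.map_dsc hr hz1]
  have h4 : HasDerivAt (fun z => (![0, l z] : Fin 2 → ℂ)) 0 0 := h2.congr_of_eventuallyEq h3.symm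
  have h5 := (hasDerivAt_pi.1 h4) 1
  have h6 : HasDerivAt l 0 0 := h5
  exact hl1 h6.deriv

variable [T2Space M] [SecondCountableTopology M] [LocallyCompactSpace M]


/-- the image of a small disc is open in the curve -/
theorem small_disc {T : Set M} {g : ℂ → M} {w : ℂ} {ρ : ℝ} (hcl : IsClosed (T \ g '' ball w ρ)) (hρ : 0 < ρ) :
    ∃ U ∈ 𝓝 (g w), T ∩ U ⊆ g '' ball w ρ := by
  refine ⟨(T \ g '' ball w ρ)ᶜ, hcl.isOpen_compl.mem_nhds ?_, ?_⟩
  · intro hh
    exact hh.2 ⟨w, mem_ball_self hρ, rfl⟩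
  · rintro x ⟨hx1, hx2⟩
    by_contra hx3
    exact hx2 ⟨hx1, hx3⟩

theorem sphere_closed {T : Set M} {g0 g1 : ℂ → M} (hc0 : Continuous g0) (hc1 : Continuous g1)
    (glue : ∀ z, z ≠ 0 → g0 z = g1 z⁻¹) (inj : Function.Injective g0) (hne : ∀ z, g0 z ≠ g1 0)
    (hT : T = insert (g1 0) (range g0)) (w : ℂ) {ρ : ℝ} (hρ : 0 < ρ) :
    IsClosed (T \ g0 '' ball w ρ) := by
  have hR : 0 < ‖w‖ + ρ := by positivity
  have hsub : ball w ρ ⊆ ball 0 (‖w‖ + ρ) := by
    intro z hz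
    rw [mem_ball_zero_iff]
    rw [mem_ball, dist_eq_norm] at hz
    calc ‖z‖ = ‖w + (z - w)‖ := by rw [add_sub_cancel]
      _ ≤ ‖w‖ + ‖z - w‖ := norm_add_le _ _
      _ < ‖w‖ + ρ := by linarith
  have hg1 : ∀ z, z ≠ 0 → g1 z = g0 z⁻¹ := by
    intro z hz
    rw [glue _ (inv_ne_zero hz), inv_inv]
  have key : T \ g0 '' ball w ρ =
      g1 '' closedBall 0 (‖w‖ + ρ)⁻¹ ∪ g0 '' (closedBall 0 (‖w‖ + ρ) \ ball w ρ) := by
    ext x
    constructor
    · rintro ⟨hxT, hx⟩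
      rw [hT] at hxT
      rcases hxT with rfl | ⟨z, rfl⟩
      · exact Or.inl ⟨0, mem_closedBall_self (inv_pos.2 hR).le, rfl⟩
      · have hz : z ∉ ball w ρ := fun hh => hx ⟨z, hh, rfl⟩
        by_cases hzR : ‖z‖ ≤ ‖w‖ + ρ
        · exact Or.inr ⟨z, ⟨by simpa using hzR, hz⟩, rfl⟩
        · push Not at hzR
          have hz0 : z ≠ 0 := by
            rintro rfl
            rw [norm_zero] at hzR
            linarith
          refine Or.inl ⟨z⁻¹, ?_, (glue z hz0).symm⟩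
          simp only [mem_closedBall, dist_zero_right, norm_inv]
          exact inv_anti₀ hR hzR.le
    · rintro (⟨z, hz, rfl⟩ | ⟨z, ⟨hz1, hz2⟩, rfl⟩)
      · by_cases hz0 : z = 0
        · rw [hz0]
          refine ⟨by rw [hT]; exact Or.inl rfl, ?_⟩
          rintro ⟨y, -, hy⟩
          exact hne y hy
        · rw [hg1 z hz0]
          refine ⟨by rw [hT]; exact Or.inr ⟨_, rfl⟩, ?_⟩
          rintro ⟨y, hy, hy2⟩
          have h1 := inj hy2
          have h2 := hsub hy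
          rw [mem_ball_zero_iff, h1, norm_inv] at h2
          simp only [mem_closedBall, dist_zero_right] at hz
          have h3 : 0 < ‖z‖ := norm_pos_iff.2 hz0
          have h4 : (‖w‖ + ρ) ≤ ‖z‖⁻¹ := by
            rw [le_inv_comm₀ hR h3]
            exact hz
          linarith
      · refine ⟨by rw [hT]; exact Or.inr ⟨_, rfl⟩, ?_⟩
        rintro ⟨y, hy, hy2⟩
        exact hz2 (inj hy2 ▸ hy)
  rw [key]
  refine (((isCompact_closedBall _ _).image hc1).union (IsCompact.image ?_ hc0)).isClosed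
  exact (isCompact_closedBall _ _).diff isOpen_ball

/-- the closure of the component is an embedded curve (sphere case) -/
theorem IsSphere.embedded {g0 g1 : ℂ → M} (h : IsSphere Z p Φ g0 g1)
    (hsub : closure (Cmp Z p) ⊆ Z) (hΦ : ∀ q ∈ closure (Cmp Z p), q ≠ p → DiffAlong Z Φ q) :
    ∀ q ∈ closure (Cmp Z p), ∃ κ, RegChart (closure (Cmp Z p)) q κ := by
  have hmem0 : ∀ z, g0 z ∈ closure (Cmp Z p) := fun z => by
    rw [h.ran]
    exact Or.inr ⟨z, rfl⟩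
  have hg1 : ∀ z, z ≠ 0 → g1 z = g0 z⁻¹ := by
    intro z hz
    rw [h.glue _ (inv_ne_zero hz), inv_inv]
  have hmem1 : ∀ z, g1 z ∈ closure (Cmp Z p) := fun z => by
    by_cases hz : z = 0
    · rw [hz, h.zero, h.ran]
      exact Or.inl rfl
    · rw [hg1 z hz]
      exact hmem0 _
  have hc0 : Continuous g0 := h.hol0.continuous
  have hc1 : Continuous g1 := h.hol1.continuous
  have hran : closure (Cmp Z p) = insert (g1 0) (range g0) := by rw [h.zero]; exact h.ran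
  have hran' : closure (Cmp Z p) = insert (g0 0) (range g1) := by
    rw [hran]
    ext x
    constructor
    · rintro (rfl | ⟨z, rfl⟩)
      · exact Or.inr ⟨0, rfl⟩
      · by_cases hz : z = 0
        · exact Or.inl (by rw [hz])
        · exact Or.inr ⟨z⁻¹, (h.glue z hz).symm⟩
    · rintro (rfl | ⟨z, rfl⟩)
      · exact Or.inr ⟨0, rfl⟩
      · by_cases hz : z = 0
        · exact Or.inl (by rw [hz])
        · exact Or.inr ⟨z⁻¹, (hg1 z hz).symm⟩
  have hne : ∀ z, g0 z ≠ g1 0 := fun z => by rw [h.zero]; exact h.ne z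
  have hne' : ∀ z, g1 z ≠ g0 0 := by
    intro z hz
    by_cases hz0 : z = 0
    · rw [hz0] at hz
      exact hne 0 hz.symm
    · rw [hg1 z hz0] at hz
      exact inv_ne_zero hz0 (h.inj hz)
  intro q hq
  rw [hran] at hq
  rcases hq with hq | ⟨w, rfl⟩
  · -- at the pole
    rw [hq]
    refine regChart_of_curve (Eventually.of_forall fun z => h.hol1 z) ?_ hmem1 ?_
    · obtain ⟨κ, hκ, l, hl, hl0, hl1, hl2⟩ := h.near
      exact g_deriv_ne_of_dsc hκ (Eventually.of_forall fun z => h.hol1 z) hl hl0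
        (by rw [hl1]; exact one_ne_zero) hl2
    · intro ρ hρ
      exact small_disc (sphere_closed hc1 hc0 hg1 h.inj1 hne' hran' 0 hρ) hρ
  · refine regChart_of_curve (Eventually.of_forall fun z => h.hol0 z) ?_ hmem0 ?_
    · refine deriv_ne_of_diffAlong (Eventually.of_forall fun z => h.hol0 z)
        (Eventually.of_forall fun z => hsub (hmem0 z)) (hΦ _ (hmem0 w) (h.ne w)) (f := id)
        analyticAt_id (by simp) (Eventually.of_forall fun z => h.inv z)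
    · intro ρ hρ
      exact small_disc (sphere_closed hc0 hc1 h.glue h.inj hne hran w hρ) hρ

/-- the closure of the component is an embedded curve (plane case) -/
theorem IsPlane.embedded {G : ℂ → M} (h : IsPlane Z p Φ c₀ G)
    (hsub : closure (Cmp Z p) ⊆ Z) (hΦ : ∀ q ∈ closure (Cmp Z p), q ≠ p → DiffAlong Z Φ q) :
    ∀ q ∈ closure (Cmp Z p), ∃ κ, RegChart (closure (Cmp Z p)) q κ := by
  have hmem : ∀ z, G z ∈ closure (Cmp Z p) := fun z => by
    rw [h.ran]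
    exact ⟨z, rfl⟩
  have hc : Continuous G := h.hol.continuous
  intro q hq
  rw [h.ran] at hq
  obtain ⟨w, rfl⟩ := hq
  refine regChart_of_curve (Eventually.of_forall fun z => h.hol z) ?_ hmem ?_
  · by_cases hw : w = 0
    · rw [hw]
      obtain ⟨κ, hκ, l, hl, hl0, hl1, hl2⟩ := h.near
      exact g_deriv_ne_of_dsc hκ (Eventually.of_forall fun z => h.hol z) hl hl0
        (by rw [hl1]; exact one_ne_zero) hl2
    · refine deriv_ne_of_diffAlong (Eventually.of_forall fun z => h.hol z)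
        (Eventually.of_forall fun z => hsub (hmem z)) (hΦ _ (hmem w) (h.ne w hw))
        (f := fun z => c₀ + z⁻¹) ?_ ?_ ?_
      · exact analyticAt_const.add (analyticAt_inv hw)
      · rw [((hasDerivAt_inv hw).const_add c₀).deriv]
        exact neg_ne_zero.2 (inv_ne_zero (pow_ne_zero 2 hw))
      · filter_upwards [isOpen_ne.mem_nhds hw] with z hz
        exact h.inv z hz
  · intro ρ hρ
    refine small_disc ?_ hρ
    have h1 : closure (Cmp Z p) \ G '' ball w ρ = G '' (ball w ρ)ᶜ := by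
      rw [h.ran, ← image_univ, ← image_sdiff h.inj, ← compl_eq_univ_sdiff]
    rw [h1]
    have hpr : IsProperMap G := isProperMap_iff_tendsto_cocompact.2 ⟨hc, h.lim⟩
    exact hpr.isClosedMap _ isOpen_ball.isClosed_compl

end

end Vale.Agent.P267.H331
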