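import Mathlib

/-! P267 / H331 (helper331), package CHEAP-C2, part A: a holomorphic function with exactly one simple
pole on a connected surface, proper outside a countable set of values, is injective. -/

namespace Vale.Agent.P267.H331

open Set Filter Topology

noncomputable section

/-- a subset of a second countable space without accumulation point in itself is countable -/
theorem countable_of_isolated {X : Type*} [TopologicalSpace X] [SecondCountableTopology X]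
    {A : Set X} (h : ∀ x ∈ A, ∀ᶠ y in 𝓝[≠] x, y ∉ A) : A.Countable := by
  have hd : DiscreteTopology A := by
    rw [discreteTopology_subtype_iff]
    intro x hx
    rw [← disjoint_iff, disjoint_principal_right]
    exact h x hx
  exact Set.countable_coe_iff.1 countable_of_Lindelof_of_discrete

/-- `φ` is injective near `s` -/
def LI {S : Type*} [TopologicalSpace S] (φ : S → ℂ) (s : S) : Prop :=
  ∃ U ∈ 𝓝 s, InjOn φ U

/-- holomorphic function on a surface with one simple pole (pointwise discs, no compatibility) -/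
structure PoleData {S : Type*} [TopologicalSpace S] (c : S → OpenPartialHomeomorph S ℂ) (p : S)
    (φ : S → ℂ) : Prop where
  mem : ∀ s, s ∈ (c s).source
  hol : ∀ s, s ≠ p → AnalyticAt ℂ (φ ∘ (c s).symm) (c s s)
  pole : ∃ v : ℂ → ℂ, AnalyticAt ℂ v (c p p) ∧
    ∀ᶠ t in 𝓝[≠] (c p p), φ ((c p).symm t) = (t - c p p)⁻¹ + v t

namespace PoleData

variable {S : Type*} [TopologicalSpace S] {c : S → OpenPartialHomeomorph S ℂ} {p : S} {φ : S → ℂ}

theorem map_symm (h : PoleData c p φ) (s : S) : map (c s).symm (𝓝 (c s s)) = 𝓝 s := by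
  have h1 := (c s).symm.map_nhds_eq (x := c s s) ((c s).map_source (h.mem s))
  rwa [(c s).left_inv (h.mem s)] at h1

theorem map_symm_ne (h : PoleData c p φ) (s : S) :
    map (c s).symm (𝓝[≠] (c s s)) = 𝓝[≠] s := by
  have h1 := (c s).symm.map_nhdsWithin_eq (x := c s s) ((c s).map_source (h.mem s)) {c s s}ᶜ
  rw [h1, (c s).left_inv (h.mem s)]
  have h2 : s ∈ (c s).source := h.mem s
  refine nhdsWithin_eq_nhdsWithin h2 (c s).open_source ?_
  ext x
  simp only [OpenPartialHomeomorph.symm_source, mem_inter_iff, mem_image, mem_compl_iff,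
    mem_singleton_iff]
  constructor
  · rintro ⟨⟨y, ⟨hy, hy'⟩, rfl⟩, hx⟩
    refine ⟨fun hh => hy' ?_, hx⟩
    have h3 := (c s).right_inv hy
    rw [hh] at h3
    exact h3.symm
  · rintro ⟨hx, hx'⟩
    refine ⟨⟨c s x, ⟨(c s).map_source hx', fun hh => hx ((c s).injOn hx' h2 hh)⟩,
      (c s).left_inv hx'⟩, hx'⟩

theorem neBot_ne (h : PoleData c p φ) (s : S) : (𝓝[≠] s).NeBot := by
  rw [← h.map_symm_ne s]
  infer_instance

theorem eventually_ne_iff (h : PoleData c p φ) (s : S) {q : S → Prop} :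
    (∀ᶠ x in 𝓝[≠] s, q x) ↔ ∀ᶠ t in 𝓝[≠] (c s s), q ((c s).symm t) := by
  rw [← h.map_symm_ne s, eventually_map]

theorem cont (h : PoleData c p φ) {s : S} (hs : s ≠ p) : ContinuousAt φ s := by
  have h1 : ContinuousAt (φ ∘ (c s).symm) (c s s) := (h.hol s hs).continuousAt
  have h2 : Tendsto (φ ∘ (c s).symm) (𝓝 (c s s)) (𝓝 (φ s)) := by
    have := h1.tendsto
    simp only [Function.comp_apply, (c s).left_inv (h.mem s)] at this
    exact this
  rw [ContinuousAt, ← h.map_symm s, tendsto_map'_iff]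
  exact h2

/-- local injectivity along the disc gives local injectivity on the surface -/
theorem li_of_disc (_h : PoleData c p φ) {s x : S} (hx : x ∈ (c s).source)
    (hi : ∃ V ∈ 𝓝 (c s x), InjOn (φ ∘ (c s).symm) V) : LI φ x := by
  obtain ⟨V, hV, hVi⟩ := hi
  refine ⟨(c s).source ∩ (c s) ⁻¹' V, ?_, ?_⟩
  · exact inter_mem ((c s).open_source.mem_nhds hx) ((c s).continuousAt hx hV)
  · rintro a ⟨ha, ha'⟩ b ⟨hb, hb'⟩ hab
    refine (c s).injOn ha hb (hVi ha' hb' ?_)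
    simp only [Function.comp_apply, (c s).left_inv ha, (c s).left_inv hb]
    exact hab

theorem injOn_of_deriv_ne {F : ℂ → ℂ} {t : ℂ} (hF : AnalyticAt ℂ F t) (hd : deriv F t ≠ 0) :
    ∃ V ∈ 𝓝 t, InjOn F V := by
  have h1 : HasStrictDerivAt F (deriv F t) t := hF.hasStrictDerivAt
  have h2 := h1.hasStrictFDerivAt_equiv hd
  exact ⟨_, (h2.toOpenPartialHomeomorph F).open_source.mem_nhds
    h2.mem_toOpenPartialHomeomorph_source, (h2.toOpenPartialHomeomorph F).injOn⟩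

/-- near the pole: `φ` is injective on a punctured neighbourhood and tends to infinity -/
theorem pole_inv (h : PoleData c p φ) : ∃ k : ℂ → ℂ, AnalyticAt ℂ k (c p p) ∧ k (c p p) = 0 ∧
    deriv k (c p p) = 1 ∧ ∀ᶠ t in 𝓝[≠] (c p p), k t ≠ 0 ∧ φ ((c p).symm t) = (k t)⁻¹ := by
  obtain ⟨v, hv, hv'⟩ := h.pole
  set a := c p p with ha
  have hd : AnalyticAt ℂ (fun t => 1 + (t - a) * v t) a := by fun_prop
  have hd0 : (fun t => 1 + (t - a) * v t) a ≠ 0 := by simp
  have hk : AnalyticAt ℂ (fun t => (t - a) * (1 + (t - a) * v t)⁻¹) a :=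
    (by fun_prop : AnalyticAt ℂ (fun t : ℂ => t - a) a).mul (hd.inv hd0)
  refine ⟨fun t => (t - a) * (1 + (t - a) * v t)⁻¹, hk, by simp, ?_, ?_⟩
  · have h1 : HasDerivAt (fun t : ℂ => t - a) 1 a := (hasDerivAt_id a).sub_const a
    have h2 := (hd.inv hd0).differentiableAt.hasDerivAt
    have h3 := h1.mul h2
    have h4 := h3.deriv
    have h5 : (fun t => (t - a) * (1 + (t - a) * v t)⁻¹) =
      (fun t => t - a) * (fun t => 1 + (t - a) * v t)⁻¹ := rfl
    rw [h5, h4]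
    simp
  · have h1 : ∀ᶠ t in 𝓝 a, (fun t => 1 + (t - a) * v t) t ≠ 0 :=
      hd.continuousAt.eventually_ne hd0
    filter_upwards [hv', h1.filter_mono nhdsWithin_le_nhds, self_mem_nhdsWithin] with t h2 h3 h4
    have h5 : t - a ≠ 0 := sub_ne_zero.2 h4
    refine ⟨mul_ne_zero h5 (inv_ne_zero h3), ?_⟩
    rw [h2, mul_inv, inv_inv]
    field_simp

theorem pole_li (h : PoleData c p φ) : ∃ U ∈ 𝓝 p, InjOn φ (U \ {p}) := by
  obtain ⟨k, hk, hk0, hk1, hk2⟩ := h.pole_inv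
  obtain ⟨V, hV, hVi⟩ := injOn_of_deriv_ne hk (by rw [hk1]; exact one_ne_zero)
  rw [eventually_nhdsWithin_iff] at hk2
  obtain ⟨V', hV', hV'2⟩ := hk2.exists_mem
  refine ⟨(c p).source ∩ (c p) ⁻¹' (V ∩ V'), ?_, ?_⟩
  · exact inter_mem ((c p).open_source.mem_nhds (h.mem p))
      ((c p).continuousAt (h.mem p) (inter_mem hV hV'))
  · rintro a ⟨⟨ha, ha1, ha2⟩, hap⟩ b ⟨⟨hb, hb1, hb2⟩, hbp⟩ hab
    have h1 := hV'2 (c p a) ha2 (fun hh => hap ((c p).injOn ha (h.mem p) hh))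
    have h2 := hV'2 (c p b) hb2 (fun hh => hbp ((c p).injOn hb (h.mem p) hh))
    rw [(c p).left_inv ha] at h1
    rw [(c p).left_inv hb] at h2
    refine (c p).injOn ha hb (hVi ha1 hb1 ?_)
    have h3 : (k (c p a))⁻¹ = (k (c p b))⁻¹ := by rw [← h1.2, ← h2.2, hab]
    exact inv_injective h3

theorem tendsto_pole (h : PoleData c p φ) : Tendsto φ (𝓝[≠] p) (Bornology.cobounded ℂ) := by
  obtain ⟨k, hk, hk0, hk1, hk2⟩ := h.pole_inv
  rw [← h.map_symm_ne p, tendsto_map'_iff]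
  have h1 : Tendsto (fun t => (k t)⁻¹) (𝓝[≠] (c p p)) (Bornology.cobounded ℂ) := by
    refine tendsto_inv₀_nhdsNE_zero.comp ?_
    refine tendsto_nhdsWithin_iff.2 ⟨?_, hk2.mono fun t ht => ht.1⟩
    have := hk.continuousAt.tendsto
    rw [hk0] at this
    exact this.mono_left nhdsWithin_le_nhds
  refine h1.congr' ?_
  filter_upwards [hk2] with t ht
  rw [Function.comp_apply, ht.2]

theorem li_near_pole [T1Space S] (h : PoleData c p φ) : ∀ᶠ s in 𝓝[≠] p, LI φ s := by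
  obtain ⟨U, hU, hUi⟩ := h.pole_li
  obtain ⟨U', hU'U, hU', hpU'⟩ := mem_nhds_iff.1 hU
  filter_upwards [mem_nhdsWithin_of_mem_nhds (hU'.mem_nhds hpU'), self_mem_nhdsWithin] with s h1 h2
  refine ⟨U' \ {p}, ?_, hUi.mono (sdiff_subset_sdiff_left hU'U)⟩
  exact (hU'.sdiff isClosed_singleton).mem_nhds ⟨h1, h2⟩

/-- dichotomy at a point different from the pole -/
theorem const_or_li [T1Space S] (h : PoleData c p φ) {s : S} (hs : s ≠ p) :
    (∀ᶠ x in 𝓝 s, φ x = φ s) ∨ ∀ᶠ x in 𝓝[≠] s, LI φ x := by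
  have hF := h.hol s hs
  set F := φ ∘ (c s).symm with hFd
  rcases hF.deriv.eventually_eq_zero_or_eventually_ne_zero with h0 | h0
  · left
    obtain ⟨r, hr, hr2⟩ := Metric.eventually_nhds_iff_ball.1 (h0.and hF.eventually_analyticAt)
    have hc : ∀ t ∈ Metric.ball (c s s) r, F t = F (c s s) := by
      intro t ht
      refine (convex_ball (c s s) r).is_const_of_fderivWithin_eq_zero (𝕜 := ℂ) ?_ ?_ ht
        (Metric.mem_ball_self hr)
      · intro x hx
        exact ((hr2 x hx).2.differentiableAt).differentiableWithinAt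
      · intro x hx
        rw [fderivWithin_of_isOpen Metric.isOpen_ball hx]
        have h1 := (hr2 x hx).1
        refine ContinuousLinearMap.ext_ring ?_
        rw [fderiv_apply_one_eq_deriv, h1]
        rfl
    rw [← h.map_symm s, eventually_map]
    filter_upwards [Metric.ball_mem_nhds (c s s) hr] with t ht
    have := hc t ht
    simpa only [hFd, Function.comp_apply, (c s).left_inv (h.mem s)] using this
  · right
    rw [h.eventually_ne_iff s]
    have h2 : ∀ᶠ t in 𝓝 (c s s), t ∈ (c s).target :=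
      (c s).open_target.mem_nhds ((c s).map_source (h.mem s))
    filter_upwards [h0, h2.filter_mono nhdsWithin_le_nhds,
      hF.eventually_analyticAt.filter_mono nhdsWithin_le_nhds] with t h3 h4 h5
    refine h.li_of_disc (s := s) ((c s).map_target h4) ?_
    rw [(c s).right_inv h4]
    exact injOn_of_deriv_ne h5 h3

theorem not_const_of_li (h : PoleData c p φ) {s : S} (hs : LI φ s) :
    ¬ ∀ᶠ x in 𝓝 s, φ x = φ s := by
  intro hc
  obtain ⟨U, hU, hUi⟩ := hs
  have := h.neBot_ne s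
  have h1 : ∀ᶠ x in 𝓝[≠] s, x ∈ U ∧ φ x = φ s ∧ x ≠ s :=
    (((eventually_mem_set.2 hU).and hc).filter_mono nhdsWithin_le_nhds).and
      self_mem_nhdsWithin |>.mono fun x hx => ⟨hx.1.1, hx.1.2, hx.2⟩
  obtain ⟨x, hx1, hx2, hx3⟩ := h1.exists
  exact hx3 (hUi hx1 (mem_of_mem_nhds hU) hx2)

variable [T2Space S] [ConnectedSpace S]

theorem not_const (h : PoleData c p φ) {s : S} (hs : s ≠ p) : ¬ ∀ᶠ x in 𝓝 s, φ x = φ s := by
  set L : Set S := {s | s ≠ p ∧ ∀ᶠ x in 𝓝 s, φ x = φ s} with hL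
  have hLo : IsOpen L := by
    rw [isOpen_iff_mem_nhds]
    rintro s ⟨h1, h2⟩
    filter_upwards [isOpen_ne.mem_nhds h1, eventually_eventually_nhds.2 h2, h2] with x h3 h4 h5
    exact ⟨h3, h4.mono fun y hy => by rw [hy, h5]⟩
  have hLc : IsClosed L := by
    rw [← isOpen_compl_iff, isOpen_iff_mem_nhds]
    intro s hsL
    have key : ∀ᶠ x in 𝓝[≠] s, LI φ x := by
      by_cases hsp : s = p
      · rw [hsp]; exact h.li_near_pole
      · rcases h.const_or_li hsp with h1 | h1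
        · exact absurd ⟨hsp, h1⟩ hsL
        · exact h1
    rw [eventually_nhdsWithin_iff] at key
    filter_upwards [key] with x hx
    by_cases hxs : x = s
    · rw [hxs]; exact hsL
    · intro hxL
      exact h.not_const_of_li (hx hxs) hxL.2
  rcases isClopen_iff.1 ⟨hLc, hLo⟩ with h1 | h1
  · intro h2
    have : s ∈ L := ⟨hs, h2⟩
    rw [h1] at this
    exact this
  · have : p ∈ L := by rw [h1]; trivial
    exact absurd rfl this.1

theorem li_punct (h : PoleData c p φ) (s : S) : ∀ᶠ x in 𝓝[≠] s, LI φ x := by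
  by_cases hsp : s = p
  · rw [hsp]; exact h.li_near_pole
  · exact (h.const_or_li hsp).resolve_left (h.not_const hsp)

theorem nhds_le (h : PoleData c p φ) {s : S} (hs : s ≠ p) : 𝓝 (φ s) ≤ map φ (𝓝 s) := by
  have hF := h.hol s hs
  have h0 : (φ ∘ (c s).symm) (c s s) = φ s := by
    simp only [Function.comp_apply, (c s).left_inv (h.mem s)]
  rcases hF.eventually_constant_or_nhds_le_map_nhds with h1 | h1
  · exfalso
    refine h.not_const hs ?_
    rw [← h.map_symm s, eventually_map]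
    filter_upwards [h1] with t ht
    rw [h0] at ht
    exact ht
  · rw [h0] at h1
    rw [← h.map_symm s, map_map]
    exact h1

theorem countable_not_li [SecondCountableTopology S] (h : PoleData c p φ) :
    {s | ¬ LI φ s}.Countable := by
  refine countable_of_isolated ?_
  intro x _
  filter_upwards [h.li_punct x] with y hy
  exact fun hh => hh hy

/-- properness outside a set of values -/
structure Proper (p : S) (φ : S → ℂ) (P : Set ℂ) : Prop where
  fin : ∀ w ∉ P, ∃ N ∈ 𝓝 w, ∃ K : Set S, IsCompact K ∧ ∀ s, s ≠ p → φ s ∈ N → s ∈ K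
  inf : ∃ R : ℝ, ∃ K : Set S, IsCompact K ∧ ∀ s, s ≠ p → R < ‖φ s‖ → s ∈ K

omit [T2Space S] [ConnectedSpace S] in
theorem ultra_ne (h : PoleData c p φ) {U : Filter S} [U.NeBot] {s : S} {w : ℂ} (h1 : U ≤ 𝓝 s)
    (h2 : ∀ᶠ x in U, x ≠ p) (h3 : Tendsto φ U (𝓝 w)) : s ≠ p := by
  rintro rfl
  have h4 : U ≤ 𝓝[≠] s := le_inf h1 (le_principal_iff.2 h2)
  have h5 : Tendsto φ U (Bornology.cobounded ℂ) := h.tendsto_pole.mono_left h4
  have h6 : Tendsto (fun x => ‖φ x‖) U atTop := tendsto_norm_cobounded_atTop.comp h5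
  exact not_tendsto_nhds_of_tendsto_atTop h6 _ h3.norm

/-- the values taken at least twice -/
def Dbl (p : S) (φ : S → ℂ) : Set ℂ :=
  {w | ∃ s s' : S, s ≠ p ∧ s' ≠ p ∧ s ≠ s' ∧ φ s = w ∧ φ s' = w}

theorem isOpen_dbl (h : PoleData c p φ) : IsOpen (Dbl p φ) := by
  rw [isOpen_iff_mem_nhds]
  rintro w ⟨s, s', hs, hs', hne, rfl, hw'⟩
  obtain ⟨U, U', hU, hU', hsU, hsU', hd⟩ := t2_separation hne
  have h1 : φ '' (U \ {p}) ∈ 𝓝 (φ s) :=
    h.nhds_le hs (image_mem_map ((hU.sdiff isClosed_singleton).mem_nhds ⟨hsU, hs⟩))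
  have h2 : φ '' (U' \ {p}) ∈ 𝓝 (φ s') :=
    h.nhds_le hs' (image_mem_map ((hU'.sdiff isClosed_singleton).mem_nhds ⟨hsU', hs'⟩))
  rw [hw'] at h2
  filter_upwards [h1, h2] with v hv1 hv2
  obtain ⟨a, ⟨ha, hap⟩, ha2⟩ := hv1
  obtain ⟨b, ⟨hb, hbp⟩, hb2⟩ := hv2
  exact ⟨a, b, hap, hbp, fun hab => disjoint_left.1 hd ha (hab ▸ hb), ha2, hb2⟩

omit [T2Space S] [ConnectedSpace S] in
theorem closure_dbl (h : PoleData c p φ) {P : Set ℂ} (hP : Proper p φ P) {w : ℂ} (hwP : w ∉ P)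
    (hwL : ∀ s, s ≠ p → φ s = w → LI φ s) (hw : w ∈ closure (Dbl p φ)) : w ∈ Dbl p φ := by
  obtain ⟨N, hN, K, hK, hNK⟩ := hP.fin w hwP
  set T : ℂ → Set (S × S) := fun v => {q | q.1 ≠ p ∧ q.2 ≠ p ∧ q.1 ≠ q.2 ∧ φ q.1 = v ∧ φ q.2 = v}
    with hT
  -- the filter of pairs
  set G : Filter (S × S) := comap (fun q : S × S => φ q.1) (𝓝 w) ⊓
    𝓟 {q : S × S | q.1 ≠ p ∧ q.2 ≠ p ∧ q.1 ≠ q.2 ∧ φ q.1 = φ q.2} with hG
  have hGn : G.NeBot := by
    rw [hG, inf_principal_neBot_iff]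
    intro V hV
    obtain ⟨V', hV', hV'V⟩ := mem_comap.1 hV
    obtain ⟨v, hv1, s, s', h1, h2, h3, h4, h5⟩ := mem_closure_iff_nhds.1 hw V' hV'
    exact ⟨(s, s'), hV'V (by simp only [mem_preimage]; rw [h4]; exact hv1),
      h1, h2, h3, by rw [h4, h5]⟩
  have hGK : G ≤ 𝓟 (K ×ˢ K) := by
    rw [le_principal_iff]
    have h1 : {q : S × S | φ q.1 ∈ N} ∈ G := mem_inf_of_left (preimage_mem_comap hN)
    have h2 : {q : S × S | q.1 ≠ p ∧ q.2 ≠ p ∧ q.1 ≠ q.2 ∧ φ q.1 = φ q.2} ∈ G :=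
      mem_inf_of_right (mem_principal_self _)
    filter_upwards [h1, h2] with q hq1 hq2
    exact ⟨hNK q.1 hq2.1 hq1, hNK q.2 hq2.2.1 (hq2.2.2.2 ▸ hq1)⟩
  obtain ⟨⟨a, b⟩, -, hab⟩ := (hK.prod hK) hGK
  set U : Ultrafilter (S × S) := @Ultrafilter.of _ (𝓝 (a, b) ⊓ G) hab with hU
  have hUle : (U : Filter (S × S)) ≤ 𝓝 (a, b) ⊓ G := @Ultrafilter.of_le _ _ hab
  have hUa : (U : Filter (S × S)) ≤ 𝓝 (a, b) := hUle.trans inf_le_left
  have hUG : (U : Filter (S × S)) ≤ G := hUle.trans inf_le_right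
  have e1 : Tendsto (fun q : S × S => φ q.1) U (𝓝 w) :=
    (tendsto_comap.mono_left inf_le_left).mono_left hUG
  have e2 : ∀ᶠ q in (U : Filter (S × S)), q.1 ≠ p ∧ q.2 ≠ p ∧ q.1 ≠ q.2 ∧ φ q.1 = φ q.2 :=
    hUG (mem_inf_of_right (mem_principal_self _))
  have e3 : Tendsto (fun q : S × S => φ q.2) U (𝓝 w) :=
    e1.congr' (e2.mono fun q hq => hq.2.2.2)
  have f1 : Tendsto (Prod.fst : S × S → S) U (𝓝 a) := (continuous_fst.tendsto (a, b)).mono_left hUa
  have f2 : Tendsto (Prod.snd : S × S → S) U (𝓝 b) := (continuous_snd.tendsto (a, b)).mono_left hUa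
  have ha : a ≠ p := h.ultra_ne (U := map Prod.fst (U : Filter (S × S))) f1
    (e2.mono fun q hq => hq.1) e1
  have hb : b ≠ p := h.ultra_ne (U := map Prod.snd (U : Filter (S × S))) f2
    (e2.mono fun q hq => hq.2.1) e3
  have g1 : φ a = w := tendsto_nhds_unique ((h.cont ha).tendsto.comp f1) e1
  have g2 : φ b = w := tendsto_nhds_unique ((h.cont hb).tendsto.comp f2) e3
  by_cases hne : a = b
  · exfalso
    obtain ⟨V, hV, hVi⟩ := hwL a ha g1
    have h1 : ∀ᶠ q in (U : Filter (S × S)), q.1 ∈ V := f1 hV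
    have h2 : ∀ᶠ q in (U : Filter (S × S)), q.2 ∈ V := f2 (hne ▸ hV)
    obtain ⟨q, hq1, hq2, hq3⟩ := (h1.and (h2.and e2)).exists
    exact hq3.2.2.1 (hVi hq1 hq2 hq3.2.2.2)
  · exact ⟨a, b, ha, hb, hne, g1, g2⟩

theorem rank_two : 1 < Module.rank ℝ ℂ := by
  rw [Complex.rank_real_complex]
  exact Cardinal.one_lt_two

theorem big_not_dbl (h : PoleData c p φ) {P : Set ℂ} (hP : Proper p φ P) :
    ∃ R : ℝ, ∀ w ∈ Dbl p φ, ‖w‖ ≤ R := by
  obtain ⟨U, hU, hUi⟩ := h.pole_li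
  obtain ⟨U', hU'U, hU', hpU'⟩ := mem_nhds_iff.1 hU
  obtain ⟨R, K, hK, hRK⟩ := hP.inf
  have hK' : IsCompact (K \ U') := hK.diff hU'
  have hc : ContinuousOn φ (K \ U') := fun s hs =>
    (h.cont (fun hh => hs.2 (by rw [hh]; exact hpU'))).continuousWithinAt
  obtain ⟨R', hR'⟩ := (hK'.image_of_continuousOn hc).isBounded.exists_norm_le
  refine ⟨max R R', ?_⟩
  rintro w ⟨s, s', hs, hs', hne, hw, hw'⟩
  by_contra hlt
  rw [not_le, max_lt_iff] at hlt
  have key : ∀ x : S, x ≠ p → φ x = w → x ∈ U' := by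
    intro x hx hxw
    by_contra hxU
    have h1 : x ∈ K := hRK x hx (by rw [hxw]; exact hlt.1)
    have h2 := hR' (φ x) (mem_image_of_mem φ ⟨h1, hxU⟩)
    rw [hxw] at h2
    exact absurd h2 (not_le.2 hlt.2)
  exact hne (hUi ⟨hU'U (key s hs hw), hs⟩ ⟨hU'U (key s' hs' hw'), hs'⟩ (hw.trans hw'.symm))

theorem dbl_empty [SecondCountableTopology S] (h : PoleData c p φ) {P : Set ℂ}
    (hPc : P.Countable) (hP : Proper p φ P) : Dbl p φ = ∅ := by
  set Q : Set ℂ := P ∪ φ '' {s | ¬ LI φ s} with hQ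
  have hQc : Q.Countable := hPc.union (h.countable_not_li.image φ)
  have hconn : IsPreconnected Qᶜ :=
    (hQc.isPathConnected_compl_of_one_lt_rank rank_two).isConnected.isPreconnected
  have hdense : Dense Qᶜ := hQc.dense_compl ℝ
  by_contra hne
  obtain ⟨w0, hw0⟩ := nonempty_iff_ne_empty.2 hne
  have h1 : (Qᶜ ∩ Dbl p φ).Nonempty := by
    obtain ⟨w, hw1, hw2⟩ := hdense.inter_open_nonempty _ h.isOpen_dbl ⟨w0, hw0⟩
    exact ⟨w, hw2, hw1⟩
  have h2 : Qᶜ ⊆ Dbl p φ := by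
    refine hconn.subset_of_closure_inter_subset h.isOpen_dbl h1 ?_
    rintro w ⟨hw1, hw2⟩
    refine h.closure_dbl hP (fun hh => hw2 (Or.inl hh)) ?_ hw1
    intro s _ hs
    by_contra hli
    exact hw2 (Or.inr ⟨s, hli, hs⟩)
  obtain ⟨R, hR⟩ := h.big_not_dbl hP
  obtain ⟨w, hw1, hw2⟩ := hdense.inter_open_nonempty {w : ℂ | R < ‖w‖}
    (isOpen_lt continuous_const continuous_norm)
    ⟨((|R| + 1 : ℝ) : ℂ), by
      change R < ‖((|R| + 1 : ℝ) : ℂ)‖
      rw [Complex.norm_real, Real.norm_eq_abs, abs_of_nonneg (by positivity)]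
      linarith [le_abs_self R]⟩
  exact absurd (hR w (h2 hw2)) (not_le.2 hw1)

/-- `φ` is injective off the pole -/
theorem injOn [SecondCountableTopology S] (h : PoleData c p φ) {P : Set ℂ}
    (hPc : P.Countable) (hP : Proper p φ P) : InjOn φ {p}ᶜ := by
  intro s hs s' hs' hss
  by_contra hne
  have : φ s ∈ Dbl p φ := ⟨s, s', hs, hs', hne, rfl, hss.symm⟩
  rw [h.dbl_empty hPc hP] at this
  exact this

theorem isOpen_range (h : PoleData c p φ) : IsOpen (φ '' {p}ᶜ) := by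
  rw [isOpen_iff_mem_nhds]
  rintro w ⟨s, hs, rfl⟩
  exact h.nhds_le hs (image_mem_map (isOpen_compl_singleton.mem_nhds hs))

/-- `φ` takes all values outside `P` -/
theorem subset_range (h : PoleData c p φ) {P : Set ℂ}
    (hPc : P.Countable) (hP : Proper p φ P) : Pᶜ ⊆ φ '' {p}ᶜ := by
  have hconn : IsPreconnected Pᶜ :=
    (hPc.isPathConnected_compl_of_one_lt_rank rank_two).isConnected.isPreconnected
  have hdense : Dense Pᶜ := hPc.dense_compl ℝ
  have hne : (φ '' {p}ᶜ).Nonempty := by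
    have := h.neBot_ne p
    obtain ⟨s, hs⟩ := this.nonempty_of_mem (self_mem_nhdsWithin (a := p) (s := {p}ᶜ))
    exact ⟨φ s, s, hs, rfl⟩
  refine hconn.subset_of_closure_inter_subset h.isOpen_range ?_ ?_
  · obtain ⟨w, hw1, hw2⟩ := hdense.inter_open_nonempty _ h.isOpen_range hne
    exact ⟨w, hw2, hw1⟩
  · rintro w ⟨hw1, hw2⟩
    obtain ⟨N, hN, K, hK, hNK⟩ := hP.fin w hw2
    set G : Filter S := comap φ (𝓝 w) ⊓ 𝓟 {p}ᶜ with hG
    have hGn : G.NeBot := by
      rw [hG, inf_principal_neBot_iff]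
      intro V hV
      obtain ⟨V', hV', hV'V⟩ := mem_comap.1 hV
      obtain ⟨v, hv1, s, h1, h2⟩ := mem_closure_iff_nhds.1 hw1 V' hV'
      exact ⟨s, hV'V (by simp only [mem_preimage]; rw [h2]; exact hv1), h1⟩
    have hGK : G ≤ 𝓟 K := by
      rw [le_principal_iff]
      have h1 : {q : S | φ q ∈ N} ∈ G := mem_inf_of_left (preimage_mem_comap hN)
      have h2 : {p}ᶜ ∈ G := mem_inf_of_right (mem_principal_self _)
      filter_upwards [h1, h2] with q hq1 hq2
      exact hNK q hq2 hq1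
    obtain ⟨a, -, ha⟩ := hK hGK
    have e1 : Tendsto φ (𝓝 a ⊓ G) (𝓝 w) :=
      (tendsto_comap.mono_left inf_le_left).mono_left inf_le_right
    have e2 : ∀ᶠ q in 𝓝 a ⊓ G, q ≠ p :=
      (inf_le_right : 𝓝 a ⊓ G ≤ G) (mem_inf_of_right (mem_principal_self _))
    have hap : a ≠ p := @ultra_ne _ _ _ _ _ h _ ha _ _ inf_le_left e2 e1
    have g1 : φ a = w := @tendsto_nhds_unique _ _ _ _ _ _ _ _ ha
      ((h.cont hap).tendsto.mono_left inf_le_left) e1
    exact ⟨a, hap, g1⟩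

end PoleData

end

end Vale.Agent.P267.H331
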