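import Vale.Agent.P267.H331.Curve

/-! P267 / H331 (helper331), package CHEAP-C2, part B5: behaviour at the pole, sphere and plane case. -/

namespace Vale.Agent.P267.H331

open Set Filter Topology Metric
open scoped Manifold ContDiff Classical

noncomputable section

set_option linter.unusedSectionVars false

/-- local inverse of a one variable analytic function -/
theorem exists_local_inverse {k : ℂ → ℂ} (hk : AnalyticAt ℂ k 0) (hk0 : k 0 = 0)
    (hk1 : deriv k 0 ≠ 0) : ∃ l : ℂ → ℂ, AnalyticAt ℂ l 0 ∧ l 0 = 0 ∧ deriv l 0 = (deriv k 0)⁻¹ ∧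
      (∀ᶠ z in 𝓝 (0 : ℂ), k (l z) = z) ∧ ∀ᶠ t in 𝓝 (0 : ℂ), l (k t) = t := by
  have h1 := hk.analyticAt_localInverse hk1
  have h2 : hk.hasStrictDerivAt.localInverse _ _ _ hk1 (k 0) = 0 :=
    HasStrictFDerivAt.localInverse_apply_image ..
  have h3 := (hk.hasStrictDerivAt.to_localInverse hk1).hasDerivAt.deriv
  have h4 := hk.hasStrictDerivAt.eventually_right_inverse hk1
  have h5 := hk.hasStrictDerivAt.eventually_left_inverse hk1
  rw [hk0] at h1 h2 h3 h4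
  exact ⟨_, h1, h2, h3, h4, h5⟩

variable {M : Type*} [TopologicalSpace M] [ChartedSpace (Fin 2 → ℂ) M]

namespace Amb

variable {Z : Set M} {p : M} {Φ : M → ℂ} {c₀ : ℂ}

variable [T2Space M] [SecondCountableTopology M] [LocallyCompactSpace M]

theorem pole_end (h : Amb Z p Φ c₀) : ∃ l : ℂ → ℂ, AnalyticAt ℂ l 0 ∧ l 0 = 0 ∧ deriv l 0 = 1 ∧
    ∀ᶠ ζ in 𝓝[≠] (0 : ℂ), ζ⁻¹ ∈ h.Om ∧ h.gt ζ⁻¹ = dsc (h.K h.pt) (l ζ) := by
  obtain ⟨k, hk, hk0, hk1, hk2⟩ := h.poleData.pole_inv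
  rw [h.C_self] at hk hk0 hk1 hk2
  obtain ⟨l, hl, hl0, hl1, hkl, hlk⟩ := exists_local_inverse hk hk0 (by rw [hk1]; exact one_ne_zero)
  refine ⟨l, hl, hl0, by rw [hl1, hk1, inv_one], ?_⟩
  have hne : ∀ᶠ ζ in 𝓝[≠] (0 : ℂ), l ζ ≠ 0 := by
    filter_upwards [hkl.filter_mono nhdsWithin_le_nhds, self_mem_nhdsWithin] with ζ h1 h2
    intro h3
    rw [h3, hk0] at h1
    exact h2 h1.symm
  have hl2 : Tendsto l (𝓝[≠] (0 : ℂ)) (𝓝[≠] (0 : ℂ)) := by
    refine tendsto_nhdsWithin_iff.2 ⟨?_, hne⟩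
    have := hl.continuousAt.tendsto
    rw [hl0] at this
    exact this.mono_left nhdsWithin_le_nhds
  have hb : ∀ᶠ ζ in 𝓝[≠] (0 : ℂ), l ζ ∈ ball (0 : ℂ) (h.rad h.pt) :=
    hl2.eventually (mem_nhdsWithin_of_mem_nhds (ball_mem_nhds _ (h.rad_pos _)))
  filter_upwards [hl2.eventually hk2, hb, hne, hkl.filter_mono nhdsWithin_le_nhds] with ζ h1 h2 h3 h4
  have h5 : (h.C h.pt).symm (l ζ) ≠ h.pt := by
    intro h6
    apply h3
    have h7 : h.C h.pt ((h.C h.pt).symm (l ζ)) = l ζ := (h.C h.pt).right_inv h2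
    rw [h6, h.C_self] at h7
    exact h7.symm
  have h6 : h.phi ((h.C h.pt).symm (l ζ)) = ζ⁻¹ := by rw [h1.2, h4]
  have h7 : ζ⁻¹ ∈ h.Om := ⟨_, h5, h6⟩
  refine ⟨h7, ?_⟩
  rw [h.gt_eq h7, sec, ← h6, h.secS_phi h5, h.C_symm _ h2]

/-- the section near infinity -/
def g1 (h : Amb Z p Φ c₀) (ζ : ℂ) : M := if ζ = 0 then p else h.gt ζ⁻¹

theorem g1_zero (h : Amb Z p Φ c₀) : h.g1 0 = p := if_pos rfl

theorem g1_ne (h : Amb Z p Φ c₀) {ζ : ℂ} (hζ : ζ ≠ 0) : h.g1 ζ = h.gt ζ⁻¹ := if_neg hζ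

theorem g1_near (h : Amb Z p Φ c₀) : ∃ l : ℂ → ℂ, AnalyticAt ℂ l 0 ∧ l 0 = 0 ∧ deriv l 0 = 1 ∧
    ∀ᶠ ζ in 𝓝 (0 : ℂ), h.g1 ζ = dsc (h.K h.pt) (l ζ) := by
  obtain ⟨l, hl, hl0, hl1, hl2⟩ := h.pole_end
  refine ⟨l, hl, hl0, hl1, ?_⟩
  rw [eventually_nhdsWithin_iff] at hl2
  filter_upwards [hl2] with ζ hζ
  by_cases h0 : ζ = 0
  · rw [h0, h.g1_zero, hl0, (h.K_reg h.pt).dsc_zero]
    rfl
  · rw [h.g1_ne h0]
    exact (hζ h0).2

theorem g1_mem (h : Amb Z p Φ c₀) {ζ : ℂ} (hζ : ζ ≠ 0 → ζ⁻¹ ∈ h.W) :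
    h.g1 ζ ∈ closure (Cmp Z p) := by
  by_cases h0 : ζ = 0
  · rw [h0, h.g1_zero]
    exact subset_closure h.p_mem
  · rw [h.g1_ne h0]
    exact h.gt_mem (hζ h0)

theorem Phi_g1 (h : Amb Z p Φ c₀) {ζ : ℂ} (h0 : ζ ≠ 0) (hζ : ζ⁻¹ ∈ h.W) :
    Φ (h.g1 ζ) = ζ⁻¹ ∧ h.g1 ζ ≠ p := by
  rw [h.g1_ne h0]
  exact ⟨h.Phi_gt hζ, h.gt_ne hζ⟩

variable [IsManifold 𝓘(ℂ, Fin 2 → ℂ) 1 M]

theorem mdiff_g1 (h : Amb Z p Φ c₀) {ζ : ℂ} (hζ : ζ ≠ 0 → ζ⁻¹ ∈ h.W) :
    MDifferentiableAt 𝓘(ℂ, ℂ) 𝓘(ℂ, Fin 2 → ℂ) h.g1 ζ := by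
  by_cases h0 : ζ = 0
  · obtain ⟨l, hl, hl0, -, hl2⟩ := h.g1_near
    rw [h0]
    exact (mdiff_dsc_comp (h.K_reg h.pt) hl hl0).congr_of_eventuallyEq hl2
  · have h1 : MDifferentiableAt 𝓘(ℂ, ℂ) 𝓘(ℂ, ℂ) (fun ζ : ℂ => ζ⁻¹) ζ :=
      (differentiableAt_inv h0).mdifferentiableAt
    have h2 : MDifferentiableAt 𝓘(ℂ, ℂ) 𝓘(ℂ, Fin 2 → ℂ) (fun ζ : ℂ => h.gt ζ⁻¹) ζ :=
      MDifferentiableAt.comp (g := h.gt) ζ (h.mdiff_gt (hζ h0)) h1
    refine h2.congr_of_eventuallyEq ?_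
    filter_upwards [isOpen_ne.mem_nhds h0] with z hz
    exact h.g1_ne hz

end Amb

/-- an injective holomorphic sphere `g0 ∪ g1`, inverse to `Φ` -/
structure IsSphere (Z : Set M) (p : M) (Φ : M → ℂ) (g0 g1 : ℂ → M) : Prop where
  hol0 : MDifferentiable 𝓘(ℂ, ℂ) 𝓘(ℂ, Fin 2 → ℂ) g0
  hol1 : MDifferentiable 𝓘(ℂ, ℂ) 𝓘(ℂ, Fin 2 → ℂ) g1
  glue : ∀ z, z ≠ 0 → g0 z = g1 z⁻¹
  zero : g1 0 = p
  inv : ∀ z, Φ (g0 z) = z
  ne : ∀ z, g0 z ≠ p
  ran : closure (Cmp Z p) = insert p (range g0)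
  near : ∃ κ, RegChart Z p κ ∧ ∃ l : ℂ → ℂ, AnalyticAt ℂ l 0 ∧ l 0 = 0 ∧ deriv l 0 = 1 ∧
    ∀ᶠ ζ in 𝓝 (0 : ℂ), g1 ζ = dsc κ (l ζ)

/-- an injective proper holomorphic plane -/
structure IsPlane (Z : Set M) (p : M) (Φ : M → ℂ) (c₀ : ℂ) (G : ℂ → M) : Prop where
  hol : MDifferentiable 𝓘(ℂ, ℂ) 𝓘(ℂ, Fin 2 → ℂ) G
  zero : G 0 = p
  inv : ∀ z, z ≠ 0 → Φ (G z) = c₀ + z⁻¹
  ne : ∀ z, z ≠ 0 → G z ≠ p
  ran : closure (Cmp Z p) = range G
  lim : Tendsto G (cocompact ℂ) (cocompact M)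
  near : ∃ κ, RegChart Z p κ ∧ ∃ l : ℂ → ℂ, AnalyticAt ℂ l 0 ∧ l 0 = 0 ∧ deriv l 0 = 1 ∧
    ∀ᶠ ζ in 𝓝 (0 : ℂ), G ζ = dsc κ (l ζ)

variable {Z : Set M} {p : M} {Φ : M → ℂ} {c₀ : ℂ}

section props

theorem IsSphere.inj {g0 g1 : ℂ → M} (h : IsSphere Z p Φ g0 g1) : Function.Injective g0 := by
  intro a b hab
  rw [← h.inv a, hab, h.inv b]

theorem IsSphere.inj1 {g0 g1 : ℂ → M} (h : IsSphere Z p Φ g0 g1) : Function.Injective g1 := by
  have key : ∀ z, z ≠ 0 → g1 z = g0 z⁻¹ := by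
    intro z hz
    rw [h.glue _ (inv_ne_zero hz), inv_inv]
  intro a b hab
  by_cases ha : a = 0
  · by_cases hb : b = 0
    · rw [ha, hb]
    · rw [ha, h.zero, key b hb] at hab
      exact absurd hab.symm (h.ne _)
  · by_cases hb : b = 0
    · rw [hb, h.zero, key a ha] at hab
      exact absurd hab (h.ne _)
    · rw [key a ha, key b hb] at hab
      exact inv_injective (h.inj hab)

theorem IsPlane.inj {G : ℂ → M} (h : IsPlane Z p Φ c₀ G) : Function.Injective G := by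
  intro a b hab
  by_cases ha : a = 0
  · by_cases hb : b = 0
    · rw [ha, hb]
    · rw [ha, h.zero] at hab
      exact absurd hab.symm (h.ne b hb)
  · by_cases hb : b = 0
    · rw [hb, h.zero] at hab
      exact absurd hab (h.ne a ha)
    · have h1 := h.inv a ha
      rw [hab, h.inv b hb] at h1
      exact inv_injective (add_left_cancel h1).symm

end props

variable [T2Space M] [SecondCountableTopology M] [LocallyCompactSpace M]
  [IsManifold 𝓘(ℂ, Fin 2 → ℂ) 1 M]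

theorem sub_closure_of_compact {S : Set M} {T : Set M} (hT : IsClosed T) (hS : S ⊆ T) :
    closure S ⊆ T := closure_minimal hS hT

/-- **CHEAP-C2**: the closure of the component is a holomorphic sphere or a properly embedded plane -/
theorem Amb.sphere_or_plane (h : Amb Z p Φ c₀) :
    (∃ g0 g1 : ℂ → M, IsSphere Z p Φ g0 g1) ∨ (∃ G : ℂ → M, IsPlane Z p Φ c₀ G) := by
  rcases h.W_cases with hW | ⟨hW, hc₀, hesc⟩
  · left
    have hW' : ∀ w, w ∈ h.W := fun w => by rw [hW]; trivial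
    have hol0 : MDifferentiable 𝓘(ℂ, ℂ) 𝓘(ℂ, Fin 2 → ℂ) h.gt := fun z => h.mdiff_gt (hW' z)
    have hol1 : MDifferentiable 𝓘(ℂ, ℂ) 𝓘(ℂ, Fin 2 → ℂ) h.g1 := fun z => h.mdiff_g1 fun _ => hW' _
    refine ⟨h.gt, h.g1, hol0, hol1, ?_, h.g1_zero, fun z => h.Phi_gt (hW' z),
      fun z => h.gt_ne (hW' z), ?_, h.K h.pt, h.K_reg h.pt, h.g1_near⟩
    · intro z hz
      rw [h.g1_ne (inv_ne_zero hz), inv_inv]
    · apply Subset.antisymm
      · have hcl : IsClosed (insert p (range h.gt)) := by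
          have h1 : insert p (range h.gt) =
              h.gt '' closedBall 0 1 ∪ h.g1 '' closedBall 0 1 := by
            ext x
            constructor
            · rintro (rfl | ⟨z, rfl⟩)
              · exact Or.inr ⟨0, mem_closedBall_self zero_le_one, h.g1_zero⟩
              · by_cases hz : ‖z‖ ≤ 1
                · exact Or.inl ⟨z, by simpa using hz, rfl⟩
                · push Not at hz
                  have hz0 : z ≠ 0 := by
                    rintro rfl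
                    simp at hz
                    linarith
                  refine Or.inr ⟨z⁻¹, ?_, ?_⟩
                  · simp only [mem_closedBall, dist_zero_right, norm_inv]
                    exact inv_le_one_of_one_le₀ hz.le
                  · rw [h.g1_ne (inv_ne_zero hz0), inv_inv]
            · rintro (⟨z, -, rfl⟩ | ⟨z, -, rfl⟩)
              · exact Or.inr ⟨z, rfl⟩
              · by_cases hz : z = 0
                · exact Or.inl (by rw [hz, h.g1_zero])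
                · exact Or.inr ⟨z⁻¹, (h.g1_ne hz).symm⟩
          rw [h1]
          exact (((isCompact_closedBall _ _).image hol0.continuous).union
            ((isCompact_closedBall _ _).image hol1.continuous)).isClosed
        refine closure_minimal ?_ hcl
        intro x hx
        by_cases hxp : x = p
        · exact Or.inl hxp
        · refine Or.inr ⟨Φ x, ?_⟩
          rw [h.gt_eq (h.mem_Om hx hxp), h.sec_Phi hx hxp]
      · rintro x (rfl | ⟨z, rfl⟩)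
        · exact subset_closure h.p_mem
        · exact h.gt_mem (hW' z)
  · right
    have hW' : ∀ w, w ≠ c₀ → w ∈ h.W := fun w hw => h.mem_W hw
    set G : ℂ → M := fun ζ => if ζ = 0 then p else h.gt (c₀ + ζ⁻¹) with hG
    have hG0 : G 0 = p := if_pos rfl
    have hGne : ∀ ζ, ζ ≠ 0 → G ζ = h.gt (c₀ + ζ⁻¹) := fun ζ hζ => if_neg hζ
    have hne : ∀ ζ : ℂ, ζ ≠ 0 → c₀ + ζ⁻¹ ≠ c₀ := by
      intro ζ hζ hh
      exact inv_ne_zero hζ (by simpa using hh)
    have hnear : ∀ᶠ z in 𝓝 (0 : ℂ), G z = h.g1 (z / (1 + c₀ * z)) := by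
      have h2 : ∀ᶠ z in 𝓝 (0 : ℂ), 1 + c₀ * z ≠ 0 := by
        have h3 : ContinuousAt (fun z : ℂ => 1 + c₀ * z) 0 := by fun_prop
        exact h3.eventually_ne (by simp)
      filter_upwards [h2] with z hz
      by_cases hz0 : z = 0
      · rw [hz0, hG0, zero_div, h.g1_zero]
      · rw [hGne z hz0, h.g1_ne (div_ne_zero hz0 hz)]
        congr 1
        field_simp
        ring
    have hol : MDifferentiable 𝓘(ℂ, ℂ) 𝓘(ℂ, Fin 2 → ℂ) G := by
      intro ζ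
      by_cases h0 : ζ = 0
      · -- near zero `G ζ = g1 (ζ / (1 + c₀ ζ))`
        rw [h0]
        have h1 := hnear
        have h2 : MDifferentiableAt 𝓘(ℂ, ℂ) 𝓘(ℂ, ℂ) (fun z : ℂ => z / (1 + c₀ * z)) 0 := by
          refine DifferentiableAt.mdifferentiableAt ?_
          refine DifferentiableAt.div (by fun_prop) (by fun_prop) (by simp)
        have h3 : MDifferentiableAt 𝓘(ℂ, ℂ) 𝓘(ℂ, Fin 2 → ℂ) h.g1 ((0 : ℂ) / (1 + c₀ * 0)) := by
          rw [zero_div]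
          exact h.mdiff_g1 fun hh => absurd rfl hh
        exact (MDifferentiableAt.comp (g := h.g1) (0 : ℂ) h3 h2).congr_of_eventuallyEq h1
      · have h1 : MDifferentiableAt 𝓘(ℂ, ℂ) 𝓘(ℂ, ℂ) (fun ζ : ℂ => c₀ + ζ⁻¹) ζ :=
          ((differentiableAt_inv h0).const_add c₀).mdifferentiableAt
        have h2 : MDifferentiableAt 𝓘(ℂ, ℂ) 𝓘(ℂ, Fin 2 → ℂ) (fun ζ : ℂ => h.gt (c₀ + ζ⁻¹)) ζ :=
          MDifferentiableAt.comp (g := h.gt) ζ (h.mdiff_gt (hW' _ (hne ζ h0))) h1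
        refine h2.congr_of_eventuallyEq ?_
        filter_upwards [isOpen_ne.mem_nhds h0] with z hz
        exact hGne z hz
    have hlim : Tendsto G (cocompact ℂ) (cocompact M) := by
      intro T hT
      obtain ⟨L, hL, hLT⟩ := mem_cocompact.1 hT
      obtain ⟨L', hL', hLL'⟩ := exists_compact_superset hL
      have h1 : h.sec ⁻¹' L'ᶜ ∈ 𝓝[h.Om] c₀ := hesc hL'.compl_mem_cocompact
      obtain ⟨O, hO, hcO, hOs⟩ := mem_nhdsWithin.1 h1
      have h2 : ∀ w ∈ O, w ≠ c₀ → h.gt w ∈ T := by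
        intro w hwO hwc
        have hne' : (𝓝[h.Om] w).NeBot := mem_closure_iff_nhdsWithin_neBot.1 (h.Om_dense w)
        have h3 := h.tendsto_gt (hW' w hwc)
        have h4 : ∀ᶠ z in 𝓝[h.Om] w, h.sec z ∈ (interior L')ᶜ := by
          filter_upwards [self_mem_nhdsWithin, mem_nhdsWithin_of_mem_nhds (hO.mem_nhds hwO)]
            with z hz1 hz2
          exact fun hh => hOs ⟨hz2, hz1⟩ (interior_subset hh)
        have h5 : h.gt w ∈ (interior L')ᶜ :=
          isOpen_interior.isClosed_compl.mem_of_tendsto h3 h4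
        exact hLT fun hh => h5 (hLL' hh)
      have h3 : Tendsto (fun ζ : ℂ => c₀ + ζ⁻¹) (cocompact ℂ) (𝓝 c₀) := by
        have h4 : Tendsto (fun ζ : ℂ => ζ⁻¹) (cocompact ℂ) (𝓝 0) := by
          rw [← cobounded_eq_cocompact]
          exact tendsto_inv₀_cobounded
        simpa using h4.const_add c₀
      have h5 : ∀ᶠ ζ in cocompact ℂ, ζ ≠ (0 : ℂ) :=
        isCompact_singleton.compl_mem_cocompact
      rw [mem_map]
      filter_upwards [h3.eventually (hO.mem_nhds hcO), h5] with ζ hζ1 hζ2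
      rw [mem_preimage, hGne ζ hζ2]
      exact h2 _ hζ1 (hne ζ hζ2)
    refine ⟨G, hol, hG0, ?_, ?_, ?_, hlim, h.K h.pt, h.K_reg h.pt, ?_⟩
    · intro z hz
      rw [hGne z hz]
      exact h.Phi_gt (hW' _ (hne z hz))
    · intro z hz
      rw [hGne z hz]
      exact h.gt_ne (hW' _ (hne z hz))
    · apply Subset.antisymm
      · have hcl : IsClosed (range G) := by
          have hpr : IsProperMap G := isProperMap_iff_tendsto_cocompact.2 ⟨hol.continuous, hlim⟩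
          exact hpr.isClosedMap.isClosed_range
        refine closure_minimal ?_ hcl
        intro x hx
        by_cases hxp : x = p
        · exact ⟨0, by rw [hG0, hxp]⟩
        · have hO := h.mem_Om hx hxp
          have hxc : Φ x ≠ c₀ := fun hh => hc₀ (hh ▸ hO)
          refine ⟨(Φ x - c₀)⁻¹, ?_⟩
          rw [hGne _ (inv_ne_zero (sub_ne_zero.2 hxc)), inv_inv, add_sub_cancel,
            h.gt_eq hO, h.sec_Phi hx hxp]
      · rintro _ ⟨z, rfl⟩
        by_cases hz : z = 0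
        · rw [hz, hG0]
          exact subset_closure h.p_mem
        · rw [hGne z hz]
          exact h.gt_mem (hW' _ (hne z hz))

    · obtain ⟨l, hl, hl0, hl1, hl2⟩ := h.g1_near
      have hm : AnalyticAt ℂ (fun z : ℂ => z / (1 + c₀ * z)) 0 := by
        refine AnalyticAt.div (by fun_prop) (by fun_prop) (by simp)
      have hm0 : (fun z : ℂ => z / (1 + c₀ * z)) 0 = 0 := by simp
      have hm1 : HasDerivAt (fun z : ℂ => z / (1 + c₀ * z)) 1 0 := by
        have h1 : HasDerivAt (fun z : ℂ => 1 + c₀ * z) c₀ 0 := by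
          simpa using ((hasDerivAt_id (0 : ℂ)).const_mul c₀).const_add 1
        have h2 := (hasDerivAt_id (0 : ℂ)).div h1 (by simp)
        refine h2.congr_deriv ?_
        simp
      have hm0' : (0 : ℂ) / (1 + c₀ * 0) = 0 := by simp
      have hl' : AnalyticAt ℂ l ((0 : ℂ) / (1 + c₀ * 0)) := by rw [hm0']; exact hl
      refine ⟨fun z => l (z / (1 + c₀ * z)),
        AnalyticAt.fun_comp (g := l) (f := fun z : ℂ => z / (1 + c₀ * z)) hl' hm, ?_, ?_, ?_⟩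
      · simp only [zero_div, hl0]
      · have h1 : HasDerivAt l 1 ((0 : ℂ) / (1 + c₀ * 0)) := by
          rw [hm0']
          have h0 := hl.differentiableAt.hasDerivAt
          rwa [hl1] at h0
        have h2 : HasDerivAt (fun z : ℂ => l (z / (1 + c₀ * z))) (1 * 1) 0 :=
          HasDerivAt.comp (h₂ := l) (0 : ℂ) h1 hm1
        rw [h2.deriv, one_mul]
      · have h1 : Tendsto (fun z : ℂ => z / (1 + c₀ * z)) (𝓝 0) (𝓝 0) := by
          have := hm.continuousAt.tendsto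
          rwa [hm0'] at this
        filter_upwards [hnear, h1.eventually hl2] with z hz1 hz2
        rw [hz1, hz2]

end

end Vale.Agent.P267.H331
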