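import Mathlib
import Vale.Agent.P267.H439.DivLoc

/-!
# P267 / H331 (package G-P1, part (P3)): first cohomology of O(k), k at least -1, with bounds
-/

open Filter Topology MeasureTheory Set Metric
open scoped ContDiff Real

namespace Vale.Agent.P267.H331.P1

open Vale.Agent.P267.H439 (ker1 cau2 dbv locallyIntegrable_ker1 cau2_contDiff dbv_cau2)

noncomputable section

/-- the d-bar derivative in one variable -/
def db (f : ℂ → ℂ) (z : ℂ) : ℂ :=
  (1 / 2 : ℂ) * (fderiv ℝ f z 1 + Complex.I * fderiv ℝ f z Complex.I)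

/-- Cauchy transform -/
def cau (g : ℂ → ℂ) (z : ℂ) : ℂ := ∫ t : ℂ, ker1 t * g (z - t)

theorem cau_eq (g : ℂ → ℂ) (z : ℂ) : cau g z = cau2 (fun q : ℂ × ℂ => g q.2) (0, z) := by
  rw [cau, cau2, convolution_def]
  rfl

theorem cau_contDiff {g : ℂ → ℂ} (hg : ContDiff ℝ ∞ g) {K : Set ℂ} (hK : IsCompact K)
    (hgs : ∀ x, x ∉ K → g x = 0) : ContDiff ℝ ∞ (cau g) := by
  have h1 : ContDiff ℝ ∞ (cau2 (fun q : ℂ × ℂ => g q.2)) :=
    cau2_contDiff (hg.comp contDiff_snd) hK fun _ x hx => hgs x hx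
  have h2 : cau g = fun z => cau2 (fun q : ℂ × ℂ => g q.2) (0, z) := funext (cau_eq g)
  rw [h2]
  exact h1.comp (contDiff_const.prodMk contDiff_id)

theorem db_cau {g : ℂ → ℂ} (hg : ContDiff ℝ ∞ g) {K : Set ℂ} (hK : IsCompact K)
    (hgs : ∀ x, x ∉ K → g x = 0) (z : ℂ) : db (cau g) z = g z := by
  have h1 : ContDiff ℝ ∞ (cau2 (fun q : ℂ × ℂ => g q.2)) :=
    cau2_contDiff (hg.comp contDiff_snd) hK fun _ x hx => hgs x hx
  have h2 : cau g = fun z => cau2 (fun q : ℂ × ℂ => g q.2) (0, z) := funext (cau_eq g)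
  have h3 := dbv_cau2 (P := ℂ) (g := fun q : ℂ × ℂ => g q.2) (hg.comp contDiff_snd) hK
    (fun _ x hx => hgs x hx) (0, z)
  have h4 : HasFDerivAt (fun z : ℂ => ((0 : ℂ), z)) (ContinuousLinearMap.inr ℝ ℂ ℂ) z := by
    have := (hasFDerivAt_const (𝕜 := ℝ) (0 : ℂ) z).prodMk (hasFDerivAt_id (𝕜 := ℝ) z)
    exact this
  have h5 : HasFDerivAt (cau g) ((fderiv ℝ (cau2 (fun q : ℂ × ℂ => g q.2)) (0, z)).comp
      (ContinuousLinearMap.inr ℝ ℂ ℂ)) z := by
    rw [h2]
    exact ((h1.differentiable (by simp)) (0, z)).hasFDerivAt.comp z h4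
  rw [db, h5.fderiv]
  rw [dbv] at h3
  simpa using h3

/-- a holomorphic function from `db f = 0` -/
theorem differentiableAt_of_db {f : ℂ → ℂ} {z : ℂ} (hf : DifferentiableAt ℝ f z)
    (h : db f z = 0) : DifferentiableAt ℂ f z := by
  rw [differentiableAt_complex_iff_differentiableAt_real]
  refine ⟨hf, ?_⟩
  rw [db] at h
  have h1 : fderiv ℝ f z 1 + Complex.I * fderiv ℝ f z Complex.I = 0 := by
    simpa using h
  have h2 : fderiv ℝ f z 1 = - (Complex.I * fderiv ℝ f z Complex.I) := eq_neg_of_add_eq_zero_left h1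
  rw [h2, smul_eq_mul, mul_neg, ← mul_assoc, Complex.I_mul_I]
  ring

theorem db_of_differentiableAt {f : ℂ → ℂ} {z : ℂ} (hf : DifferentiableAt ℂ f z) :
    db f z = 0 := by
  obtain ⟨-, h2⟩ := differentiableAt_complex_iff_differentiableAt_real.1 hf
  rw [db, h2, smul_eq_mul, ← mul_assoc, Complex.I_mul_I]
  ring

theorem db_congr {f g : ℂ → ℂ} {z : ℂ} (h : f =ᶠ[𝓝 z] g) : db f z = db g z := by
  rw [db, db, h.fderiv_eq]

theorem db_add {f g : ℂ → ℂ} {z : ℂ} (hf : DifferentiableAt ℝ f z) (hg : DifferentiableAt ℝ g z) :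
    db (fun w => f w + g w) z = db f z + db g z := by
  have : fderiv ℝ (fun w => f w + g w) z = fderiv ℝ f z + fderiv ℝ g z :=
    (hf.hasFDerivAt.add hg.hasFDerivAt).fderiv
  rw [db, db, db, this]
  simp only [add_apply]
  ring

theorem db_mul {f g : ℂ → ℂ} {z : ℂ} (hf : DifferentiableAt ℝ f z) (hg : DifferentiableAt ℝ g z) :
    db (fun w => f w * g w) z = f z * db g z + db f z * g z := by
  have : fderiv ℝ (fun w => f w * g w) z = f z • fderiv ℝ g z + g z • fderiv ℝ f z :=
    (hf.hasFDerivAt.mul hg.hasFDerivAt).fderiv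
  rw [db, db, db, this]
  simp only [add_apply, smul_apply, smul_eq_mul]
  ring

theorem db_inv {f : ℂ → ℂ} {z : ℂ} (hz : z ≠ 0) (hf : DifferentiableAt ℝ f z⁻¹) :
    db (fun w => f w⁻¹) z = (starRingEnd ℂ) (-(z ^ 2)⁻¹) * db f z⁻¹ := by
  have h1 : HasFDerivAt (fun w : ℂ => w⁻¹)
      ((ContinuousLinearMap.toSpanSingleton ℂ (-(z ^ 2)⁻¹)).restrictScalars ℝ) z :=
    (hasDerivAt_inv hz).hasFDerivAt.restrictScalars ℝ
  have h2 : fderiv ℝ (fun w => f w⁻¹) z = (fderiv ℝ f z⁻¹).comp
      ((ContinuousLinearMap.toSpanSingleton ℂ (-(z ^ 2)⁻¹)).restrictScalars ℝ) :=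
    (hf.hasFDerivAt.comp z h1).fderiv
  rw [db, db, h2]
  simp only [ContinuousLinearMap.comp_apply, ContinuousLinearMap.coe_restrictScalars',
    ContinuousLinearMap.toSpanSingleton_apply, smul_eq_mul, one_mul]
  set c : ℂ := -(z ^ 2)⁻¹ with hc
  set L := fderiv ℝ f z⁻¹
  have hL : ∀ w : ℂ, L w = w.re * L 1 + w.im * L Complex.I := by
    intro w
    have e : w = w.re • (1 : ℂ) + w.im • Complex.I := by
      apply Complex.ext <;> simp
    conv_lhs => rw [e]
    rw [map_add, map_smul, map_smul]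
    simp [Complex.real_smul]
  rw [hL c, hL (Complex.I * c)]
  have e1 : (Complex.I * c).re = - c.im := by simp
  have e2 : (Complex.I * c).im = c.re := by simp
  have e3 : (starRingEnd ℂ) c = c.re - c.im * Complex.I := by
    apply Complex.ext <;> simp
  rw [e1, e2, e3]
  push_cast
  have hI : Complex.I ^ 2 = -1 := Complex.I_sq
  linear_combination ((1 / 2 : ℂ) * c.im * L Complex.I) * hI

/-! ## Bounds -/

/-- the constant -/
def cst (R : ℝ) : ℝ := (∫ t in closedBall (0 : ℂ) 1, ‖ker1 t‖) +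
  π⁻¹ * volume.real (closedBall (0 : ℂ) R)

theorem cst_nonneg (R : ℝ) : 0 ≤ cst R := by
  refine add_nonneg (integral_nonneg fun _ => norm_nonneg _)
    (mul_nonneg (inv_nonneg.2 Real.pi_pos.le) measureReal_nonneg)

theorem norm_cau_le {g : ℂ → ℂ} {R A : ℝ} (hA : 0 ≤ A)
    (hgs : ∀ x, x ∉ closedBall (0 : ℂ) R → g x = 0) (hgA : ∀ x, ‖g x‖ ≤ A) (z : ℂ) :
    ‖cau g z‖ ≤ A * cst R := by
  set B : ℂ → ℝ := fun t => A * ((closedBall (0 : ℂ) 1).indicator (fun t => ‖ker1 t‖) t +
    (closedBall z R).indicator (fun _ => π⁻¹) t) with hB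
  have hi1 : IntegrableOn (fun t => ‖ker1 t‖) (closedBall (0 : ℂ) 1) :=
    (locallyIntegrable_ker1.integrableOn_isCompact (isCompact_closedBall 0 1)).norm
  have hi1' : Integrable ((closedBall (0 : ℂ) 1).indicator fun t => ‖ker1 t‖) :=
    hi1.integrable_indicator measurableSet_closedBall
  have hi2 : IntegrableOn (fun _ : ℂ => π⁻¹) (closedBall z R) :=
    (continuousOn_const).integrableOn_compact (isCompact_closedBall z R)
  have hi2' : Integrable ((closedBall z R).indicator fun _ : ℂ => π⁻¹) :=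
    hi2.integrable_indicator measurableSet_closedBall
  have hBi : Integrable B := (hi1'.add hi2').const_mul A
  have hle : ∀ t, ‖ker1 t * g (z - t)‖ ≤ B t := by
    intro t
    rw [norm_mul]
    have n1 : 0 ≤ (closedBall (0 : ℂ) 1).indicator (fun t => ‖ker1 t‖) t :=
      indicator_nonneg (fun _ _ => norm_nonneg _) _
    have n2 : 0 ≤ (closedBall z R).indicator (fun _ => π⁻¹) t :=
      indicator_nonneg (fun _ _ => inv_nonneg.2 Real.pi_pos.le) _
    by_cases h1 : t ∈ closedBall z R
    · rw [hB]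
      simp only
      rw [mul_comm A]
      refine mul_le_mul ?_ (hgA _) (norm_nonneg _) (add_nonneg n1 n2)
      by_cases h2 : t ∈ closedBall (0 : ℂ) 1
      · rw [indicator_of_mem h2]
        linarith
      · rw [indicator_of_mem h1]
        have h3 : ‖ker1 t‖ ≤ π⁻¹ := by
          rw [mem_closedBall_zero_iff, not_le] at h2
          rw [ker1, norm_inv, norm_mul, Complex.norm_real, Real.norm_eq_abs,
            abs_of_pos Real.pi_pos]
          refine inv_anti₀ Real.pi_pos ?_
          nlinarith [Real.pi_pos]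
        linarith
    · have h3 : g (z - t) = 0 := by
        refine hgs _ ?_
        intro h4
        apply h1
        rw [mem_closedBall_zero_iff] at h4
        rw [mem_closedBall, dist_comm, dist_eq_norm]
        exact h4
      rw [h3, norm_zero, mul_zero]
      exact mul_nonneg hA (add_nonneg n1 n2)
  have h5 : ‖cau g z‖ ≤ ∫ t, B t := norm_integral_le_of_norm_le hBi (Eventually.of_forall hle)
  refine h5.trans (le_of_eq ?_)
  rw [hB, integral_const_mul, integral_add hi1' hi2', integral_indicator measurableSet_closedBall,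
    integral_indicator measurableSet_closedBall, setIntegral_const, cst]
  have h6 : volume.real (closedBall z R) = volume.real (closedBall (0 : ℂ) R) := by
    rw [measureReal_def, measureReal_def, Measure.addHaar_closedBall_center]
  rw [h6, smul_eq_mul, mul_comm π⁻¹]

theorem norm_mul_cau_le {g : ℂ → ℂ} (hg : Continuous g) {R A : ℝ} (hR : 0 ≤ R) (hA : 0 ≤ A)
    (hgs : ∀ x, x ∉ closedBall (0 : ℂ) R → g x = 0) (hgA : ∀ x, ‖g x‖ ≤ A) (z : ℂ) :
    ‖z * cau g z‖ ≤ A * ((1 + R) * cst R) := by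
  have hcs : ∀ h : ℂ → ℂ, Continuous h → (∀ x, x ∉ closedBall (0 : ℂ) R → h x = 0) →
      Integrable fun t => ker1 t * h (z - t) := by
    intro h hh hs
    have h1 : HasCompactSupport fun t => h (z - t) := by
      refine HasCompactSupport.intro (K := (fun x => z - x) '' closedBall (0 : ℂ) R)
        ((isCompact_closedBall 0 R).image (by fun_prop)) fun x hx => ?_
      refine hs _ ?_
      intro h
      exact hx ⟨z - x, h, by simp⟩
    have := locallyIntegrable_ker1.integrable_smul_left_of_hasCompactSupport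
      (hh.comp (by fun_prop : Continuous fun t => z - t)) h1
    refine this.congr (Eventually.of_forall fun w => ?_)
    simp [mul_comm]
  have e1 : z * cau g z = cau (fun x => x * g x) z + ∫ t, (t * ker1 t) * g (z - t) := by
    rw [cau, cau, ← integral_const_mul]
    have i1 := hcs (fun x => x * g x) (continuous_id.mul hg) (fun x hx => by simp [hgs x hx])
    have i2 := (hcs g hg hgs).const_mul z
    have i3 : Integrable fun t => (t * ker1 t) * g (z - t) := by
      have := i2.sub i1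
      refine this.congr (Eventually.of_forall fun w => ?_)
      simp only [Pi.sub_apply]
      ring
    rw [← integral_add i1 i3]
    refine integral_congr_ae (Eventually.of_forall fun t => ?_)
    simp only
    ring
  have b1 : ‖cau (fun x => x * g x) z‖ ≤ (R * A) * cst R := by
    refine norm_cau_le (mul_nonneg hR hA) (fun x hx => by simp [hgs x hx]) (fun x => ?_) z
    by_cases hx : x ∈ closedBall (0 : ℂ) R
    · rw [norm_mul]
      exact mul_le_mul (by simpa using hx) (hgA x) (norm_nonneg _) hR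
    · simp only [hgs x hx, mul_zero, norm_zero]
      exact mul_nonneg hR hA
  have b2 : ‖∫ t, (t * ker1 t) * g (z - t)‖ ≤ A * cst R := by
    have hi2 : IntegrableOn (fun _ : ℂ => π⁻¹ * A) (closedBall z R) :=
      (continuousOn_const).integrableOn_compact (isCompact_closedBall z R)
    have hi2' : Integrable ((closedBall z R).indicator fun _ : ℂ => π⁻¹ * A) :=
      hi2.integrable_indicator measurableSet_closedBall
    have h5 : ‖∫ t, (t * ker1 t) * g (z - t)‖ ≤
        ∫ t, (closedBall z R).indicator (fun _ : ℂ => π⁻¹ * A) t := by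
      refine norm_integral_le_of_norm_le hi2' (Eventually.of_forall fun t => ?_)
      by_cases h1 : t ∈ closedBall z R
      · rw [indicator_of_mem h1, norm_mul]
        refine mul_le_mul ?_ (hgA _) (norm_nonneg _) (inv_nonneg.2 Real.pi_pos.le)
        by_cases ht : t = 0
        · subst ht
          simp [Real.pi_pos.le]
        · have : t * ker1 t = (π : ℂ)⁻¹ := by
            rw [ker1]
            have hpi : (π : ℂ) ≠ 0 := by exact_mod_cast Real.pi_ne_zero
            field_simp
          rw [this, norm_inv, Complex.norm_real, Real.norm_eq_abs, abs_of_pos Real.pi_pos]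
      · have h3 : g (z - t) = 0 := by
          refine hgs _ ?_
          intro h4
          apply h1
          rw [mem_closedBall_zero_iff] at h4
          rw [mem_closedBall, dist_comm, dist_eq_norm]
          exact h4
        rw [h3, indicator_of_notMem h1, mul_zero, norm_zero]
    refine h5.trans ?_
    rw [integral_indicator measurableSet_closedBall, setIntegral_const, cst, smul_eq_mul]
    have h6 : volume.real (closedBall z R) = volume.real (closedBall (0 : ℂ) R) := by
      rw [measureReal_def, measureReal_def, Measure.addHaar_closedBall_center]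
    rw [h6]
    have h7 : 0 ≤ ∫ t in closedBall (0 : ℂ) 1, ‖ker1 t‖ := integral_nonneg fun _ => norm_nonneg _
    nlinarith [mul_nonneg hA h7]
  rw [e1]
  refine (norm_add_le _ _).trans ?_
  nlinarith

/-! ## The tail at infinity -/

/-- the Cauchy transform of a function of compact support near infinity: `u z⁻¹ = z * h z` -/
theorem exists_tail {g : ℂ → ℂ} (hg : ContDiff ℝ ∞ g) {R A : ℝ} (hR : 0 ≤ R) (hA : 0 ≤ A)
    (hgs : ∀ x, x ∉ closedBall (0 : ℂ) R → g x = 0) (hgA : ∀ x, ‖g x‖ ≤ A) :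
    ∃ h : ℂ → ℂ, ContDiff ℝ ∞ h ∧ (∀ z, z ≠ 0 → cau g z⁻¹ = z * h z) ∧
      (∀ z, ‖h z‖ ≤ A * ((1 + R) * cst R)) ∧
      ∀ z, db h z = if z = 0 then 0 else z⁻¹ * ((starRingEnd ℂ) (-(z ^ 2)⁻¹) * g z⁻¹) := by
  have hu := cau_contDiff hg (isCompact_closedBall (0 : ℂ) R) hgs
  have hdu := db_cau hg (isCompact_closedBall (0 : ℂ) R) hgs
  set u := cau g with hudef
  set φ : ℂ → ℂ := fun z => if z = 0 then 0 else u z⁻¹ with hφ
  have hφ1 : ∀ z, z ≠ 0 → φ =ᶠ[𝓝 z] fun w => u w⁻¹ := by
    intro z hz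
    filter_upwards [isOpen_ne.mem_nhds hz] with w hw
    simp only [hφ]
    rw [if_neg hw]
  have hφ2 : ∀ z, z ≠ 0 → ContDiffAt ℝ ∞ φ z := by
    intro z hz
    refine ContDiffAt.congr_of_eventuallyEq ?_ (hφ1 z hz)
    exact (hu.contDiffAt).comp z (contDiffAt_inv ℝ hz)
  have hφ3 : ∀ z, z ≠ 0 → db φ z = (starRingEnd ℂ) (-(z ^ 2)⁻¹) * g z⁻¹ := by
    intro z hz
    rw [db_congr (hφ1 z hz), db_inv hz (hu.differentiable (by simp) _), hdu]
  have hφb : ∀ z, ‖φ z‖ ≤ (A * ((1 + R) * cst R)) * ‖z‖ := by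
    intro z
    by_cases hz : z = 0
    · simp [hφ, hz]
    · have := norm_mul_cau_le hg.continuous hR hA hgs hgA z⁻¹
      rw [norm_mul, norm_inv] at this
      simp only [hφ]
      rw [if_neg hz]
      have hz' : 0 < ‖z‖ := norm_pos_iff.2 hz
      rw [inv_mul_le_iff₀ hz'] at this
      linarith
  have hφc : ContinuousAt φ 0 := by
    have h0 : φ 0 = 0 := by simp [hφ]
    rw [ContinuousAt, h0]
    refine squeeze_zero_norm hφb ?_
    have : Continuous fun z : ℂ => (A * ((1 + R) * cst R)) * ‖z‖ := by fun_prop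
    have := this.tendsto 0
    simpa using this
  have hnear : ∀ᶠ z : ℂ in 𝓝 0, z ≠ 0 → z⁻¹ ∉ closedBall (0 : ℂ) R := by
    have : ball (0 : ℂ) (R + 1)⁻¹ ∈ 𝓝 (0 : ℂ) := ball_mem_nhds _ (by positivity)
    filter_upwards [this] with z hz hz0
    rw [mem_ball_zero_iff] at hz
    rw [mem_closedBall_zero_iff, norm_inv, not_le]
    have h1 : 0 < ‖z‖ := norm_pos_iff.2 hz0
    have h2 : (R + 1) < ‖z‖⁻¹ := by
      rwa [lt_inv_comm₀ (by positivity) h1]
    linarith
  have hφan : AnalyticAt ℂ φ 0 := by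
    refine Complex.analyticAt_of_differentiable_on_punctured_nhds_of_continuousAt ?_ hφc
    have := hnear.filter_mono (nhdsWithin_le_nhds (s := {0}ᶜ))
    filter_upwards [this, self_mem_nhdsWithin] with z h1 h2
    refine differentiableAt_of_db ((hφ2 z h2).differentiableAt (by simp)) ?_
    rw [hφ3 z h2, hgs _ (h1 h2), mul_zero]
  have hφ0 : φ 0 = 0 := by simp [hφ]
  have hne : ∀ z, z ≠ 0 → dslope φ 0 z = z⁻¹ * φ z := by
    intro z hz
    rw [dslope_of_ne _ hz, slope_def_field, hφ0]
    field_simp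
    ring
  have hne' : ∀ z, z ≠ 0 → dslope φ 0 =ᶠ[𝓝 z] fun w => w⁻¹ * φ w := by
    intro z hz
    filter_upwards [isOpen_ne.mem_nhds hz] with w hw
    exact hne w hw
  have hinv : ∀ z : ℂ, z ≠ 0 → ContDiffAt ℝ ∞ (fun w : ℂ => w⁻¹) z := fun z hz =>
    contDiffAt_inv ℝ hz
  have hhan : AnalyticAt ℂ (dslope φ 0) 0 := by
    obtain ⟨p, hp⟩ := hφan
    exact ⟨_, hp.has_fpower_series_dslope_fslope⟩
  refine ⟨dslope φ 0, ?_, ?_, ?_, ?_⟩
  · rw [contDiff_iff_contDiffAt]
    intro z
    by_cases hz : z = 0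
    · subst hz
      have : ContDiffAt ℂ ∞ (dslope φ 0) 0 := hhan.contDiffAt
      exact this.restrict_scalars ℝ
    · exact ((hinv z hz).mul (hφ2 z hz)).congr_of_eventuallyEq (hne' z hz)
  · intro z hz
    rw [hne z hz]
    simp only [hφ]
    rw [if_neg hz]
    field_simp
  · have hb : ∀ z, z ≠ 0 → ‖dslope φ 0 z‖ ≤ A * ((1 + R) * cst R) := by
      intro z hz
      rw [hne z hz, norm_mul, norm_inv]
      have hz' : 0 < ‖z‖ := norm_pos_iff.2 hz
      rw [inv_mul_le_iff₀ hz', mul_comm]
      exact hφb z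
    intro z
    by_cases hz : z = 0
    · subst hz
      have t1 : Tendsto (fun w => ‖dslope φ 0 w‖) (𝓝[≠] (0 : ℂ)) (𝓝 ‖dslope φ 0 0‖) :=
        (hhan.continuousAt.norm).mono_left nhdsWithin_le_nhds
      refine le_of_tendsto t1 ?_
      filter_upwards [self_mem_nhdsWithin] with w hw
      exact hb w hw
    · exact hb z hz
  · intro z
    by_cases hz : z = 0
    · subst hz
      rw [if_pos rfl]
      exact db_of_differentiableAt hhan.differentiableAt
    · rw [if_neg hz, db_congr (hne' z hz)]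
      have h1 : DifferentiableAt ℝ (fun w : ℂ => w⁻¹) z :=
        (hinv z hz).differentiableAt (by simp)
      rw [db_mul h1 ((hφ2 z hz).differentiableAt (by simp)), hφ3 z hz,
        db_of_differentiableAt (differentiableAt_inv hz), zero_mul, add_zero]

end

end Vale.Agent.P267.H331.P1
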