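import Mathlib
import Vale.Agent.P267.H439.DivLoc

/-!
# P267 / H331 (package G-P1, part (P3)): sections and first cohomology of O(k) on the line

Everything is in two charts: a section of `O(k)` is a pair `f0 f1 : ℂ → ℂ` with
`f0 z = z ^ k * f1 z⁻¹` for `z ≠ 0`; a `(0,1)`-form with values in `O(k)` is a pair `b0 b1` with
`b0 z = z ^ k * conj (-z⁻²) * b1 z⁻¹`.
-/

open Filter Topology MeasureTheory Set Metric Polynomial
open scoped ContDiff Real

namespace Vale.Agent.P267.H331.P1

noncomputable section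

/-! ## Holomorphic sections -/

theorem sec_zero {f0 f1 : ℂ → ℂ} (h0 : Differentiable ℂ f0) (h1 : Differentiable ℂ f1)
    (h : ∀ z, z ≠ 0 → f0 z = f1 z⁻¹) : ∃ c, (∀ z, f0 z = c) ∧ ∀ z, f1 z = c := by
  obtain ⟨C0, hC0⟩ := (isCompact_closedBall (0 : ℂ) 1).exists_bound_of_continuousOn
    h0.continuous.continuousOn
  obtain ⟨C1, hC1⟩ := (isCompact_closedBall (0 : ℂ) 1).exists_bound_of_continuousOn
    h1.continuous.continuousOn
  have hb : Bornology.IsBounded (range f0) := by
    rw [isBounded_iff_forall_norm_le]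
    refine ⟨max C0 C1, ?_⟩
    rintro _ ⟨z, rfl⟩
    rcases le_or_gt ‖z‖ 1 with hz | hz
    · exact (hC0 z (by simpa using hz)).trans (le_max_left _ _)
    · have hz0 : z ≠ 0 := by
        rintro rfl
        simp at hz
        linarith
      rw [h z hz0]
      refine (hC1 z⁻¹ ?_).trans (le_max_right _ _)
      rw [mem_closedBall_zero_iff, norm_inv]
      exact inv_le_one_of_one_le₀ hz.le
  obtain ⟨c, hc⟩ := h0.exists_const_forall_eq_of_bounded hb
  refine ⟨c, hc, ?_⟩
  have h2 : ∀ z, z ≠ 0 → f1 z = c := by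
    intro z hz
    have := h z⁻¹ (inv_ne_zero hz)
    rw [inv_inv] at this
    rw [← this, hc]
  intro z
  by_cases hz : z = 0
  · subst hz
    have t1 : Tendsto f1 (𝓝[≠] (0 : ℂ)) (𝓝 (f1 0)) :=
      (h1.continuous.tendsto 0).mono_left nhdsWithin_le_nhds
    have t2 : Tendsto f1 (𝓝[≠] (0 : ℂ)) (𝓝 c) := by
      refine tendsto_const_nhds.congr' ?_
      filter_upwards [self_mem_nhdsWithin] with w hw
      exact (h2 w hw).symm
    exact tendsto_nhds_unique t1 t2
  · exact h2 z hz

theorem sec_neg {f0 f1 : ℂ → ℂ} (h0 : Differentiable ℂ f0) (h1 : Differentiable ℂ f1) {k : ℤ}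
    (hk : k < 0) (h : ∀ z, z ≠ 0 → f0 z = z ^ k * f1 z⁻¹) : (∀ z, f0 z = 0) ∧ ∀ z, f1 z = 0 := by
  obtain ⟨m, hm⟩ : ∃ m : ℕ, k = -(m + 1 : ℕ) := ⟨(-k - 1).toNat, by omega⟩
  have h2 : Differentiable ℂ fun w => w ^ (m + 1) * f1 w := (differentiable_id.pow _).mul h1
  obtain ⟨c, hc, hc'⟩ := sec_zero h0 h2 (by
    intro z hz
    rw [h z hz, hm, zpow_neg, zpow_natCast, inv_pow])
  have hc0 : c = 0 := by
    have := hc' 0
    simpa using this.symm
  subst hc0
  refine ⟨hc, ?_⟩
  have h3 : ∀ z, z ≠ 0 → f1 z = 0 := by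
    intro z hz
    have := hc' z
    exact (mul_eq_zero.1 this).resolve_left (pow_ne_zero _ hz)
  intro z
  by_cases hz : z = 0
  · subst hz
    have t1 : Tendsto f1 (𝓝[≠] (0 : ℂ)) (𝓝 (f1 0)) :=
      (h1.continuous.tendsto 0).mono_left nhdsWithin_le_nhds
    have t2 : Tendsto f1 (𝓝[≠] (0 : ℂ)) (𝓝 0) := by
      refine tendsto_const_nhds.congr' ?_
      filter_upwards [self_mem_nhdsWithin] with w hw
      exact (h3 w hw).symm
    exact tendsto_nhds_unique t1 t2
  · exact h3 z hz

/-- sections of `O(n)` are polynomials of degree at most `n` -/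
theorem sec_pos (n : ℕ) : ∀ {f0 f1 : ℂ → ℂ}, Differentiable ℂ f0 → Differentiable ℂ f1 →
    (∀ z, z ≠ 0 → f0 z = z ^ n * f1 z⁻¹) →
    ∃ P : ℂ[X], P.natDegree ≤ n ∧ (∀ z, f0 z = P.eval z) ∧ ∀ z, f1 z = (P.reflect n).eval z := by
  induction n with
  | zero =>
    intro f0 f1 h0 h1 h
    obtain ⟨c, hc, hc'⟩ := sec_zero h0 h1 (by simpa using h)
    refine ⟨C c, by simp, by simpa using hc, ?_⟩
    intro z
    rw [hc' z]
    simp [reflect_C]
  | succ n ih =>
    intro f0 f1 h0 h1 h
    have hg0 : Differentiable ℂ (dslope f0 0) := by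
      rw [← differentiableOn_univ]
      exact (Complex.differentiableOn_dslope univ_mem).2 h0.differentiableOn
    have hg1 : Differentiable ℂ fun w => f1 w - f0 0 * w ^ (n + 1) :=
      h1.sub ((differentiable_id.pow _).const_mul _)
    obtain ⟨Q, hQ, hQ0, hQ1⟩ := ih hg0 hg1 (by
      intro z hz
      rw [dslope_of_ne _ hz, slope_def_field, h z hz]
      simp only [sub_zero, inv_pow]
      field_simp
      ring)
    refine ⟨C (f0 0) + X * Q, ?_, ?_, ?_⟩
    · refine (natDegree_add_le _ _).trans (max_le (by simp) ?_)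
      refine natDegree_mul_le.trans ?_
      rw [natDegree_X]
      omega
    · intro z
      rw [eval_add, eval_C, eval_mul, eval_X, ← hQ0]
      have := sub_smul_dslope f0 0 z
      rw [sub_zero, smul_eq_mul] at this
      rw [this]
      ring
    · intro z
      have e1 : reflect (n + 1) (X * Q) = reflect n Q := by
        rw [add_comm n 1, reflect_mul X Q (by simp) hQ]
        have : reflect 1 (X : ℂ[X]) = 1 := by
          have := reflect_monomial (R := ℂ) 1 1
          simp at this ⊢
        rw [this, one_mul]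
      rw [reflect_add, e1, eval_add, ← hQ1, reflect_C, eval_mul, eval_C, eval_pow, eval_X]
      ring

/-- number of zeros on the line, with multiplicity -/
theorem zeros_card {P : ℂ[X]} (hP : P ≠ 0) {n : ℕ} (hn : P.natDegree ≤ n) :
    P.roots.card + (P.reflect n).rootMultiplicity 0 = n := by
  have h1 : P.roots.card = P.natDegree := by
    rw [← splits_iff_card_roots]
    exact IsAlgClosed.splits P
  have h2 : P.reflect n = X ^ (n - P.natDegree) * P.reverse := by
    have := reflect_mul (1 : ℂ[X]) P (F := n - P.natDegree) (G := P.natDegree) (by simp) le_rfl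
    rw [Nat.sub_add_cancel hn, one_mul] at this
    rw [this, reverse]
    congr 1
    have := reflect_C (1 : ℂ) (n - P.natDegree)
    simpa using this
  have h3 : P.reverse ≠ 0 := by
    rwa [Ne, reverse_eq_zero]
  have h4 : (P.reverse).rootMultiplicity 0 = 0 := by
    rw [rootMultiplicity_eq_zero_iff]
    intro h
    exfalso
    have : P.reverse.eval 0 = P.leadingCoeff := by
      rw [← coeff_zero_eq_eval_zero, coeff_zero_reverse]
    rw [IsRoot, this] at h
    exact hP (leadingCoeff_eq_zero.1 h)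
  rw [h1, h2, rootMultiplicity_mul (mul_ne_zero (pow_ne_zero _ X_ne_zero) h3), h4]
  have h5 : rootMultiplicity 0 ((X : ℂ[X]) ^ (n - P.natDegree)) = n - P.natDegree := by
    have := rootMultiplicity_X_sub_C_pow (0 : ℂ) (n - P.natDegree)
    simpa using this
  rw [h5]
  omega

theorem analyticOrderAt_eval {P : ℂ[X]} (hP : P ≠ 0) (z : ℂ) :
    analyticOrderAt (fun w => P.eval w) z = P.rootMultiplicity z := by
  have ha : AnalyticAt ℂ (fun w => P.eval w) z := by
    have : Differentiable ℂ fun w => P.eval w := P.differentiable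
    exact this.analyticAt z
  rw [ha.analyticOrderAt_eq_natCast]
  obtain ⟨Q, hQ, hQ'⟩ := exists_eq_pow_rootMultiplicity_mul_and_not_dvd P hP z
  refine ⟨fun w => Q.eval w, (Q.differentiable.analyticAt z), ?_, ?_⟩
  · intro h
    exact hQ' (dvd_iff_isRoot.2 h)
  · refine Eventually.of_forall fun w => ?_
    conv_lhs => rw [hQ]
    simp

/-- a section of `O(1)` which is not zero has exactly one zero, and it is simple -/
theorem sec_one {f0 f1 : ℂ → ℂ} (h0 : Differentiable ℂ f0) (h1 : Differentiable ℂ f1)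
    (h : ∀ z, z ≠ 0 → f0 z = z * f1 z⁻¹) : ∃ a b : ℂ, (∀ z, f0 z = a + b * z) ∧
      ∀ z, f1 z = a * z + b := by
  obtain ⟨P, hP, h2, h3⟩ := sec_pos 1 h0 h1 (by simpa using h)
  have e1 : P = C (P.coeff 1) * X + C (P.coeff 0) :=
    eq_X_add_C_of_natDegree_le_one hP
  refine ⟨P.coeff 0, P.coeff 1, ?_, ?_⟩
  · intro z
    rw [h2 z]
    conv_lhs => rw [e1]
    simp
    ring
  · intro z
    rw [h3 z]
    conv_lhs => rw [e1]
    rw [reflect_add, reflect_C, reflect_C_mul]
    have : reflect 1 (X : ℂ[X]) = 1 := by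
      have := reflect_monomial (R := ℂ) 1 1
      simpa using this
    rw [this]
    simp
    ring

end

end Vale.Agent.P267.H331.P1
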