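import Mathlib
import Vale.Agent.P267.H331.P1Sec
import Vale.Agent.P267.H331.P1Dbar

/-!
# P267 / H331 (package G-P1, parts (P3b), (P6))

`h1_zero`: every `(0,1)`-form on the line with values in `O(k)`, `k` at least `-1`, is the d-bar
of a section, with a bound. `osc`: the oscillation of a holomorphic section of a degree zero
bundle given in a frame with d-bar equal to a small form.
-/

open Filter Topology MeasureTheory Set Metric
open scoped ContDiff Real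

namespace Vale.Agent.P267.H331.P1

noncomputable section

theorem exists_cutoff : ∃ χ : ℂ → ℝ, ContDiff ℝ ∞ χ ∧ (∀ z, 0 ≤ χ z) ∧ (∀ z, χ z ≤ 1) ∧
    (∀ z, ‖z‖ ≤ 1 → χ z = 1) ∧ ∀ z, 2 ≤ ‖z‖ → χ z = 0 := by
  let B : ContDiffBump (0 : ℂ) := ⟨1, 2, one_pos, one_lt_two⟩
  refine ⟨fun z => B z, B.contDiff, fun z => B.nonneg, fun z => B.le_one, fun z hz =>
    B.one_of_mem_closedBall (by simpa using hz), fun z hz => B.zero_of_le_dist (by simpa using hz)⟩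

/-- the absolute constant of the theorem below -/
def bigC : ℝ := 4 * cst 2

theorem bigC_nonneg : 0 ≤ bigC := mul_nonneg (by norm_num) (cst_nonneg 2)

/-- **first cohomology of `O(k)`, `k` at least `-1`** -/
theorem h1_zero {k : ℤ} (hk : -1 ≤ k) {b0 b1 : ℂ → ℂ} (hb0 : ContDiff ℝ ∞ b0)
    (hb1 : ContDiff ℝ ∞ b1)
    (h : ∀ z, z ≠ 0 → b0 z = z ^ k * ((starRingEnd ℂ) (-(z ^ 2)⁻¹) * b1 z⁻¹))
    {A : ℝ} (h0 : ∀ z, ‖z‖ ≤ 2 → ‖b0 z‖ ≤ A) (h1 : ∀ z, ‖z‖ ≤ 2 → ‖b1 z‖ ≤ A) :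
    ∃ v0 v1 : ℂ → ℂ, ContDiff ℝ ∞ v0 ∧ ContDiff ℝ ∞ v1 ∧ (∀ z, db v0 z = b0 z) ∧
      (∀ z, db v1 z = b1 z) ∧ (∀ z, z ≠ 0 → v0 z = z ^ k * v1 z⁻¹) ∧
      (∀ z, ‖z‖ ≤ 1 → ‖v0 z‖ ≤ A * bigC) ∧ ∀ z, ‖z‖ ≤ 1 → ‖v1 z‖ ≤ A * bigC := by
  have hA : 0 ≤ A := (norm_nonneg _).trans (h0 0 (by simp))
  obtain ⟨χ, hχ, hχ0, hχ1, hχin, hχout⟩ := exists_cutoff
  obtain ⟨m, hm⟩ : ∃ m : ℕ, k = (m : ℤ) - 1 := ⟨(k + 1).toNat, by omega⟩
  set ψ : ℂ → ℝ := fun w => if w = 0 then 1 else 1 - χ w⁻¹ with hψ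
  have hψn : ∀ w, w ≠ 0 → ψ w = 1 - χ w⁻¹ := by
    intro w hw
    simp only [hψ]
    rw [if_neg hw]
  have hψ0 : ψ 0 = 1 := by simp [hψ]
  have hψc : ContDiff ℝ ∞ ψ := by
    rw [contDiff_iff_contDiffAt]
    intro w
    by_cases hw : w = 0
    · subst hw
      refine (contDiffAt_const (c := (1 : ℝ))).congr_of_eventuallyEq ?_
      filter_upwards [ball_mem_nhds (0 : ℂ) (show (0 : ℝ) < 2⁻¹ by norm_num)] with x hx
      by_cases hx0 : x = 0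
      · rw [hx0, hψ0]
      · rw [hψn x hx0, hχout, sub_zero]
        rw [mem_ball_zero_iff] at hx
        rw [norm_inv]
        have : 0 < ‖x‖ := norm_pos_iff.2 hx0
        rw [le_inv_comm₀ two_pos this]
        exact hx.le
    · have h2 : ψ =ᶠ[𝓝 w] fun x => 1 - χ x⁻¹ := by
        filter_upwards [isOpen_ne.mem_nhds hw] with x hx
        exact hψn x hx
      refine ContDiffAt.congr_of_eventuallyEq ?_ h2
      exact contDiffAt_const.sub ((hχ.contDiffAt).comp w (contDiffAt_inv ℝ hw))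
  have hψnn : ∀ w, 0 ≤ ψ w := by
    intro w
    by_cases hw : w = 0
    · rw [hw, hψ0]
      exact zero_le_one
    · rw [hψn w hw]
      linarith [hχ1 w⁻¹]
  have hψle : ∀ w, ψ w ≤ 1 := by
    intro w
    by_cases hw : w = 0
    · rw [hw, hψ0]
    · rw [hψn w hw]
      linarith [hχ0 w⁻¹]
  have hψout : ∀ w, 1 ≤ ‖w‖ → ψ w = 0 := by
    intro w hw
    have hw0 : w ≠ 0 := by
      rintro rfl
      simp at hw
      linarith
    rw [hψn w hw0, hχin, sub_self]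
    rw [norm_inv]
    exact inv_le_one_of_one_le₀ hw
  set g0 : ℂ → ℂ := fun z => (χ z : ℂ) * b0 z with hg0
  set g1 : ℂ → ℂ := fun z => (ψ z : ℂ) * b1 z with hg1
  have hg0c : ContDiff ℝ ∞ g0 := (Complex.ofRealCLM.contDiff.comp hχ).mul hb0
  have hg1c : ContDiff ℝ ∞ g1 := (Complex.ofRealCLM.contDiff.comp hψc).mul hb1
  have hg0s : ∀ x, x ∉ closedBall (0 : ℂ) 2 → g0 x = 0 := by
    intro x hx
    rw [mem_closedBall_zero_iff, not_le] at hx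
    simp [hg0, hχout x hx.le]
  have hg1s : ∀ x, x ∉ closedBall (0 : ℂ) 2 → g1 x = 0 := by
    intro x hx
    rw [mem_closedBall_zero_iff, not_le] at hx
    simp [hg1, hψout x (by linarith)]
  have hg0A : ∀ x, ‖g0 x‖ ≤ A := by
    intro x
    by_cases hx : x ∈ closedBall (0 : ℂ) 2
    · have h2 := h0 x (by simpa using hx)
      simp only [hg0, norm_mul, Complex.norm_real, Real.norm_eq_abs, abs_of_nonneg (hχ0 x)]
      calc χ x * ‖b0 x‖ ≤ 1 * A := mul_le_mul (hχ1 x) h2 (norm_nonneg _) zero_le_one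
        _ = A := one_mul A
    · rw [hg0s x hx, norm_zero]
      exact hA
  have hg1A : ∀ x, ‖g1 x‖ ≤ A := by
    intro x
    by_cases hx : x ∈ closedBall (0 : ℂ) 2
    · have h2 := h1 x (by simpa using hx)
      simp only [hg1, norm_mul, Complex.norm_real, Real.norm_eq_abs, abs_of_nonneg (hψnn x)]
      calc ψ x * ‖b1 x‖ ≤ 1 * A := mul_le_mul (hψle x) h2 (norm_nonneg _) zero_le_one
        _ = A := one_mul A
    · rw [hg1s x hx, norm_zero]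
      exact hA
  obtain ⟨t0, ht0c, ht0, ht0b, ht0d⟩ := exists_tail hg0c zero_le_two hA hg0s hg0A
  obtain ⟨t1, ht1c, ht1, ht1b, ht1d⟩ := exists_tail hg1c zero_le_two hA hg1s hg1A
  have hu0 := cau_contDiff hg0c (isCompact_closedBall (0 : ℂ) 2) hg0s
  have hu1 := cau_contDiff hg1c (isCompact_closedBall (0 : ℂ) 2) hg1s
  have hpow : ContDiff ℝ ∞ fun z : ℂ => z ^ m := contDiff_id.pow m
  have hdpow : ∀ z : ℂ, db (fun w => w ^ m) z = 0 := fun z =>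
    db_of_differentiableAt (differentiableAt_pow m)
  have hdm : ∀ (t : ℂ → ℂ) (z : ℂ), ContDiff ℝ ∞ t → db (fun w => w ^ m * t w) z = z ^ m * db t z := by
    intro t z ht
    rw [db_mul (hpow.differentiable (by simp) z) (ht.differentiable (by simp) z), hdpow, zero_mul,
      add_zero]
  have hda : ∀ (u t : ℂ → ℂ) (z : ℂ), ContDiff ℝ ∞ u → ContDiff ℝ ∞ t →
      db (fun w => u w + w ^ m * t w) z = db u z + z ^ m * db t z := by
    intro u t z hu ht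
    rw [db_add (hu.differentiable (by simp) z) ((hpow.mul ht).differentiable (by simp) z),
      hdm t z ht]
  have hzk : ∀ z : ℂ, z ≠ 0 → z ^ k = z ^ m * z⁻¹ := by
    intro z hz
    rw [hm, zpow_sub₀ hz, zpow_natCast, zpow_one, div_eq_mul_inv]
  refine ⟨fun z => cau g0 z + z ^ m * t1 z, fun z => cau g1 z + z ^ m * t0 z,
    hu0.add (hpow.mul ht1c), hu1.add (hpow.mul ht0c), ?_, ?_, ?_, ?_, ?_⟩
  · intro z
    rw [hda _ _ z hu0 ht1c, db_cau hg0c (isCompact_closedBall (0 : ℂ) 2) hg0s, ht1d]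
    by_cases hz : z = 0
    · subst hz
      rw [if_pos rfl, mul_zero, add_zero]
      simp [hg0, hχin 0 (by simp)]
    · rw [if_neg hz]
      simp only [hg0, hg1]
      rw [hψn _ (inv_ne_zero hz), inv_inv, h z hz, hzk z hz]
      push_cast
      ring
  · intro z
    rw [hda _ _ z hu1 ht0c, db_cau hg1c (isCompact_closedBall (0 : ℂ) 2) hg1s, ht0d]
    by_cases hz : z = 0
    · subst hz
      rw [if_pos rfl, mul_zero, add_zero]
      simp [hg1, hψ0]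
    · rw [if_neg hz]
      simp only [hg0, hg1]
      rw [hψn z hz, h _ (inv_ne_zero hz), inv_inv, hzk _ (inv_ne_zero hz)]
      have e1 : (starRingEnd ℂ) (-((z⁻¹) ^ 2)⁻¹) = -((starRingEnd ℂ) z) ^ 2 := by
        rw [map_neg, map_inv₀, map_pow, map_inv₀, inv_pow, inv_inv]
      have e2 : (starRingEnd ℂ) (-(z ^ 2)⁻¹) = -(((starRingEnd ℂ) z) ^ 2)⁻¹ := by
        rw [map_neg, map_inv₀, map_pow]
      rw [e1, e2]
      have hc : (starRingEnd ℂ) z ≠ 0 := by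
        rwa [Ne, map_eq_zero]
      push_cast
      rw [inv_pow, inv_inv]
      field_simp
      ring
  · intro z hz
    simp only
    have e0 := ht0 z⁻¹ (inv_ne_zero hz)
    rw [inv_inv] at e0
    rw [e0, ht1 z hz, hzk z hz, inv_pow]
    field_simp
    ring
  · intro z hz
    refine (norm_add_le _ _).trans ?_
    have e1 := norm_cau_le hA hg0s hg0A z
    have e2 : ‖z ^ m * t1 z‖ ≤ 1 * (A * ((1 + 2) * cst 2)) := by
      rw [norm_mul, norm_pow]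
      exact mul_le_mul (pow_le_one₀ (norm_nonneg _) hz) (ht1b z) (norm_nonneg _) zero_le_one
    rw [bigC]
    linarith
  · intro z hz
    refine (norm_add_le _ _).trans ?_
    have e1 := norm_cau_le hA hg1s hg1A z
    have e2 : ‖z ^ m * t0 z‖ ≤ 1 * (A * ((1 + 2) * cst 2)) := by
      rw [norm_mul, norm_pow]
      exact mul_le_mul (pow_le_one₀ (norm_nonneg _) hz) (ht0b z) (norm_nonneg _) zero_le_one
    rw [bigC]
    linarith

/-- the case of functions: a primitive which is bounded by `A * bigC` everywhere -/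
theorem exists_primitive {b0 b1 : ℂ → ℂ} (hb0 : ContDiff ℝ ∞ b0) (hb1 : ContDiff ℝ ∞ b1)
    (h : ∀ z, z ≠ 0 → b0 z = (starRingEnd ℂ) (-(z ^ 2)⁻¹) * b1 z⁻¹)
    {A : ℝ} (h0 : ∀ z, ‖z‖ ≤ 2 → ‖b0 z‖ ≤ A) (h1 : ∀ z, ‖z‖ ≤ 2 → ‖b1 z‖ ≤ A) :
    ∃ v0 v1 : ℂ → ℂ, ContDiff ℝ ∞ v0 ∧ ContDiff ℝ ∞ v1 ∧ (∀ z, db v0 z = b0 z) ∧
      (∀ z, db v1 z = b1 z) ∧ (∀ z, z ≠ 0 → v0 z = v1 z⁻¹) ∧
      (∀ z, ‖v0 z‖ ≤ A * bigC) ∧ ∀ z, ‖v1 z‖ ≤ A * bigC := by
  obtain ⟨v0, v1, h2, h3, h4, h5, h6, h7, h8⟩ := h1_zero (k := 0) (by norm_num) hb0 hb1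
    (by simpa using h) h0 h1
  have h6' : ∀ z, z ≠ 0 → v0 z = v1 z⁻¹ := by
    intro z hz
    simpa using h6 z hz
  refine ⟨v0, v1, h2, h3, h4, h5, h6', ?_, ?_⟩
  · intro z
    rcases le_or_gt ‖z‖ 1 with hz | hz
    · exact h7 z hz
    · have hz0 : z ≠ 0 := by
        rintro rfl
        simp at hz
        linarith
      rw [h6' z hz0]
      refine h8 _ ?_
      rw [norm_inv]
      exact inv_le_one_of_one_le₀ hz.le
  · intro z
    rcases le_or_gt ‖z‖ 1 with hz | hz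
    · exact h8 z hz
    · have hz0 : z ≠ 0 := by
        rintro rfl
        simp at hz
        linarith
      have := h6' z⁻¹ (inv_ne_zero hz0)
      rw [inv_inv] at this
      rw [← this]
      refine h7 _ ?_
      rw [norm_inv]
      exact inv_le_one_of_one_le₀ hz.le

theorem db_mul_exp {u v : ℂ → ℂ} (hu : ContDiff ℝ ∞ u) (hv : ContDiff ℝ ∞ v) {z a : ℂ}
    (h1 : db u z = -(a * u z)) (h2 : db v z = a) : db (fun w => u w * Complex.exp (v w)) z = 0 := by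
  have hv' : DifferentiableAt ℝ v z := hv.differentiable (by simp) z
  have he : fderiv ℝ (fun w => Complex.exp (v w)) z = Complex.exp (v z) • fderiv ℝ v z :=
    (hv'.hasFDerivAt.cexp).fderiv
  have hde : DifferentiableAt ℝ (fun w => Complex.exp (v w)) z := hv'.cexp
  rw [db_mul (hu.differentiable (by simp) z) hde, h1]
  have : db (fun w => Complex.exp (v w)) z = Complex.exp (v z) * db v z := by
    rw [db, he, db]
    simp only [smul_apply, smul_eq_mul]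
    ring
  rw [this, h2]
  ring

/-- **(P6)**: a holomorphic section of a bundle given by the form `a` on the trivial bundle -/
theorem osc {a0 a1 u0 u1 : ℂ → ℂ} (ha0 : ContDiff ℝ ∞ a0) (ha1 : ContDiff ℝ ∞ a1)
    (hu0 : ContDiff ℝ ∞ u0) (hu1 : ContDiff ℝ ∞ u1)
    (ha : ∀ z, z ≠ 0 → a0 z = (starRingEnd ℂ) (-(z ^ 2)⁻¹) * a1 z⁻¹)
    (hu : ∀ z, z ≠ 0 → u0 z = u1 z⁻¹)
    (hd0 : ∀ z, db u0 z = -(a0 z * u0 z)) (hd1 : ∀ z, db u1 z = -(a1 z * u1 z))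
    {A : ℝ} (h0 : ∀ z, ‖z‖ ≤ 2 → ‖a0 z‖ ≤ A) (h1 : ∀ z, ‖z‖ ≤ 2 → ‖a1 z‖ ≤ A) :
    ∃ (c : ℂ) (v0 v1 : ℂ → ℂ), ContDiff ℝ ∞ v0 ∧ ContDiff ℝ ∞ v1 ∧ (∀ z, ‖v0 z‖ ≤ A * bigC) ∧
      (∀ z, ‖v1 z‖ ≤ A * bigC) ∧ (∀ z, z ≠ 0 → v0 z = v1 z⁻¹) ∧
      (∀ z, db v0 z = a0 z) ∧ (∀ z, db v1 z = a1 z) ∧
      (∀ z, u0 z = c * Complex.exp (-v0 z)) ∧ ∀ z, u1 z = c * Complex.exp (-v1 z) := by
  obtain ⟨v0, v1, h2, h3, h4, h5, h6, h7, h8⟩ := exists_primitive ha0 ha1 ha h0 h1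
  have k0 : Differentiable ℂ fun w => u0 w * Complex.exp (v0 w) := by
    intro z
    refine differentiableAt_of_db ?_ (db_mul_exp hu0 h2 (hd0 z) (h4 z))
    exact (hu0.differentiable (by simp) z).mul ((h2.differentiable (by simp) z).cexp)
  have k1 : Differentiable ℂ fun w => u1 w * Complex.exp (v1 w) := by
    intro z
    refine differentiableAt_of_db ?_ (db_mul_exp hu1 h3 (hd1 z) (h5 z))
    exact (hu1.differentiable (by simp) z).mul ((h3.differentiable (by simp) z).cexp)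
  obtain ⟨c, hc0, hc1⟩ := sec_zero k0 k1 (by
    intro z hz
    rw [hu z hz, h6 z hz])
  refine ⟨c, v0, v1, h2, h3, h7, h8, h6, h4, h5, ?_, ?_⟩
  · intro z
    rw [← hc0 z, mul_assoc, ← Complex.exp_add]
    simp
  · intro z
    rw [← hc1 z, mul_assoc, ← Complex.exp_add]
    simp

/-- oscillation bound in the first chart -/
theorem osc_le {c : ℂ} {v0 v1 : ℂ → ℂ} {B : ℝ} (h0 : ∀ z, ‖v0 z‖ ≤ B) (h1 : ∀ z, ‖v1 z‖ ≤ B)
    (x y : ℂ) : ‖c * Complex.exp (-v0 x)‖ ≤ Real.exp (2 * B) * ‖c * Complex.exp (-v1 y)‖ := by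
  rw [norm_mul, norm_mul, Complex.norm_exp, Complex.norm_exp]
  have e1 : (-v0 x).re ≤ B := by
    have := (Complex.abs_re_le_norm (-v0 x)).trans ((norm_neg _).trans_le (h0 x))
    exact (le_abs_self _).trans this
  have e2 : -B ≤ (-v1 y).re := by
    have := (Complex.abs_re_le_norm (-v1 y)).trans ((norm_neg _).trans_le (h1 y))
    exact (abs_le.1 this).1
  have e3 : Real.exp (-v0 x).re ≤ Real.exp (2 * B) * Real.exp (-v1 y).re := by
    rw [← Real.exp_add]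
    exact Real.exp_le_exp.2 (by linarith)
  calc ‖c‖ * Real.exp (-v0 x).re ≤ ‖c‖ * (Real.exp (2 * B) * Real.exp (-v1 y).re) :=
        mul_le_mul_of_nonneg_left e3 (norm_nonneg _)
    _ = _ := by ring

/-- **(P6)**, final form: identically zero or nowhere zero, and the oscillation bound -/
theorem osc_bound {a0 a1 u0 u1 : ℂ → ℂ} (ha0 : ContDiff ℝ ∞ a0) (ha1 : ContDiff ℝ ∞ a1)
    (hu0 : ContDiff ℝ ∞ u0) (hu1 : ContDiff ℝ ∞ u1)
    (ha : ∀ z, z ≠ 0 → a0 z = (starRingEnd ℂ) (-(z ^ 2)⁻¹) * a1 z⁻¹)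
    (hu : ∀ z, z ≠ 0 → u0 z = u1 z⁻¹)
    (hd0 : ∀ z, db u0 z = -(a0 z * u0 z)) (hd1 : ∀ z, db u1 z = -(a1 z * u1 z))
    {A : ℝ} (h0 : ∀ z, ‖z‖ ≤ 2 → ‖a0 z‖ ≤ A) (h1 : ∀ z, ‖z‖ ≤ 2 → ‖a1 z‖ ≤ A) :
    (((∀ z, u0 z = 0) ∧ ∀ z, u1 z = 0) ∨ ((∀ z, u0 z ≠ 0) ∧ ∀ z, u1 z ≠ 0)) ∧
      (∀ x y, ‖u0 x‖ ≤ Real.exp (2 * (A * bigC)) * ‖u0 y‖) ∧
      (∀ x y, ‖u0 x‖ ≤ Real.exp (2 * (A * bigC)) * ‖u1 y‖) ∧
      (∀ x y, ‖u1 x‖ ≤ Real.exp (2 * (A * bigC)) * ‖u0 y‖) ∧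
      ∀ x y, ‖u1 x‖ ≤ Real.exp (2 * (A * bigC)) * ‖u1 y‖ := by
  obtain ⟨c, v0, v1, -, -, h2, h3, -, -, -, h4, h5⟩ := osc ha0 ha1 hu0 hu1 ha hu hd0 hd1 h0 h1
  refine ⟨?_, ?_, ?_, ?_, ?_⟩
  · by_cases hc : c = 0
    · left
      exact ⟨fun z => by rw [h4 z, hc, zero_mul], fun z => by rw [h5 z, hc, zero_mul]⟩
    · right
      exact ⟨fun z => by rw [h4 z]; exact mul_ne_zero hc (Complex.exp_ne_zero _),
        fun z => by rw [h5 z]; exact mul_ne_zero hc (Complex.exp_ne_zero _)⟩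
  · intro x y
    rw [h4 x, h4 y]
    exact osc_le h2 h2 x y
  · intro x y
    rw [h4 x, h5 y]
    exact osc_le h2 h3 x y
  · intro x y
    rw [h5 x, h4 y]
    exact osc_le h3 h2 x y
  · intro x y
    rw [h5 x, h5 y]
    exact osc_le h3 h3 x y

end

end Vale.Agent.P267.H331.P1
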