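import Vale.Agent.P267.H331.Comp

/-! P267 / H331 (helper331), package CHEAP-C2, part B3: an ambient pole function on a component of the
regular part of an analytic curve; the inverse function. -/

namespace Vale.Agent.P267.H331

open Set Filter Topology Metric
open scoped Manifold ContDiff Classical

noncomputable section

set_option linter.unusedSectionVars false

variable {M : Type*} [TopologicalSpace M] [ChartedSpace (Fin 2 → ℂ) M]

/-- Ambient pole function: `Φ` is continuous on `Z \ {p}`, holomorphic along the component of the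
regular part of `Z` through `p` with exactly one simple pole, at `p`, and has the limit `c₀` at
infinity along `Z` (void when `M` is compact). -/
structure Amb (Z : Set M) (p : M) (Φ : M → ℂ) (c₀ : ℂ) : Prop where
  closed : IsClosed Z
  count : (Z \ Reg Z).Countable
  cont : ContinuousOn Φ (Z \ {p})
  hol : ∀ q ∈ Cmp Z p, q ≠ p → ∃ κ, RegChart Z q κ ∧ AnalyticAt ℂ (fun t => Φ (dsc κ t)) 0
  pole : ∃ κ, RegChart Z p κ ∧ ∃ v : ℂ → ℂ, AnalyticAt ℂ v 0 ∧
    ∀ᶠ t in 𝓝[≠] (0 : ℂ), Φ (dsc κ t) = t⁻¹ + v t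
  lim : Tendsto Φ (cocompact M ⊓ 𝓟 Z) (𝓝 c₀)

namespace Amb

variable {Z : Set M} {p : M} {Φ : M → ℂ} {c₀ : ℂ}

theorem reg (h : Amb Z p Φ c₀) : p ∈ Reg Z := by
  obtain ⟨κ, hκ, -⟩ := h.pole
  exact ⟨κ, hκ⟩

theorem p_mem (h : Amb Z p Φ c₀) : p ∈ Cmp Z p := mem_Cmp h.reg

theorem closure_sub (h : Amb Z p Φ c₀) : closure (Cmp Z p) ⊆ Z :=
  closure_minimal (Cmp_sub.trans Reg_sub) h.closed

/-- the good charts -/
theorem exists_chart (h : Amb Z p Φ c₀) (q : M) (hq : q ∈ Cmp Z p) : ∃ κ, RegChart Z q κ ∧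
    (q ≠ p → AnalyticAt ℂ (fun t => Φ (dsc κ t)) 0) ∧
    (q = p → ∃ v : ℂ → ℂ, AnalyticAt ℂ v 0 ∧ ∀ᶠ t in 𝓝[≠] (0 : ℂ), Φ (dsc κ t) = t⁻¹ + v t) := by
  by_cases hqp : q = p
  · subst hqp
    obtain ⟨κ, h1, h2⟩ := h.pole
    exact ⟨κ, h1, fun hh => absurd rfl hh, fun _ => h2⟩
  · obtain ⟨κ, h1, h2⟩ := h.hol q hq hqp
    exact ⟨κ, h1, fun _ => h2, fun hh => absurd hh hqp⟩

/-- chosen chart of the ambient space -/
def K (h : Amb Z p Φ c₀) (s : Cmp Z p) : OpenPartialHomeomorph M (Fin 2 → ℂ) :=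
  (h.exists_chart s s.2).choose

theorem K_reg (h : Amb Z p Φ c₀) (s : Cmp Z p) : RegChart Z s (h.K s) :=
  (h.exists_chart s s.2).choose_spec.1

theorem K_hol (h : Amb Z p Φ c₀) (s : Cmp Z p) (hs : (s : M) ≠ p) :
    AnalyticAt ℂ (fun t => Φ (dsc (h.K s) t)) 0 :=
  (h.exists_chart s s.2).choose_spec.2.1 hs

theorem K_pole (h : Amb Z p Φ c₀) (s : Cmp Z p) (hs : (s : M) = p) :
    ∃ v : ℂ → ℂ, AnalyticAt ℂ v 0 ∧ ∀ᶠ t in 𝓝[≠] (0 : ℂ), Φ (dsc (h.K s) t) = t⁻¹ + v t :=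
  (h.exists_chart s s.2).choose_spec.2.2 hs

/-- chosen radius -/
def rad (h : Amb Z p Φ c₀) (s : Cmp Z p) : ℝ := ((h.K_reg s).exists_ball).choose

theorem rad_pos (h : Amb Z p Φ c₀) (s : Cmp Z p) : 0 < h.rad s :=
  ((h.K_reg s).exists_ball).choose_spec.1

theorem rad_sub (h : Amb Z p Φ c₀) (s : Cmp Z p) :
    ball (0 : Fin 2 → ℂ) (h.rad s) ⊆ (h.K s).target :=
  ((h.K_reg s).exists_ball).choose_spec.2

/-- chosen chart of the component -/
def C (h : Amb Z p Φ c₀) (s : Cmp Z p) : OpenPartialHomeomorph (Cmp Z p) ℂ :=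
  cchart (h.K_reg s) s.2 (h.rad_pos s) (h.rad_sub s)

theorem C_self (h : Amb Z p Φ c₀) (s : Cmp Z p) : h.C s s = 0 :=
  (cchart_self (h.K_reg s) s.2 (h.rad_pos s) (h.rad_sub s)).1

theorem C_mem (h : Amb Z p Φ c₀) (s : Cmp Z p) : s ∈ (h.C s).source :=
  (cchart_self (h.K_reg s) s.2 (h.rad_pos s) (h.rad_sub s)).2

theorem C_symm (h : Amb Z p Φ c₀) (s : Cmp Z p) {t : ℂ} (ht : t ∈ ball (0 : ℂ) (h.rad s)) :
    ((h.C s).symm t : M) = dsc (h.K s) t :=
  cchart_symm (h.K_reg s) s.2 (h.rad_pos s) (h.rad_sub s) ht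

theorem C_symm_ev (h : Amb Z p Φ c₀) (s : Cmp Z p) :
    ∀ᶠ t in 𝓝 (0 : ℂ), ((h.C s).symm t : M) = dsc (h.K s) t := by
  filter_upwards [ball_mem_nhds (0 : ℂ) (h.rad_pos s)] with t ht
  exact h.C_symm s ht

theorem C_target (h : Amb Z p Φ c₀) (s : Cmp Z p) : (h.C s).target = ball (0 : ℂ) (h.rad s) := rfl

/-- the base point -/
def pt (h : Amb Z p Φ c₀) : Cmp Z p := ⟨p, h.p_mem⟩

theorem ne_pt (h : Amb Z p Φ c₀) {s : Cmp Z p} : s ≠ h.pt ↔ (s : M) ≠ p :=
  not_congr Subtype.ext_iff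

/-- the restriction -/
def phi (_h : Amb Z p Φ c₀) (s : Cmp Z p) : ℂ := Φ s

theorem poleData (h : Amb Z p Φ c₀) : PoleData h.C h.pt h.phi where
  mem := h.C_mem
  hol := by
    intro s hs
    rw [h.C_self s]
    refine (h.K_hol s (h.ne_pt.1 hs)).congr ?_
    filter_upwards [h.C_symm_ev s] with t ht
    simp only [Function.comp_apply, phi, ht]
  pole := by
    rw [h.C_self]
    obtain ⟨v, hv, hv2⟩ := h.K_pole h.pt rfl
    refine ⟨v, hv, ?_⟩
    filter_upwards [hv2, (h.C_symm_ev h.pt).filter_mono nhdsWithin_le_nhds] with t ht ht2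
    rw [sub_zero, phi, ht2, ht]

theorem connectedSpace (h : Amb Z p Φ c₀) : ConnectedSpace (Cmp Z p) :=
  Subtype.connectedSpace ⟨⟨p, h.p_mem⟩, isPreconnected_Cmp⟩

theorem nhds_compact (h : Amb Z p Φ c₀) (s : Cmp Z p) : ∃ K ∈ 𝓝 s, IsCompact K := by
  have hr := h.rad_pos s
  have hsub : closedBall (0 : ℂ) (h.rad s / 2) ⊆ (h.C s).symm.source := by
    intro t ht
    change t ∈ ball (0 : ℂ) (h.rad s)
    rw [mem_closedBall] at ht
    rw [mem_ball]
    linarith
  refine ⟨(h.C s).symm '' closedBall (0 : ℂ) (h.rad s / 2), ?_, ?_⟩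
  · rw [← h.poleData.map_symm s]
    refine image_mem_map ?_
    rw [h.C_self s]
    exact closedBall_mem_nhds _ (by linarith)
  · exact (isCompact_closedBall _ _).image_of_continuousOn ((h.C s).symm.continuousOn.mono hsub)

/-- ultrafilters on the component -/
theorem ultra [T2Space M] (h : Amb Z p Φ c₀) (U : Ultrafilter (Cmp Z p))
    (hU : (U : Filter (Cmp Z p)) ≤ cocompact (Cmp Z p)) :
    (∃ q ∈ Z \ Reg Z, Tendsto h.phi U (𝓝 (Φ q))) ∨ Tendsto h.phi U (𝓝 c₀) := by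
  have hZ : ∀ᶠ x : Cmp Z p in (U : Filter (Cmp Z p)), (x : M) ∈ Z :=
    Eventually.of_forall fun x => Reg_sub (Cmp_sub x.2)
  by_cases hc : Tendsto (fun x : Cmp Z p => (x : M)) U (cocompact M)
  · right
    have : Tendsto (fun x : Cmp Z p => (x : M)) U (cocompact M ⊓ 𝓟 Z) :=
      tendsto_inf.2 ⟨hc, tendsto_principal.2 hZ⟩
    exact h.lim.comp this
  · left
    -- converges in `M`
    have h1 : ∃ q, Tendsto (fun x : Cmp Z p => (x : M)) U (𝓝 q) := by
      rw [Tendsto, le_def] at hc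
      push Not at hc
      obtain ⟨T, hT, hTU⟩ := hc
      obtain ⟨L, hL, hLT⟩ := mem_cocompact.1 hT
      have h2 : L ∈ U.map (fun x : Cmp Z p => (x : M)) := by
        rw [← Ultrafilter.compl_notMem_iff]
        intro h3
        exact hTU (mem_of_superset h3 hLT)
      obtain ⟨q, -, hq⟩ := isCompact_iff_ultrafilter_le_nhds.1 hL
        (U.map (fun x : Cmp Z p => (x : M))) (le_principal_iff.2 h2)
      exact ⟨q, hq⟩
    obtain ⟨q, hq⟩ := h1
    have hqc : q ∈ closure (Cmp Z p) :=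
      mem_closure_of_tendsto hq (Eventually.of_forall fun x => x.2)
    have hqZ : q ∈ Z := h.closure_sub hqc
    have hqR : q ∉ Reg Z := by
      intro hqR
      have hqC : q ∈ Cmp Z p := mem_Cmp_of_closure hqR hqc
      have h3 : (U : Filter (Cmp Z p)) ≤ 𝓝 ⟨q, hqC⟩ := by
        rw [nhds_subtype, ← tendsto_iff_comap]
        exact hq
      obtain ⟨L, hL, hLc⟩ := h.nhds_compact ⟨q, hqC⟩
      have h4 : L ∈ (U : Filter (Cmp Z p)) := h3 hL
      have h5 : Lᶜ ∈ (U : Filter (Cmp Z p)) := hU hLc.compl_mem_cocompact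
      have h6 := inter_mem h4 h5
      rw [inter_compl_self] at h6
      exact U.neBot.ne (empty_mem_iff_bot.1 h6)
    refine ⟨q, ⟨hqZ, hqR⟩, ?_⟩
    have hqp : q ≠ p := fun hh => hqR (hh ▸ h.reg)
    have h7 : Tendsto Φ (𝓝[Z \ {p}] q) (𝓝 (Φ q)) := h.cont q ⟨hqZ, hqp⟩
    refine h7.comp (tendsto_nhdsWithin_iff.2 ⟨hq, ?_⟩)
    filter_upwards [hZ, hq.eventually (isOpen_ne.mem_nhds hqp)] with x hx1 hx2
    exact ⟨hx1, hx2⟩

/-- the exceptional values -/
def P (_h : Amb Z p Φ c₀) : Set ℂ := insert c₀ (Φ '' (Z \ Reg Z))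

theorem P_countable (h : Amb Z p Φ c₀) : h.P.Countable := (h.count.image Φ).insert c₀

theorem proper [T2Space M] (h : Amb Z p Φ c₀) : PoleData.Proper h.pt h.phi h.P where
  fin := by
    intro w hw
    by_contra hno
    push Not at hno
    -- a filter
    set F : Filter (Cmp Z p) := comap h.phi (𝓝 w) ⊓ cocompact (Cmp Z p) with hF
    have hFne : F.NeBot := by
      rw [hF, inf_neBot_iff]
      intro S₁ hS₁ S₂ hS₂
      obtain ⟨N, hN, hNS⟩ := mem_comap.1 hS₁
      obtain ⟨L, hL, hLS⟩ := mem_cocompact.1 hS₂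
      obtain ⟨s, -, hsN, hsL⟩ := hno N hN L hL
      exact ⟨s, hNS hsN, hLS hsL⟩
    set U := Ultrafilter.of F with hU
    have h1 : (U : Filter (Cmp Z p)) ≤ cocompact (Cmp Z p) :=
      (Ultrafilter.of_le F).trans inf_le_right
    have h2 : Tendsto h.phi U (𝓝 w) :=
      tendsto_iff_comap.2 ((Ultrafilter.of_le F).trans inf_le_left)
    rcases h.ultra U h1 with ⟨q, hq, hq2⟩ | h3
    · exact hw (Or.inr ⟨q, hq, tendsto_nhds_unique hq2 h2⟩)
    · exact hw (Or.inl (tendsto_nhds_unique h2 h3))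
  inf := by
    by_contra hno
    push Not at hno
    set F : Filter (Cmp Z p) := comap (fun s => ‖h.phi s‖) atTop ⊓ cocompact (Cmp Z p) with hF
    have hFne : F.NeBot := by
      rw [hF, inf_neBot_iff]
      intro S₁ hS₁ S₂ hS₂
      obtain ⟨N, hN, hNS⟩ := mem_comap.1 hS₁
      obtain ⟨R, hR⟩ := mem_atTop_sets.1 hN
      obtain ⟨L, hL, hLS⟩ := mem_cocompact.1 hS₂
      obtain ⟨s, -, hsN, hsL⟩ := hno R L hL
      exact ⟨s, hNS (hR _ hsN.le), hLS hsL⟩
    set U := Ultrafilter.of F with hU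
    have h1 : (U : Filter (Cmp Z p)) ≤ cocompact (Cmp Z p) :=
      (Ultrafilter.of_le F).trans inf_le_right
    have h2 : Tendsto (fun s => ‖h.phi s‖) U atTop :=
      tendsto_iff_comap.2 ((Ultrafilter.of_le F).trans inf_le_left)
    rcases h.ultra U h1 with ⟨q, hq, hq2⟩ | h3
    · exact not_tendsto_nhds_of_tendsto_atTop h2 _ hq2.norm
    · exact not_tendsto_nhds_of_tendsto_atTop h2 _ h3.norm

/-! ### injectivity -/

section inj

variable [T2Space M] [SecondCountableTopology M]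

theorem injOn (h : Amb Z p Φ c₀) : InjOn h.phi {h.pt}ᶜ := by
  have := h.connectedSpace
  exact h.poleData.injOn h.P_countable h.proper

theorem inj (h : Amb Z p Φ c₀) {x y : M} (hx : x ∈ Cmp Z p) (hy : y ∈ Cmp Z p) (hxp : x ≠ p)
    (hyp : y ≠ p) (hxy : Φ x = Φ y) : x = y := by
  have h1 := h.injOn (x₁ := ⟨x, hx⟩) (x₂ := ⟨y, hy⟩) (fun hh => hxp (Subtype.ext_iff.1 hh))
    (fun hh => hyp (Subtype.ext_iff.1 hh)) hxy
  exact Subtype.ext_iff.1 h1

/-- the image of the component -/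
def Om (h : Amb Z p Φ c₀) : Set ℂ := h.phi '' {h.pt}ᶜ

theorem isOpen_Om (h : Amb Z p Φ c₀) : IsOpen h.Om := by
  have := h.connectedSpace
  exact h.poleData.isOpen_range

theorem Om_compl (h : Amb Z p Φ c₀) : h.Omᶜ.Countable := by
  have := h.connectedSpace
  refine h.P_countable.mono ?_
  rw [compl_subset_comm]
  exact h.poleData.subset_range h.P_countable h.proper

theorem Om_dense (h : Amb Z p Φ c₀) : Dense h.Om := by
  have := h.Om_compl.dense_compl ℝ
  rwa [compl_compl] at this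

theorem mem_Om (h : Amb Z p Φ c₀) {x : M} (hx : x ∈ Cmp Z p) (hxp : x ≠ p) : Φ x ∈ h.Om :=
  ⟨⟨x, hx⟩, fun hh => hxp (Subtype.ext_iff.1 hh), rfl⟩

/-- the section with values in the component -/
def secS (h : Amb Z p Φ c₀) (w : ℂ) : Cmp Z p := if hw : w ∈ h.Om then hw.choose else h.pt

theorem secS_ne (h : Amb Z p Φ c₀) {w : ℂ} (hw : w ∈ h.Om) : h.secS w ≠ h.pt := by
  rw [secS, dif_pos hw]
  exact hw.choose_spec.1

theorem phi_secS (h : Amb Z p Φ c₀) {w : ℂ} (hw : w ∈ h.Om) : h.phi (h.secS w) = w := by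
  rw [secS, dif_pos hw]
  exact hw.choose_spec.2

theorem secS_phi (h : Amb Z p Φ c₀) {s : Cmp Z p} (hs : s ≠ h.pt) : h.secS (h.phi s) = s := by
  have hw : h.phi s ∈ h.Om := ⟨s, hs, rfl⟩
  exact h.injOn (h.secS_ne hw) hs (h.phi_secS hw)

theorem continuousAt_secS (h : Amb Z p Φ c₀) {w : ℂ} (hw : w ∈ h.Om) :
    ContinuousAt h.secS w := by
  have := h.connectedSpace
  intro U hU
  have h1 : U \ {h.pt} ∈ 𝓝 (h.secS w) :=
    inter_mem hU (isOpen_ne.mem_nhds (h.secS_ne hw))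
  have h2 : h.phi '' (U \ {h.pt}) ∈ 𝓝 w := by
    have h3 := h.poleData.nhds_le (h.secS_ne hw) (image_mem_map h1)
    rwa [h.phi_secS hw] at h3
  rw [mem_map]
  refine mem_of_superset h2 ?_
  rintro _ ⟨s, ⟨hsU, hs⟩, rfl⟩
  change h.secS (h.phi s) ∈ U
  rwa [h.secS_phi hs]

theorem analyticAt_secS (h : Amb Z p Φ c₀) {w : ℂ} (hw : w ∈ h.Om) :
    AnalyticAt ℂ (fun z => h.C (h.secS w) (h.secS z)) w := by
  have := h.connectedSpace
  set s := h.secS w with hs
  have hsp : s ≠ h.pt := h.secS_ne hw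
  set τ := fun z => h.C s (h.secS z) with hτ
  have hτw : τ w = h.C s s := rfl
  set F := h.phi ∘ (h.C s).symm with hF
  have hFa : AnalyticAt ℂ F (h.C s s) := h.poleData.hol s hsp
  -- near `w` the section stays in the source of the chart and `F (τ z) = z`
  have hsrc : ∀ᶠ z in 𝓝 w, h.secS z ∈ (h.C s).source :=
    (h.continuousAt_secS hw) ((h.C s).open_source.mem_nhds (h.C_mem s))
  have hOm : ∀ᶠ z in 𝓝 w, z ∈ h.Om := h.isOpen_Om.mem_nhds hw
  have hcont : ∀ᶠ z in 𝓝 w, ContinuousAt τ z := by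
    filter_upwards [hsrc, hOm] with z hz1 hz2
    exact ((h.C s).continuousAt hz1).comp (h.continuousAt_secS hz2)
  have hinv : ∀ᶠ z in 𝓝 w, F (τ z) = z := by
    filter_upwards [hsrc, hOm] with z hz1 hz2
    simp only [hF, hτ, Function.comp_apply, (h.C s).left_inv hz1, h.phi_secS hz2]
  -- the derivative of `F` does not vanish off the centre
  have hder : ∀ᶠ t in 𝓝[≠] (h.C s s), deriv F t ≠ 0 := by
    rcases hFa.deriv.eventually_eq_zero_or_eventually_ne_zero with h0 | h0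
    · exfalso
      refine h.poleData.not_const hsp ?_
      obtain ⟨r, hr, hr2⟩ := Metric.eventually_nhds_iff_ball.1 (h0.and hFa.eventually_analyticAt)
      have hconst : ∀ t ∈ ball (h.C s s) r, F t = F (h.C s s) := by
        intro t ht
        refine (convex_ball (h.C s s) r).is_const_of_fderivWithin_eq_zero (𝕜 := ℂ)
          (fun x hx => (hr2 x hx).2.differentiableAt.differentiableWithinAt) ?_ ht
          (mem_ball_self hr)
        intro x hx
        rw [fderivWithin_of_isOpen isOpen_ball hx]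
        ext
        simpa using (hr2 x hx).1
      have h3 : ∀ᶠ x in 𝓝 s, h.C s x ∈ ball (h.C s s) r :=
        (h.C s).continuousAt (h.C_mem s) (ball_mem_nhds _ hr)
      filter_upwards [h3, (h.C s).open_source.mem_nhds (h.C_mem s)] with x hx1 hx2
      have h4 := hconst _ hx1
      simp only [hF, Function.comp_apply, (h.C s).left_inv hx2, (h.C s).left_inv (h.C_mem s)] at h4
      exact h4
    · exact h0
  have hdiff : ∀ᶠ z in 𝓝 w, z ∉ ({w} : Set ℂ) → DifferentiableAt ℂ τ z := by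
    have h1 : ∀ᶠ z in 𝓝 w, τ z ≠ h.C s s → deriv F (τ z) ≠ 0 := by
      have h2 : ContinuousAt τ w := hcont.self_of_nhds
      have h3 : ∀ᶠ t in 𝓝 (τ w), t ≠ h.C s s → deriv F t ≠ 0 := by
        rw [hτw]
        rw [eventually_nhdsWithin_iff] at hder
        exact hder
      exact h2.eventually h3
    have h1' : ∀ᶠ z in 𝓝 w, AnalyticAt ℂ F (τ z) := by
      have h2 : ContinuousAt τ w := hcont.self_of_nhds
      exact h2.eventually hFa.eventually_analyticAt
    filter_upwards [h1, h1', hcont, hinv.eventually_nhds, hsrc, hOm] with z hz1 hz1' hz2 hz3 hz4 hz5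
    intro hzw
    have hne : τ z ≠ h.C s s := by
      intro hh
      have h4 := (h.C s).injOn hz4 (h.C_mem s) hh
      apply hzw
      rw [mem_singleton_iff, ← h.phi_secS hz5, h4, hs, h.phi_secS hw]
    exact (HasDerivAt.of_local_left_inverse hz2 (hz1'.differentiableAt.hasDerivAt) (hz1 hne)
      hz3).differentiableAt
  exact differentiableAt_off_countable (countable_singleton w) hcont hdiff

end inj

end Amb

end

end Vale.Agent.P267.H331
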